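import Crest.Agent.R278.Gen

/-!
The abstract criterion: two derivations of a function field that are "good" at all valuations
not centred at the origin and vanish at the origin give a counterexample.
-/

set_option autoImplicit false
set_option linter.unusedSectionVars false

namespace Crest.Agent.R278

open Polynomial

variable {K : Type} [Field K] [Algebra ℂ K]

/-- bracket (Jacobian) of two functions with respect to two derivations -/
def br (v₁ v₂ : Derivation ℂ K K) (x y : K) : K := v₁ x * v₂ y - v₂ x * v₁ y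

lemma exists_restrict (R : Type) [CommRing R] [Algebra ℂ R] [Algebra R K] [IsScalarTower ℂ R K]
    (hinj : Function.Injective (algebraMap R K)) (v : Derivation ℂ K K)
    (h : ∀ r : R, ∃ r' : R, algebraMap R K r' = v (algebraMap R K r)) :
    ∃ D : Derivation ℂ R R, ∀ r, algebraMap R K (D r) = v (algebraMap R K r) := by
  choose f hf using h
  let L : R →ₗ[ℂ] R :=
    { toFun := f
      map_add' := fun a b => hinj (by simp [hf])
      map_smul' := fun c a => hinj (by
        have e : ∀ x : R, algebraMap R K (c • x) = c • algebraMap R K x := fun x => by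
          rw [Algebra.smul_def, map_mul, ← IsScalarTower.algebraMap_apply, ← Algebra.smul_def]
        rw [hf, RingHom.id_apply, e, e, hf, Derivation.map_smul]) }
  refine ⟨Derivation.mk' L fun a b => hinj ?_, hf⟩
  change algebraMap R K (f (a * b)) = algebraMap R K (a • f b + b • f a)
  simp [hf]

lemma mem_val_of_isIntegral {R : Type} [CommRing R] [Algebra R K] (V : ValuationSubring K)
    (h : ∀ r : R, algebraMap R K r ∈ V) {x : K} (hx : IsIntegral R x) : x ∈ V := by
  have h5 : IsIntegral V x :=
    hx.map_of_comp_eq ((algebraMap R K).codRestrict V.toSubring h) (RingHom.id K)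
      (RingHom.ext fun _ => rfl)
  obtain ⟨z, hz⟩ := IsIntegrallyClosed.isIntegral_iff.1 h5
  rw [← hz]; exact z.2

section A
variable [Algebra P2 K] [IsScalarTower ℂ P2 K]
variable (A : Type) [CommRing A] [IsDomain A] [Algebra ℂ A] [Algebra P2 A] [Algebra A K]
  [IsScalarTower ℂ P2 A] [IsScalarTower P2 A K] [IsScalarTower ℂ A K] [IsIntegralClosure A P2 K]

lemma der_zero (hinj : Function.Injective (algebraMap P2 K)) (E : Derivation ℂ A K)
    (h : ∀ i, E (algebraMap P2 A (MvPolynomial.X i)) = 0) (a : A) : E a = 0 := by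
  have h1 : ∀ p : P2, E (algebraMap P2 A p) = 0 := by
    intro p
    induction p using MvPolynomial.induction_on with
    | C c => rw [← MvPolynomial.algebraMap_eq, ← IsScalarTower.algebraMap_apply]; simp
    | add p q hp hq => simp [hp, hq]
    | mul_X p i hp => simp [hp, h]
  have h2 : ∀ q : P2[X], E (aeval a q) = aeval a (derivative q) • E a := by
    intro q
    induction q using Polynomial.induction_on' with
    | add p q hp hq => simp [hp, hq, add_smul]
    | monomial n c =>
      simp only [aeval_monomial, Derivation.leibniz, h1, derivative_monomial, smul_zero, add_zero,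
        Derivation.leibniz_pow, map_mul, map_natCast]
      rw [← Nat.cast_smul_eq_nsmul A, smul_smul, smul_smul]
  have hinjA : Function.Injective (algebraMap P2 A) := by
    intro p q hpq
    apply hinj
    rw [IsScalarTower.algebraMap_apply P2 A K, hpq, ← IsScalarTower.algebraMap_apply]
  have : FaithfulSMul P2 A := (faithfulSMul_iff_algebraMap_injective _ _).2 hinjA
  have ha : IsIntegral P2 a := IsIntegralClosure.isIntegral P2 K a
  have h3 := h2 (minpoly P2 a)
  rw [minpoly.aeval, map_zero] at h3
  have h4 : aeval a (derivative (minpoly P2 a)) ≠ 0 := by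
    intro h5
    have h6 : derivative (minpoly P2 a) ≠ 0 := fun h7 =>
      (minpoly.natDegree_pos ha).ne' (derivative_eq_zero.1 h7)
    exact absurd (minpoly.IsIntegrallyClosed.degree_le_of_ne_zero h6 h5)
      (not_le.2 (degree_derivative_lt (minpoly.ne_zero ha)))
  rw [Algebra.smul_def] at h3
  exact (mul_eq_zero.1 h3.symm).resolve_left
    ((map_ne_zero_iff _ (IsIntegralClosure.algebraMap_injective A P2 K)).2 h4)

/-- goodness of a valuation subring -/
def Good (v₁ v₂ : Derivation ℂ K K) (I : K → Prop) (V : ValuationSubring K) : Prop :=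
  (∀ a, I a → v₁ a ∈ V ∧ v₂ a ∈ V) ∧ ∃ a b, I a ∧ I b ∧ V.valuation (br v₁ v₂ a b) = 1

variable (hinj : Function.Injective (algebraMap P2 K)) (v₁ v₂ : Derivation ℂ K K)
  (hgood : ∀ V : ValuationSubring K, (∀ p : P2, algebraMap P2 K p ∈ V) →
      (∃ i, V.valuation (algebraMap P2 K (MvPolynomial.X i)) = 1) → Good v₁ v₂ (IsIntegral P2) V)

include hinj hgood

include A in
lemma br_ne : br v₁ v₂ (algebraMap P2 K (MvPolynomial.X 0)) (algebraMap P2 K (MvPolynomial.X 1)) ≠ 0 := by
  intro h0
  have hX : algebraMap P2 K (MvPolynomial.X 0) ≠ 0 := by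
    rw [map_ne_zero_iff _ hinj]; exact MvPolynomial.X_ne_zero 0
  obtain ⟨-, a, b, ha, hb, hab⟩ := hgood ⊤ (fun _ => trivial) ⟨0, by
    apply le_antisymm ((ValuationSubring.valuation_le_one_iff _ _).2 (ValuationSubring.mem_top _))
    have : (⊤ : ValuationSubring K).valuation (algebraMap P2 K (MvPolynomial.X 0))⁻¹ ≤ 1 :=
      (ValuationSubring.valuation_le_one_iff _ _).2 (ValuationSubring.mem_top _)
    rwa [map_inv₀, inv_le_one₀ (by rwa [Valuation.pos_iff])] at this⟩
  obtain ⟨a, rfl⟩ := (IsIntegralClosure.isIntegral_iff (A := A)).1 ha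
  obtain ⟨b, rfl⟩ := (IsIntegralClosure.isIntegral_iff (A := A)).1 hb
  have hab' : br v₁ v₂ (algebraMap A K a) (algebraMap A K b) ≠ 0 := by
    intro h; rw [h] at hab; simp at hab
  have key : ∀ α β : K, (∀ i, α * v₁ (algebraMap P2 K (MvPolynomial.X i)) +
      β * v₂ (algebraMap P2 K (MvPolynomial.X i)) = 0) → α = 0 ∧ β = 0 := by
    intro α β h
    have h1 := der_zero A hinj (α • v₁.compAlgebraMap A + β • v₂.compAlgebraMap A) (fun i => by
      simpa [← IsScalarTower.algebraMap_apply] using h i)
    have h2 := h1 a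
    have h3 := h1 b
    simp only [Derivation.coe_add, Derivation.coe_smul, Pi.add_apply, Pi.smul_apply,
      Derivation.compAlgebraMap_apply, smul_eq_mul] at h2 h3
    unfold br at hab'
    constructor
    · apply mul_right_cancel₀ hab'
      linear_combination v₂ (algebraMap A K b) * h2 - v₂ (algebraMap A K a) * h3
    · apply mul_right_cancel₀ hab'
      linear_combination v₁ (algebraMap A K a) * h3 - v₁ (algebraMap A K b) * h2
  unfold br at h0
  have k1 := key (v₂ (algebraMap P2 K (MvPolynomial.X 1))) (-v₁ (algebraMap P2 K (MvPolynomial.X 1)))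
    (by rw [Fin.forall_fin_two]; constructor; linear_combination h0; ring)
  have k2 := key (v₂ (algebraMap P2 K (MvPolynomial.X 0))) (-v₁ (algebraMap P2 K (MvPolynomial.X 0)))
    (by rw [Fin.forall_fin_two]; constructor; ring; linear_combination -h0)
  have k3 := key 1 0 (by
    rw [Fin.forall_fin_two]; constructor
    · linear_combination -k2.2
    · linear_combination -k1.2)
  exact one_ne_zero k3.1

lemma free_der : Nonempty (Derivation ℂ A A ≃ₗ[A] (Fin 2 → A)) := by
  have hA := IsIntegralClosure.algebraMap_injective A P2 K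
  have hint : ∀ a : A, IsIntegral P2 (algebraMap A K a) := fun a =>
    (IsIntegralClosure.isIntegral_iff (A := A)).2 ⟨a, rfl⟩
  obtain ⟨D₁, hD₁⟩ := exists_restrict A hA v₁ fun a => (IsIntegralClosure.isIntegral_iff (A := A)).1
    (hartogs hinj _ fun V h1 h2 => ((hgood V h1 h2).1 _ (hint a)).1)
  obtain ⟨D₂, hD₂⟩ := exists_restrict A hA v₂ fun a => (IsIntegralClosure.isIntegral_iff (A := A)).1
    (hartogs hinj _ fun V h1 h2 => ((hgood V h1 h2).1 _ (hint a)).2)
  have hJ := br_ne A hinj v₁ v₂ hgood
  set s := algebraMap P2 A (MvPolynomial.X 0) with hs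
  set t := algebraMap P2 A (MvPolynomial.X 1) with ht
  rw [IsScalarTower.algebraMap_apply P2 A K, IsScalarTower.algebraMap_apply P2 A K, ← hs, ← ht] at hJ
  unfold br at hJ
  let Φ : (Fin 2 → A) →ₗ[A] Derivation ℂ A A :=
    { toFun := fun φ => φ 0 • D₁ + φ 1 • D₂
      map_add' := fun φ ψ => by ext; simp; ring
      map_smul' := fun c φ => by ext; simp; ring }
  have hΦ : ∀ φ a, algebraMap A K (Φ φ a) = algebraMap A K (φ 0) * v₁ (algebraMap A K a) +
      algebraMap A K (φ 1) * v₂ (algebraMap A K a) := by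
    intro φ a; simp [Φ, hD₁, hD₂]
  refine ⟨(LinearEquiv.ofBijective Φ ⟨?_, ?_⟩).symm⟩
  · rw [injective_iff_map_eq_zero]
    intro φ h
    have h1 := hΦ φ s
    have h2 := hΦ φ t
    rw [h] at h1 h2
    simp only [Derivation.coe_zero, Pi.zero_apply, map_zero] at h1 h2
    have h3 : algebraMap A K (φ 0) = 0 := by
      apply mul_right_cancel₀ hJ
      linear_combination v₂ (algebraMap A K s) * h2 - v₂ (algebraMap A K t) * h1
    have h4 : algebraMap A K (φ 1) = 0 := by
      apply mul_right_cancel₀ hJ
      linear_combination v₁ (algebraMap A K t) * h1 - v₁ (algebraMap A K s) * h2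
    rw [map_eq_zero_iff _ hA] at h3 h4
    ext i; fin_cases i; exacts [h3, h4]
  · intro D
    set J := v₁ (algebraMap A K s) * v₂ (algebraMap A K t) -
      v₂ (algebraMap A K s) * v₁ (algebraMap A K t) with hJd
    let α : K := (algebraMap A K (D s) * v₂ (algebraMap A K t) -
      algebraMap A K (D t) * v₂ (algebraMap A K s)) / J
    let β : K := (algebraMap A K (D t) * v₁ (algebraMap A K s) -
      algebraMap A K (D s) * v₁ (algebraMap A K t)) / J
    have hE : ∀ a, algebraMap A K (D a) = α * v₁ (algebraMap A K a) + β * v₂ (algebraMap A K a) := by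
      intro a
      have := der_zero A hinj ((Algebra.linearMap A K).compDer D -
        (α • v₁.compAlgebraMap A + β • v₂.compAlgebraMap A)) (by
          rw [Fin.forall_fin_two, ← hs, ← ht]
          simp only [Derivation.coe_sub, Derivation.coe_add, Derivation.coe_smul, Pi.sub_apply,
            Pi.add_apply, Pi.smul_apply, Derivation.compAlgebraMap_apply, smul_eq_mul,
            Derivation.coe_comp, LinearMap.coe_comp, LinearMap.coe_restrictScalars,
            Function.comp_apply, Algebra.linearMap_apply, Derivation.coeFn_coe, α, β]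
          constructor <;> field_simp <;> rw [hJd] <;> ring) a
      simpa [sub_eq_zero] using this
    have hV : ∀ V : ValuationSubring K, (∀ p : P2, algebraMap P2 K p ∈ V) →
        (∃ i, V.valuation (algebraMap P2 K (MvPolynomial.X i)) = 1) → α ∈ V ∧ β ∈ V := by
      intro V h1 h2
      obtain ⟨g1, a, b, ha, hb, hab⟩ := hgood V h1 h2
      obtain ⟨a, rfl⟩ := (IsIntegralClosure.isIntegral_iff (A := A)).1 ha
      obtain ⟨b, rfl⟩ := (IsIntegralClosure.isIntegral_iff (A := A)).1 hb
      have hAV : ∀ a : A, algebraMap A K a ∈ V := fun a => mem_val_of_isIntegral V h1 (hint a)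
      have e1 : α * br v₁ v₂ (algebraMap A K a) (algebraMap A K b) ∈ V := by
        have : α * br v₁ v₂ (algebraMap A K a) (algebraMap A K b) =
            algebraMap A K (D a) * v₂ (algebraMap A K b) -
            algebraMap A K (D b) * v₂ (algebraMap A K a) := by rw [hE, hE, br]; ring
        rw [this]
        exact sub_mem (mul_mem (hAV _) (g1 _ hb).2) (mul_mem (hAV _) (g1 _ ha).2)
      have e2 : β * br v₁ v₂ (algebraMap A K a) (algebraMap A K b) ∈ V := by
        have : β * br v₁ v₂ (algebraMap A K a) (algebraMap A K b) =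
            algebraMap A K (D b) * v₁ (algebraMap A K a) -
            algebraMap A K (D a) * v₁ (algebraMap A K b) := by rw [hE, hE, br]; ring
        rw [this]
        exact sub_mem (mul_mem (hAV _) (g1 _ ha).1) (mul_mem (hAV _) (g1 _ hb).1)
      rw [← V.valuation_le_one_iff, map_mul, hab, mul_one, V.valuation_le_one_iff] at e1 e2
      exact ⟨e1, e2⟩
    obtain ⟨α', hα⟩ := (IsIntegralClosure.isIntegral_iff (A := A)).1
      (hartogs hinj α fun V h1 h2 => (hV V h1 h2).1)
    obtain ⟨β', hβ⟩ := (IsIntegralClosure.isIntegral_iff (A := A)).1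
      (hartogs hinj β fun V h1 h2 => (hV V h1 h2).2)
    refine ⟨![α', β'], ?_⟩
    ext a
    apply hA
    rw [hΦ, hE]
    simp [hα, hβ]

lemma not_regular [Algebra.FiniteType ℂ A] (hdim : ringKrullDim A = 2)
    (V₀ : ValuationSubring K) (h0 : ∀ p : P2, algebraMap P2 K p ∈ V₀)
    (hbad : ∀ a, IsIntegral P2 a → V₀.valuation (v₁ a) < 1 ∧ V₀.valuation (v₂ a) < 1) :
    ∃ (m : Ideal A) (_ : m.IsMaximal), ¬ IsRegularLocalRing (Localization.AtPrime m) := by
  have : IsNoetherianRing A := Algebra.FiniteType.isNoetherianRing ℂ A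
  have hA := IsIntegralClosure.algebraMap_injective A P2 K
  have hint : ∀ a : A, IsIntegral P2 (algebraMap A K a) := fun a =>
    (IsIntegralClosure.isIntegral_iff (A := A)).2 ⟨a, rfl⟩
  have : Algebra.IsIntegral P2 A := IsIntegralClosure.isIntegral_algebra P2 K
  have hAV : ∀ a : A, algebraMap A K a ∈ V₀ := fun a => mem_val_of_isIntegral V₀ h0 (hint a)
  have hAV' : ∀ a : A, V₀.valuation (algebraMap A K a) ≤ 1 := fun a =>
    (V₀.valuation_le_one_iff _).2 (hAV a)
  have hX : ∀ i, V₀.valuation (algebraMap P2 K (MvPolynomial.X i)) < 1 := by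
    intro i
    refine lt_of_le_of_ne ((V₀.valuation_le_one_iff _).2 (h0 _)) fun h => ?_
    obtain ⟨-, a, b, ha, hb, hab⟩ := hgood V₀ h0 ⟨i, h⟩
    refine absurd hab (ne_of_lt ?_)
    unfold br
    refine V₀.valuation.map_sub_lt ?_ ?_ <;> rw [map_mul]
    · exact mul_lt_one' (hbad a ha).1 (hbad b hb).2
    · exact mul_lt_one' (hbad a ha).2 (hbad b hb).1
  let f : A →+* V₀ := (algebraMap A K).codRestrict V₀.toSubring hAV
  let m : Ideal A := (IsLocalRing.maximalIdeal V₀).comap f
  have hm : ∀ a, a ∈ m ↔ V₀.valuation (algebraMap A K a) < 1 := fun a => by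
    rw [Ideal.mem_comap, ValuationSubring.valuation_lt_one_iff]; rfl
  have hprime : m.IsPrime := Ideal.comap_isPrime _ _
  -- every prime containing `s, t` is maximal
  have hmaxg : ∀ q : Ideal A, q.IsPrime → (∀ i, algebraMap P2 A (MvPolynomial.X i) ∈ q) →
      q.IsMaximal := by
    intro q hq hXq
    refine Ideal.isMaximal_of_isIntegral_of_isMaximal_comap (R := P2) q ?_
    have hk : (RingHom.ker (MvPolynomial.constantCoeff : P2 →+* ℂ)).IsMaximal :=
      RingHom.ker_isMaximal_of_surjective _ fun c => ⟨MvPolynomial.C c, by simp⟩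
    have hle : RingHom.ker (MvPolynomial.constantCoeff : P2 →+* ℂ) ≤ q.comap (algebraMap P2 A) := by
      have : ∀ p : P2, p - MvPolynomial.C (MvPolynomial.constantCoeff p) ∈
          q.comap (algebraMap P2 A) := by
        intro p
        induction p using MvPolynomial.induction_on with
        | C c => simp
        | add p q hp hq =>
          rw [map_add, map_add, add_sub_add_comm]; exact add_mem hp hq
        | mul_X p i hp =>
          simp only [map_mul, MvPolynomial.constantCoeff_X, map_zero, mul_zero, sub_zero]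
          exact Ideal.mul_mem_left _ _ (hXq i)
      intro p hp
      have h := this p
      rwa [(RingHom.mem_ker).1 hp, map_zero, sub_zero] at h
    rw [← hk.eq_of_le (Ideal.comap_isPrime _ q).ne_top hle]
    exact hk
  have hXm : ∀ i, algebraMap P2 A (MvPolynomial.X i) ∈ m := fun i => by
    rw [hm, ← IsScalarTower.algebraMap_apply]; exact hX i
  have hmax : m.IsMaximal := hmaxg m hprime hXm
  refine ⟨m, hmax, fun hreg => ?_⟩
  set R := Localization.AtPrime m
  have hunit : ∀ u : m.primeCompl, V₀.valuation (algebraMap A K u) = 1 := fun u =>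
    le_antisymm (hAV' _) (not_lt.1 fun h => u.2 ((hm _).2 h))
  have hu0 : ∀ u : m.primeCompl, algebraMap A K u ≠ 0 := fun u h => by
    have := hunit u; rw [h] at this; simp at this
  let g : R →+* K := IsLocalization.lift (M := m.primeCompl) (g := algebraMap A K)
    fun u => Ne.isUnit (hu0 u)
  let : Algebra R K := g.toAlgebra
  have hg : ∀ a : A, algebraMap R K (algebraMap A R a) = algebraMap A K a := fun a =>
    IsLocalization.lift_eq _ a
  have : IsScalarTower A R K := IsScalarTower.of_algebraMap_eq fun a => (hg a).symm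
  have : IsScalarTower ℂ R K := IsScalarTower.of_algebraMap_eq fun c => by
    rw [IsScalarTower.algebraMap_apply ℂ A R, hg, ← IsScalarTower.algebraMap_apply]
  have hsurj : ∀ r : R, ∃ (a : A) (u : m.primeCompl),
      r = IsLocalization.mk' R a u ∧ algebraMap R K r = algebraMap A K a / algebraMap A K u := by
    intro r
    obtain ⟨⟨a, u⟩, rfl⟩ := IsLocalization.mk'_surjective m.primeCompl r
    refine ⟨a, u, rfl, ?_⟩
    rw [eq_div_iff (hu0 u), ← hg, ← hg a, ← map_mul, IsLocalization.mk'_spec]
  have hR : Function.Injective (algebraMap R K) := by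
    rw [injective_iff_map_eq_zero]
    intro r hr
    obtain ⟨a, u, h1, h2⟩ := hsurj r
    rw [hr, eq_comm, div_eq_zero_iff, map_eq_zero_iff _ hA] at h2
    rw [h1, h2.resolve_right (hu0 u), IsLocalization.mk'_zero]
  have hres : ∀ (v : Derivation ℂ K K), (∀ a : A, ∃ a' : A, algebraMap A K a' = v (algebraMap A K a)) →
      ∃ D : Derivation ℂ R R, ∀ r, algebraMap R K (D r) = v (algebraMap R K r) := by
    intro v hv
    refine exists_restrict R hR v fun r => ?_
    obtain ⟨a, u, -, h2⟩ := hsurj r
    obtain ⟨a', ha'⟩ := hv a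
    obtain ⟨u', hu'⟩ := hv u
    refine ⟨IsLocalization.mk' R (u * a' - a * u') (u * u), ?_⟩
    apply mul_right_cancel₀ (hu0 (u * u))
    rw [← hg (u * u : m.primeCompl), ← map_mul, IsLocalization.mk'_spec, hg, hg, h2,
      Derivation.leibniz_div]
    have := hu0 u
    simp only [map_sub, map_mul, ha', hu', Submonoid.coe_mul, smul_eq_mul]
    field_simp
  obtain ⟨D₁, hD₁⟩ := hres v₁ fun a => (IsIntegralClosure.isIntegral_iff (A := A)).1
    (hartogs hinj _ fun V h1 h2 => ((hgood V h1 h2).1 _ (hint a)).1)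
  obtain ⟨D₂, hD₂⟩ := hres v₂ fun a => (IsIntegralClosure.isIntegral_iff (A := A)).1
    (hartogs hinj _ fun V h1 h2 => ((hgood V h1 h2).1 _ (hint a)).2)
  have hsmall : ∀ (v : Derivation ℂ K K), (∀ a : A, V₀.valuation (v (algebraMap A K a)) < 1) →
      ∀ r : R, V₀.valuation (v (algebraMap R K r)) < 1 := by
    intro v hv r
    obtain ⟨a, u, -, h2⟩ := hsurj r
    rw [h2, Derivation.leibniz_div]
    simp only [smul_eq_mul, map_mul, map_pow, map_inv₀, hunit, inv_one, one_pow, one_mul]
    refine V₀.valuation.map_sub_lt ?_ ?_ <;> rw [map_mul]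
    · exact lt_of_le_of_lt (mul_le_of_le_one_left' (hAV' _)) (hv _)
    · exact lt_of_le_of_lt (mul_le_of_le_one_left' (hAV' _)) (hv _)
  have hs1 := hsmall v₁ fun a => (hbad _ (hint a)).1
  have hs2 := hsmall v₂ fun a => (hbad _ (hint a)).2
  have hresA : ∀ a : A, ∃ c : ℂ, a - algebraMap ℂ A c ∈ m := by
    intro a
    let := Ideal.Quotient.field m
    have : Module.Finite ℂ (A ⧸ m) := finite_of_finite_type_of_isJacobsonRing ℂ (A ⧸ m)
    obtain ⟨c, hc⟩ := (IsAlgClosed.algebraMap_bijective_of_isIntegral (k := ℂ) (K := A ⧸ m)).2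
      (Ideal.Quotient.mk m a)
    exact ⟨c, Ideal.Quotient.eq.1 hc.symm⟩
  have hresid : ∀ x : R, ∃ c : ℂ, x - algebraMap ℂ R c ∈ IsLocalRing.maximalIdeal R := by
    intro x
    obtain ⟨a, u, rfl, -⟩ := hsurj x
    obtain ⟨c, hc⟩ := hresA a
    obtain ⟨d, hd⟩ := hresA u
    have hd0 : d ≠ 0 := by
      rintro rfl
      exact u.2 (by simpa using hd)
    refine ⟨c / d, ?_⟩
    have e : IsLocalization.mk' R a u - algebraMap ℂ R (c / d) =
        IsLocalization.mk' R (a - algebraMap ℂ A (c / d) * u) u := by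
      rw [IsLocalization.eq_mk'_iff_mul_eq, sub_mul, IsLocalization.mk'_spec, map_sub, map_mul,
        ← IsScalarTower.algebraMap_apply]
    rw [e, IsLocalization.AtPrime.mk'_mem_maximal_iff R m]
    have e2 : a - algebraMap ℂ A (c / d) * u = (a - algebraMap ℂ A c) -
        algebraMap ℂ A (c / d) * (u - algebraMap ℂ A d) := by
      have : algebraMap ℂ A c = algebraMap ℂ A (c / d) * algebraMap ℂ A d := by
        rw [← map_mul, div_mul_cancel₀ _ hd0]
      rw [this]; ring
    rw [e2]
    exact sub_mem hc (Ideal.mul_mem_left _ _ hd)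
  have hJ := br_ne A hinj v₁ v₂ hgood
  have hmain : ∀ a b : R, IsLocalRing.maximalIdeal R = Ideal.span {a, b} →
      D₁ a * D₂ b - D₂ a * D₁ b ≠ 0 ∧ ringKrullDim R ≤ 1 := by
    intro a b hab
    have hnak := nak_br R hresid D₁ D₂ a b hab
    set J := D₁ a * D₂ b - D₂ a * D₁ b with hJd
    have hnak' : ∀ x y : A, ∃ r : R, br v₁ v₂ (algebraMap A K x) (algebraMap A K y) =
        algebraMap R K r * algebraMap R K J := by
      intro x y
      obtain ⟨r, hr⟩ := hnak (algebraMap A R x) (algebraMap A R y)
      refine ⟨r, ?_⟩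
      rw [← map_mul, ← hr]
      simp [br, hD₁, hD₂, hg]
    have hJ0 : J ≠ 0 := by
      intro h
      obtain ⟨r, hr⟩ := hnak' (algebraMap P2 A (MvPolynomial.X 0)) (algebraMap P2 A (MvPolynomial.X 1))
      rw [← IsScalarTower.algebraMap_apply, ← IsScalarTower.algebraMap_apply, h] at hr
      exact hJ (by simpa using hr)
    refine ⟨hJ0, ?_⟩
    have hrad : ∀ i, algebraMap A R (algebraMap P2 A (MvPolynomial.X i)) ∈
        (Ideal.span {J}).radical := by
      intro i
      by_contra hcon
      set s := algebraMap A R (algebraMap P2 A (MvPolynomial.X i)) with hs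
      have hsK : algebraMap R K s = algebraMap P2 K (MvPolynomial.X i) := by
        rw [hs, hg, ← IsScalarTower.algebraMap_apply]
      have hs0 : algebraMap R K s ≠ 0 := by
        rw [hsK, map_ne_zero_iff _ hinj]; exact MvPolynomial.X_ne_zero i
      let T : Subring K :=
        { carrier := {x | ∃ (n : ℕ) (r : R), algebraMap R K s ^ n * x = algebraMap R K r}
          mul_mem' := by
            rintro x y ⟨n, r, h1⟩ ⟨n', r', h2⟩
            exact ⟨n + n', r * r', by rw [map_mul, ← h1, ← h2]; ring⟩
          one_mem' := ⟨0, 1, by simp⟩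
          add_mem' := by
            rintro x y ⟨n, r, h1⟩ ⟨n', r', h2⟩
            exact ⟨n + n', s ^ n' * r + s ^ n * r', by
              rw [map_add, map_mul, map_mul, ← h1, ← h2, map_pow, map_pow]; ring⟩
          zero_mem' := ⟨0, 0, by simp⟩
          neg_mem' := by
            rintro x ⟨n, r, h1⟩
            exact ⟨n, -r, by rw [map_neg, ← h1]; ring⟩ }
      have hT : ∀ r : R, algebraMap R K r ∈ T := fun r => ⟨0, r, by simp⟩
      have hTs : (algebraMap R K s)⁻¹ ∈ T := ⟨1, 1, by simp [hs0]⟩
      have hne : Ideal.span {(⟨_, hT J⟩ : T)} ≠ ⊤ := by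
        intro h
        rw [Ideal.span_singleton_eq_top, isUnit_iff_exists_inv] at h
        obtain ⟨⟨z, n, r, hz⟩, h⟩ := h
        have h' : algebraMap R K J * z = 1 := congrArg Subtype.val h
        refine hcon ⟨n, Ideal.mem_span_singleton'.2 ⟨r, hR ?_⟩⟩
        rw [map_mul, ← hz, map_pow]
        linear_combination algebraMap R K s ^ n * h'
      obtain ⟨V, hV1, hV2⟩ := Ideal.image_subset_nonunits_valuationSubring _ hne
      have hJV : V.valuation (algebraMap R K J) < 1 :=
        (V.mem_nonunits_iff).1 (hV2 ⟨_, Ideal.subset_span rfl, rfl⟩)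
      have hRV : ∀ r : R, V.valuation (algebraMap R K r) ≤ 1 := fun r =>
        (V.valuation_le_one_iff _).2 (hV1 (hT r))
      obtain ⟨-, x, y, hx, hy, hxy⟩ := hgood V (fun p => by
        rw [IsScalarTower.algebraMap_apply P2 A K, ← hg]; exact hV1 (hT _)) ⟨i, by
          rw [← hsK]
          have h3 : V.valuation (algebraMap R K s)⁻¹ ≤ 1 := (V.valuation_le_one_iff _).2 (hV1 hTs)
          rw [map_inv₀, inv_le_one₀ (by rwa [Valuation.pos_iff])] at h3
          exact le_antisymm (hRV _) h3⟩
      obtain ⟨x, rfl⟩ := (IsIntegralClosure.isIntegral_iff (A := A)).1 hx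
      obtain ⟨y, rfl⟩ := (IsIntegralClosure.isIntegral_iff (A := A)).1 hy
      obtain ⟨r, hr⟩ := hnak' x y
      rw [hr, map_mul] at hxy
      exact absurd hxy (ne_of_lt (lt_of_le_of_lt (mul_le_of_le_one_left' (hRV _)) hJV))
    have hJm : J ∈ IsLocalRing.maximalIdeal R := by
      have h1 : V₀.valuation (algebraMap R K J) < 1 := by
        rw [hJd, map_sub, map_mul, map_mul, hD₁, hD₁, hD₂, hD₂]
        refine V₀.valuation.map_sub_lt ?_ ?_ <;> rw [map_mul]
        · exact mul_lt_one' (hs1 _) (hs2 _)
        · exact mul_lt_one' (hs2 _) (hs1 _)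
      obtain ⟨x, u, h2, h3⟩ := hsurj J
      rw [h3, map_div₀, hunit, div_one] at h1
      rw [h2, IsLocalization.AtPrime.mk'_mem_maximal_iff R m]
      exact (hm _).2 h1
    have hmin : IsLocalRing.maximalIdeal R ∈ (Ideal.span {J}).minimalPrimes := by
      refine ⟨⟨inferInstance, (Ideal.span_singleton_le_iff_mem _).2 hJm⟩, ?_⟩
      rintro q ⟨hq, hqJ⟩ hle
      have h1 : (q.comap (algebraMap A R)).IsMaximal := hmaxg _ (Ideal.comap_isPrime _ _)
        fun i => (hq.radical_le_iff.2 hqJ) (hrad i)
      have h2 : q.comap (algebraMap A R) ≤ m := by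
        exact (Ideal.comap_mono hle).trans (IsLocalization.AtPrime.under_maximalIdeal R m).le
      rw [← Localization.AtPrime.map_eq_maximalIdeal, Ideal.map_le_iff_le_comap,
        h1.eq_of_le hmax.ne_top h2]
    have := Ideal.height_le_one_of_isPrincipal_of_mem_minimalPrimes _ _ hmin
    rw [← IsLocalRing.maximalIdeal_height_eq_ringKrullDim]
    exact_mod_cast this
  have hd2 : ringKrullDim R ≤ 2 := by
    rw [IsLocalization.AtPrime.ringKrullDim_eq_height m R, ← hdim]
    exact Ideal.height_le_ringKrullDim_of_ne_top hmax.ne_top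
  obtain ⟨S, hS1, hS2⟩ := Submodule.FG.exists_span_finset_card_eq_spanFinrank
    (IsNoetherian.noetherian (IsLocalRing.maximalIdeal R))
  have hS3 := hreg.spanFinrank_maximalIdeal
  rw [← hS1] at hS3
  have hone : S.card ≤ 1 → False := by
    intro h
    obtain ⟨a, ha⟩ : ∃ a : R, IsLocalRing.maximalIdeal R = Ideal.span {a, a} := by
      rcases Nat.le_one_iff_eq_zero_or_eq_one.1 h with h | h
      · rw [Finset.card_eq_zero] at h
        refine ⟨0, ?_⟩
        rw [← hS2, h]; simp
      · obtain ⟨a, rfl⟩ := Finset.card_eq_one.1 h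
        refine ⟨a, ?_⟩
        rw [← hS2]; simp
    exact (hmain a a ha).1 (by ring)
  rw [← hS3] at hd2
  have h2 : S.card ≤ 2 := by exact_mod_cast hd2
  rcases Nat.lt_or_ge S.card 2 with h | h
  · exact hone (by omega)
  · classical
    obtain ⟨a, b, -, rfl⟩ := Finset.card_eq_two.1 (le_antisymm h2 h)
    have h3 := (hmain a b (by rw [← hS2]; simp)).2
    rw [← hS3] at h3
    exact hone (by exact_mod_cast h3)

end A

/-- the target statement -/
def Target : Prop :=
  ∃ (A : Type) (_ : CommRing A) (_ : Algebra ℂ A),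
      IsDomain A ∧ Algebra.FiniteType ℂ A ∧ IsIntegrallyClosed A ∧
      ringKrullDim A = 2 ∧
      Nonempty (Derivation ℂ A A ≃ₗ[A] (Fin 2 → A)) ∧
      ∃ (m : Ideal A) (_ : m.IsMaximal), ¬ IsRegularLocalRing (Localization.AtPrime m)

theorem abs2 [Algebra P2 K] [IsScalarTower ℂ P2 K]
    (hinj : Function.Injective (algebraMap P2 K)) (v₁ v₂ : Derivation ℂ K K)
    (hgood : ∀ V : ValuationSubring K, (∀ p : P2, algebraMap P2 K p ∈ V) →
      (∃ i, V.valuation (algebraMap P2 K (MvPolynomial.X i)) = 1) → Good v₁ v₂ (IsIntegral P2) V)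
    (G : Set K) (hG : G.Finite) (hG1 : ∀ g ∈ G, IsAlgebraic P2 g)
    (hG2 : IntermediateField.adjoin ℂ G = ⊤)
    (V₀ : ValuationSubring K) (h0 : ∀ p : P2, algebraMap P2 K p ∈ V₀)
    (hbad : ∀ a, IsIntegral P2 a → V₀.valuation (v₁ a) < 1 ∧ V₀.valuation (v₂ a) < 1) :
    Target := by
  let F := FractionRing P2
  have : FaithfulSMul P2 K := (faithfulSMul_iff_algebraMap_injective _ _).2 hinj
  let : Algebra F K := FractionRing.liftAlgebra P2 K
  have : IsScalarTower ℂ F K := IsScalarTower.of_algebraMap_eq fun c => by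
    rw [IsScalarTower.algebraMap_apply ℂ P2 F, ← IsScalarTower.algebraMap_apply P2 F K,
      ← IsScalarTower.algebraMap_apply]
  have : Finite G := hG
  have hfd : FiniteDimensional F (IntermediateField.adjoin F G) :=
    IntermediateField.finiteDimensional_adjoin fun g hg =>
      ((IsFractionRing.isAlgebraic_iff P2 F K).1 (hG1 g hg)).isIntegral
  have htop : IntermediateField.adjoin F G = ⊤ := by
    rw [eq_top_iff]
    intro x _
    have h1 : IntermediateField.adjoin ℂ G ≤ (IntermediateField.adjoin F G).restrictScalars ℂ :=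
      IntermediateField.adjoin_le_iff.2 (IntermediateField.subset_adjoin F G)
    exact h1 (hG2 ▸ IntermediateField.mem_top)
  rw [htop] at hfd
  have : FiniteDimensional F K := IntermediateField.topEquiv.toLinearEquiv.finiteDimensional
  have : CharZero F := charZero_of_injective_ringHom (algebraMap ℂ F).injective
  let A := integralClosure P2 K
  have : Module.Finite P2 A := IsIntegralClosure.finite P2 F K A
  have hft : Algebra.FiniteType ℂ A := Algebra.FiniteType.trans (S := P2) inferInstance inferInstance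
  have hinjA : Function.Injective (algebraMap P2 A) := fun p q h => hinj (congrArg Subtype.val h)
  have hdim : ringKrullDim A = 2 := by
    rw [krullDim_integral P2 A hinjA, MvPolynomial.ringKrullDim_of_isNoetherianRing,
      ringKrullDim_eq_zero_of_field]
    simp
  exact ⟨A, inferInstance, inferInstance, inferInstance, hft,
    integralClosure.isIntegrallyClosedOfFiniteExtension F, hdim, free_der A hinj v₁ v₂ hgood,
    not_regular A hinj v₁ v₂ hgood hdim V₀ h0 hbad⟩

theorem abs1 (v₁ v₂ : Derivation ℂ K K) (W : Set K) (hW : (Algebra.adjoin ℂ W).FG)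
    (htr : Algebra.trdeg ℂ K = 2)
    (hgood : ∀ V : ValuationSubring K, (∀ c : ℂ, algebraMap ℂ K c ∈ V) → (∀ f ∈ W, f ∈ V) →
      (∃ f ∈ W, V.valuation f = 1) → Good v₁ v₂ (IsIntegral (Algebra.adjoin ℂ W)) V)
    (G : Set K) (hG : G.Finite) (hG1 : ∀ g ∈ G, IsAlgebraic (Algebra.adjoin ℂ W) g)
    (hG2 : IntermediateField.adjoin ℂ G = ⊤)
    (V₀ : ValuationSubring K) (h0 : ∀ c : ℂ, algebraMap ℂ K c ∈ V₀)
    (h0' : ∀ f ∈ W, V₀.valuation f < 1)
    (hbad : ∀ a, IsIntegral (Algebra.adjoin ℂ W) a →
      V₀.valuation (v₁ a) < 1 ∧ V₀.valuation (v₂ a) < 1) :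
    Target := by
  set B := Algebra.adjoin ℂ W with hB
  have : Algebra.FiniteType ℂ B := ⟨(Subalgebra.fg_top B).2 hW⟩
  obtain ⟨s, g, hg1, hg2⟩ := exists_integral_inj_algHom_of_fg ℂ B
  have halg : Algebra.IsAlgebraic B K := ⟨fun x => by
    have hx : x ∈ IntermediateField.adjoin ℂ G := hG2 ▸ IntermediateField.mem_top
    induction hx using IntermediateField.adjoin_induction with
    | mem x hx => exact hG1 x hx
    | algebraMap c => exact isAlgebraic_algebraMap (algebraMap ℂ B c)
    | add x y _ _ hx hy => exact hx.add hy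
    | inv x _ hx => exact hx.inv
    | mul x y _ _ hx hy => exact hx.mul hy⟩
  have hs : s = 2 := by
    let : Algebra (MvPolynomial (Fin s) ℂ) B := g.toRingHom.toAlgebra
    have : IsScalarTower ℂ (MvPolynomial (Fin s) ℂ) B :=
      IsScalarTower.of_algebraMap_eq fun c => (g.commutes c).symm
    have : FaithfulSMul (MvPolynomial (Fin s) ℂ) B :=
      (faithfulSMul_iff_algebraMap_injective _ _).2 hg1
    have : Algebra.IsIntegral (MvPolynomial (Fin s) ℂ) B := ⟨hg2⟩
    have h1 := trdeg_add_eq ℂ (MvPolynomial (Fin s) ℂ) (A := B)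
    have h2 := trdeg_add_eq ℂ B (A := K)
    rw [trdeg_eq_zero (R := B), add_zero, htr] at h2
    rw [trdeg_eq_zero (R := MvPolynomial (Fin s) ℂ), add_zero, h2,
      MvPolynomial.trdeg_of_isDomain] at h1
    simp only [Cardinal.mk_fintype, Fintype.card_fin, Cardinal.lift_natCast] at h1
    exact_mod_cast h1
  subst hs
  have hshift : ∀ x ∈ B, ∃ c : ℂ, ∀ V : ValuationSubring K, (∀ c : ℂ, algebraMap ℂ K c ∈ V) →
      (∀ f ∈ W, V.valuation f < 1) → V.valuation (x - algebraMap ℂ K c) < 1 := by
    intro x hx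
    induction hx using Algebra.adjoin_induction with
    | mem x hx => exact ⟨0, fun V _ h => by simpa using h x hx⟩
    | algebraMap c => exact ⟨c, fun V _ _ => by simp⟩
    | add x y _ _ hx hy =>
      obtain ⟨c, hc⟩ := hx
      obtain ⟨d, hd⟩ := hy
      refine ⟨c + d, fun V h1 h2 => ?_⟩
      rw [map_add, add_sub_add_comm]
      exact V.valuation.map_add_lt (hc V h1 h2) (hd V h1 h2)
    | mul x y hx' _ hx hy =>
      obtain ⟨c, hc⟩ := hx
      obtain ⟨d, hd⟩ := hy
      refine ⟨c * d, fun V h1 h2 => ?_⟩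
      have hxV : V.valuation x ≤ 1 := (V.valuation_le_one_iff _).2
        (adjoin_sub_val V h1 W (fun f hf => (V.valuation_le_one_iff _).1 (h2 f hf).le) x hx')
      rw [map_mul, show x * y - algebraMap ℂ K c * algebraMap ℂ K d =
        x * (y - algebraMap ℂ K d) + algebraMap ℂ K d * (x - algebraMap ℂ K c) by ring]
      refine V.valuation.map_add_lt ?_ ?_ <;> rw [map_mul]
      · exact lt_of_le_of_lt (mul_le_of_le_one_left' hxV) (hd V h1 h2)
      · exact lt_of_le_of_lt (mul_le_of_le_one_left' ((V.valuation_le_one_iff _).2 (h1 d)))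
          (hc V h1 h2)
  choose c hc using fun i : Fin 2 => hshift (g (MvPolynomial.X i)) (g (MvPolynomial.X i)).2
  let τ : P2 →ₐ[ℂ] P2 := MvPolynomial.aeval fun i => MvPolynomial.X i - MvPolynomial.C (c i)
  let τ' : P2 →ₐ[ℂ] P2 := MvPolynomial.aeval fun i => MvPolynomial.X i + MvPolynomial.C (c i)
  have h1 : τ'.comp τ = AlgHom.id ℂ P2 := by ext1 i; simp [τ, τ']
  have h2 : τ.comp τ' = AlgHom.id ℂ P2 := by ext1 i; simp [τ, τ']
  have hτi : Function.Injective τ := Function.LeftInverse.injective (g := τ') fun p => by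
    simpa using DFunLike.congr_fun h1 p
  have hτs : Function.Surjective τ := Function.RightInverse.surjective (g := τ') fun p => by
    simpa using DFunLike.congr_fun h2 p
  let g' : P2 →ₐ[ℂ] B := g.comp τ
  let : Algebra P2 B := g'.toRingHom.toAlgebra
  let : Algebra P2 K := (B.val.comp g').toRingHom.toAlgebra
  have : IsScalarTower P2 B K := IsScalarTower.of_algebraMap_eq fun _ => rfl
  have : IsScalarTower ℂ P2 K :=
    IsScalarTower.of_algebraMap_eq fun c => ((B.val.comp g').commutes c).symm
  have : Algebra.IsIntegral P2 B :=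
    ⟨RingHom.IsIntegral.trans τ.toRingHom g.toRingHom
      (RingHom.isIntegral_of_surjective _ hτs) hg2⟩
  have hinjB : Function.Injective (algebraMap P2 B) := hg1.comp hτi
  have hinj : Function.Injective (algebraMap P2 K) := Subtype.val_injective.comp hinjB
  have hiff : (IsIntegral P2 : K → Prop) = IsIntegral B := by
    ext x
    exact ⟨fun h => h.tower_top, fun h => isIntegral_trans x h⟩
  have hXi : ∀ i, algebraMap P2 K (MvPolynomial.X i) =
      (g (MvPolynomial.X i) : K) - algebraMap ℂ K (c i) := by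
    intro i
    change ((g (τ (MvPolynomial.X i)) : B) : K) = _
    simp [τ]
  have : FaithfulSMul P2 B := (faithfulSMul_iff_algebraMap_injective _ _).2 hinjB
  have halg2 : Algebra.IsAlgebraic P2 K := Algebra.IsAlgebraic.trans P2 B K
  have hCV : ∀ V : ValuationSubring K, (∀ p : P2, algebraMap P2 K p ∈ V) →
      ∀ c : ℂ, algebraMap ℂ K c ∈ V := fun V h c => by
    rw [IsScalarTower.algebraMap_apply ℂ P2 K]; exact h _
  refine abs2 hinj v₁ v₂ ?_ G hG (fun g _ => halg2.isAlgebraic g) hG2 V₀ ?_ (hiff ▸ hbad)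
  · rintro V h3 ⟨i, hi⟩
    have hWV : ∀ f ∈ W, f ∈ V := fun f hf => mem_val_of_isIntegral V h3
      (hiff ▸ isIntegral_algebraMap (R := B) (A := K) (x := ⟨f, Algebra.subset_adjoin hf⟩))
    rw [hiff]
    refine hgood V (hCV V h3) hWV ?_
    by_contra hcon
    push Not at hcon
    have := hc i V (hCV V h3) fun f hf =>
      lt_of_le_of_ne ((V.valuation_le_one_iff _).2 (hWV f hf)) (hcon f hf)
    rw [← hXi, hi] at this
    exact lt_irrefl _ this
  · intro p
    exact adjoin_sub_val V₀ h0 W (fun f hf => (V₀.valuation_le_one_iff _).1 (h0' f hf).le) _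
      (algebraMap P2 B p).2

end Crest.Agent.R278
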