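import Crest.Agent.R278.Poly

/-!
Interpolation along four concurrent lines and the Chinese remainder construction.
-/

set_option autoImplicit false
set_option linter.unusedSectionVars false

namespace Crest.Agent.R278

open Polynomial

variable {E : Type} [CommRing E] [Algebra ℂ E] {y σ : E}

/-- Lagrange idempotents -/
noncomputable def lag (y : E) (yi : Fin 4 → ℂ) (i : Fin 4) : E :=
  aeval y (Lagrange.basis Finset.univ yi i)

variable {yi : Fin 4 → ℂ}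

lemma lag_Lz (hyi : Function.Injective yi) (i : Fin 4) : lag y yi i ∈ Lz y σ 2 := by
  have h : (Lagrange.basis Finset.univ yi i).natDegree ≤ 3 := by
    rw [Lagrange.natDegree_basis hyi.injOn (Finset.mem_univ i)]; simp
  rw [lag, aeval_eq_sum_range' (n := 4) (by omega)]
  refine Submodule.sum_mem _ fun j hj => Submodule.smul_mem _ _ ?_
  rw [Finset.mem_range] at hj
  rcases j with _ | j
  · exact Lp_Lz (by simpa using one_Lp 2)
  · rw [pow_succ']; exact Lz_of y_L0 (y_pow_Lp (by omega))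

lemma lag_R2 (i : Fin 4) : lag y yi i ∈ R2 y σ := aeval_mem y_R2 _

lemma lag_self (hyi : Function.Injective yi) (i : Fin 4) :
    ∃ r ∈ R2 y σ, lag y yi i = 1 + ell y (yi i) * r := by
  obtain ⟨r, hr, h⟩ := aeval_y_red (y := y) (σ := σ) (yi i) (Lagrange.basis Finset.univ yi i)
  rw [Lagrange.eval_basis_self hyi.injOn (Finset.mem_univ i), map_one] at h
  exact ⟨r, hr, h⟩

lemma lag_ne {i j : Fin 4} (hij : i ≠ j) :
    ∃ r ∈ R2 y σ, lag y yi i = ell y (yi j) * r := by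
  obtain ⟨r, hr, h⟩ := aeval_y_red (y := y) (σ := σ) (yi j) (Lagrange.basis Finset.univ yi i)
  rw [Lagrange.eval_basis_of_ne hij (Finset.mem_univ j), map_zero, zero_add] at h
  exact ⟨r, hr, h⟩

lemma one_add_pow_red {C : Subalgebra ℂ E} {l r : E} (hl : l ∈ C) (hr : r ∈ C) (n : ℕ) :
    ∃ r' ∈ C, (1 + l * r) ^ n = 1 + l * r' := by
  induction n with
  | zero => exact ⟨0, zero_mem _, by simp⟩
  | succ n ih =>
    obtain ⟨r', hr', h⟩ := ih
    exact ⟨r + r' + l * r * r', add_mem (add_mem hr hr') (mul_mem (mul_mem hl hr) hr'),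
      by rw [pow_succ, h]; ring⟩

/-- sum with Lagrange idempotents, to a given order -/
lemma lag_sum (hyi : Function.Injective yi) (t : ℕ) (x : Fin 4 → E) (hx : ∀ j, x j ∈ R2 y σ)
    (i : Fin 4) : ∃ r ∈ R2 y σ, ∑ j, ell y (yi j) ^ t * lag y yi j ^ (t + 1) * x j =
      ell y (yi i) ^ t * x i + ell y (yi i) ^ (t + 1) * r := by
  have : ∀ j, ∃ r ∈ R2 y σ, ell y (yi j) ^ t * lag y yi j ^ (t + 1) * x j =
      (if j = i then ell y (yi i) ^ t * x i else 0) + ell y (yi i) ^ (t + 1) * r := by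
    intro j
    split_ifs with h
    · subst h
      obtain ⟨r, hr, h⟩ := lag_self (y := y) (σ := σ) hyi j
      obtain ⟨r', hr', h'⟩ := one_add_pow_red (ell_R2 (yi j)) hr (t + 1)
      exact ⟨r' * x j, mul_mem hr' (hx j), by rw [h, h']; ring⟩
    · obtain ⟨r, hr, h⟩ := lag_ne (y := y) (σ := σ) (yi := yi) h
      exact ⟨ell y (yi j) ^ t * r ^ (t + 1) * x j,
        mul_mem (mul_mem (pow_mem (ell_R2 _) _) (pow_mem hr _)) (hx j), by rw [h]; ring⟩
  choose r hr h using this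
  refine ⟨∑ j, r j, Subalgebra.sum_mem _ fun j _ => hr j, ?_⟩
  rw [Finset.sum_congr rfl fun j _ => h j, Finset.sum_add_distrib, Finset.mul_sum]
  simp

lemma interp (hyi : Function.Injective yi) (e : ℕ) (c₀ l₀ l₁ q₀ q₁ q₂ : ℂ) (x : Fin 4 → E)
    (hx : ∀ i, x i - (algebraMap ℂ E c₀ * σ ^ (e + 3) + algebraMap ℂ E (l₀ + l₁ * yi i) * σ ^ (e + 2)
      + algebraMap ℂ E (q₀ + q₁ * yi i + q₂ * yi i ^ 2) * σ ^ (e + 1)) ∈ Lp y σ e) :
    ∃ P : E, P - algebraMap ℂ E c₀ * σ ^ (e + 3) ∈ Lz y σ (e + 2) ∧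
      ∀ i, ∃ r ∈ R2 y σ, P = x i + ell y (yi i) * r := by
  set ρ : Fin 4 → E := fun i => x i - (algebraMap ℂ E c₀ * σ ^ (e + 3) +
    algebraMap ℂ E (l₀ + l₁ * yi i) * σ ^ (e + 2)
      + algebraMap ℂ E (q₀ + q₁ * yi i + q₂ * yi i ^ 2) * σ ^ (e + 1)) with hρ
  refine ⟨algebraMap ℂ E c₀ * σ ^ (e + 3) + ((algebraMap ℂ E l₀ + algebraMap ℂ E l₁ * y) * σ ^ (e + 2)
    + (algebraMap ℂ E q₀ + algebraMap ℂ E q₁ * y + algebraMap ℂ E q₂ * y ^ 2) * σ ^ (e + 1) +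
    ∑ j, ell y (yi j) ^ 0 * lag y yi j ^ (0 + 1) * ρ j), ?_, fun i => ?_⟩
  · rw [add_sub_cancel_left]
    refine add_mem (add_mem ?_ ?_) (Submodule.sum_mem _ fun j _ => ?_)
    · refine Lz_of ?_ (s_pow_Lp le_rfl)
      rw [← Algebra.smul_def, Algebra.algebraMap_eq_smul_one]
      exact add_mem (Submodule.smul_mem _ _ one_L0) (Submodule.smul_mem _ _ y_L0)
    · rw [show e + 2 = 1 + (e + 1) by ring]
      refine Lz_mul (add_mem (add_mem (Lp_Lz (c_Lp _ _)) (Lp_Lz (c_mul_Lp _ (Lp_one y_L1)))) ?_)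
        (s_pow_Lp le_rfl)
      rw [pow_two, mul_left_comm]
      exact Lz_of y_L0 (c_mul_Lp _ (Lp_one y_L1))
    · rw [pow_zero, one_mul, zero_add, pow_one, add_comm e]
      exact Lz_mul (lag_Lz hyi j) (hx j)
  · obtain ⟨r, hr, h⟩ := lag_sum (σ := σ) hyi 0 ρ (fun j => Lp_R2 (hx j)) i
    refine ⟨r + algebraMap ℂ E l₁ * σ ^ (e + 2) + (algebraMap ℂ E q₁ + algebraMap ℂ E q₂ *
      (y + algebraMap ℂ E (yi i))) * σ ^ (e + 1), ?_, ?_⟩
    · have h1 := fun c => (R2 y σ).algebraMap_mem c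
      exact add_mem (add_mem hr (mul_mem (h1 _) (pow_mem s_R2 _))) (mul_mem (add_mem (h1 _)
        (mul_mem (h1 _) (add_mem y_R2 (h1 _)))) (pow_mem s_R2 _))
    · rw [h, hρ]
      simp only [ell, map_add, map_mul, map_pow]
      ring

/-- top three coefficients, in terms of power sums -/
def Top (y σ x : E) (e : ℕ) (p₁ p₂ : ℂ) : Prop :=
  x - (σ ^ (e + 3) + algebraMap ℂ E (-p₁) * σ ^ (e + 2) +
    algebraMap ℂ E ((p₁ ^ 2 - p₂) / 2) * σ ^ (e + 1)) ∈ Lp y σ e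

lemma Top.mul_lin {x : E} {e : ℕ} {p₁ p₂ : ℂ} (h : Top y σ x e p₁ p₂) (u : ℂ) :
    Top y σ (x * (σ - algebraMap ℂ E u)) (e + 1) (p₁ + u) (p₂ + u ^ 2) := by
  unfold Top at h ⊢
  have h1 : σ - algebraMap ℂ E u ∈ Lp y σ 1 := sub_mem (Lp_one s_L1) (c_Lp _ _)
  have h2 := sub_mem (Lp_mul h h1) (c_mul_Lp (u * ((p₁ ^ 2 - p₂) / 2))
    (s_pow_Lp (y := y) (σ := σ) (le_refl (e + 1))))
  convert h2 using 1
  have : ((p₁ + u) ^ 2 - (p₂ + u ^ 2)) / 2 = (p₁ ^ 2 - p₂) / 2 + p₁ * u := by ring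
  rw [this]
  simp only [map_add, map_mul, map_neg]
  ring

lemma Top.mul_lin_pow {x : E} {e : ℕ} {p₁ p₂ : ℂ} (h : Top y σ x e p₁ p₂) (u : ℂ) (m : ℕ) :
    Top y σ (x * (σ - algebraMap ℂ E u) ^ m) (e + m) (p₁ + m * u) (p₂ + m * u ^ 2) := by
  induction m with
  | zero => simpa using h
  | succ m ih =>
    have := ih.mul_lin u
    rw [mul_assoc, ← pow_succ] at this
    convert this using 1 <;> push_cast <;> ring

lemma Top.Lp {x : E} {e : ℕ} {p₁ p₂ : ℂ} (h : Top y σ x e p₁ p₂) : x ∈ Lp y σ (e + 3) := by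
  have := add_mem (Lp_mono (show e ≤ e + 3 by omega) h) (add_mem (add_mem
    (s_pow_Lp (y := y) (σ := σ) (le_refl (e + 3))) (c_mul_Lp (-p₁) (s_pow_Lp (show e + 2 ≤ e + 3 by omega))))
    (c_mul_Lp ((p₁ ^ 2 - p₂) / 2) (s_pow_Lp (show e + 1 ≤ e + 3 by omega))))
  simpa using this

lemma Top.mul {x z : E} {e e' : ℕ} {p₁ p₂ q₁ q₂ : ℂ} (h : Top y σ x e p₁ p₂)
    (h' : Top y σ z e' q₁ q₂) : Top y σ (x * z) (e + e' + 3) (p₁ + q₁) (p₂ + q₂) := by
  have h1 := Lp_mul h h'.Lp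
  have h2 := Lp_mul h' (add_mem (add_mem
    (s_pow_Lp (y := y) (σ := σ) (le_refl (e + 3))) (c_mul_Lp (-p₁) (s_pow_Lp (show e + 2 ≤ e + 3 by omega))))
    (c_mul_Lp ((p₁ ^ 2 - p₂) / 2) (s_pow_Lp (show e + 1 ≤ e + 3 by omega))))
  rw [show e' + (e + 3) = e + e' + 3 by ring] at h2
  rw [← add_assoc] at h1
  have h3 := c_mul_Lp (-p₁ * ((q₁ ^ 2 - q₂) / 2) + (p₁ ^ 2 - p₂) / 2 * -q₁)
    (s_pow_Lp (y := y) (σ := σ) (le_refl (e + e' + 3)))
  have h4 := c_mul_Lp ((p₁ ^ 2 - p₂) / 2 * ((q₁ ^ 2 - q₂) / 2))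
    (s_pow_Lp (y := y) (σ := σ) (show e + e' + 2 ≤ e + e' + 3 by omega))
  have h5 := add_mem (add_mem (add_mem h1 h2) h3) h4
  unfold Top
  convert h5 using 1
  have : ((p₁ + q₁) ^ 2 - (p₂ + q₂)) / 2 = (p₁ ^ 2 - p₂) / 2 + p₁ * q₁ + (q₁ ^ 2 - q₂) / 2 := by ring
  rw [this]
  simp only [map_add, map_mul, map_neg]
  ring

lemma Top.pow {x : E} {p₁ p₂ : ℂ} (h : Top y σ x 0 p₁ p₂) (m : ℕ) :
    Top y σ (x ^ (m + 1)) (3 * m) ((m + 1 : ℕ) * p₁) ((m + 1 : ℕ) * p₂) := by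
  induction m with
  | zero => simpa using h
  | succ m ih =>
    have := ih.mul h
    rw [← pow_succ] at this
    convert this using 1 <;> push_cast <;> ring

lemma interp_top (hyi : Function.Injective yi) (e : ℕ) (l₀ l₁ q₀ q₁ q₂ : ℂ) (x : Fin 4 → E)
    (hx : ∀ i, Top y σ (x i) e (l₀ + l₁ * yi i) (q₀ + q₁ * yi i + q₂ * yi i ^ 2)) :
    ∃ P : E, P - σ ^ (e + 3) ∈ Lz y σ (e + 2) ∧
      ∀ i, ∃ r ∈ R2 y σ, P = x i + ell y (yi i) * r := by
  have := interp (y := y) (σ := σ) hyi e 1 (-l₀) (-l₁) ((l₀ ^ 2 - q₀) / 2) ((2 * l₀ * l₁ - q₁) / 2)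
    ((l₁ ^ 2 - q₂) / 2) x (fun i => by
      have := hx i
      unfold Top at this
      convert this using 5
      · simp
      · ring
      · ring)
  simpa using this

theorem crt (hyi : Function.Injective yi) (g : Fin 4 → Fin 4 → ℂ[X]) (hg : ∀ i j, (g i j).Monic)
    (n a : Fin 4 → ℕ) (hn : ∀ i j, (g i j).natDegree = n j) (ha : ∀ j, 1 ≤ a j)
    (m : Fin 4 → Fin 4 → ℕ) (δ : ℕ) (T γ₀ : E) (h0 : γ₀ - T ∈ Lz y σ δ)
    (h1 : ∀ i, ∃ r ∈ R2 y σ, γ₀ = mon σ (g i) (m i) + ell y (yi i) * r)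
    (hroom : ∀ i t, (∀ j, m i j ≤ (t + 1) * a j) ∨
      4 * t + 5 + ∑ j, n j * (m i j - (t + 1) * a j) ≤ δ) :
    ∃ γ : E, γ - T ∈ Lz y σ δ ∧
      ∀ i, γ - mon σ (g i) (m i) ∈ Nw y σ (yi i) (g i) a 1 (m i) := by
  have key : ∀ t : ℕ, ∃ γ : E, γ - T ∈ Lz y σ δ ∧ ∀ i, ∃ r ∈ R2 y σ,
      γ - mon σ (g i) (m i) - ell y (yi i) ^ (t + 1) * r ∈ Nw y σ (yi i) (g i) a 1 (m i) := by
    intro t
    induction t with
    | zero =>
      refine ⟨γ₀, h0, fun i => ?_⟩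
      obtain ⟨r, hr, h⟩ := h1 i
      exact ⟨r, hr, by rw [h]; simp⟩
    | succ t ih =>
      obtain ⟨γ, hγ, h⟩ := ih
      choose r hr h using h
      choose p r' hr' hp using fun i => R2_red (yi i) (hr i)
      let G : Fin 4 → ℂ[X] := fun i => ∏ j, g i j ^ (m i j - (t + 1) * a j)
      have hG : ∀ i, (G i).Monic := fun i => monic_prod_of_monic _ _ fun j _ => (hg i j).pow _
      have hGd : ∀ i, (G i).natDegree = ∑ j, n j * (m i j - (t + 1) * a j) := fun i => by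
        rw [natDegree_prod_of_monic _ _ fun j _ => (hg i j).pow _]
        exact Finset.sum_congr rfl fun j _ => by rw [(hg i j).natDegree_pow, hn, mul_comm]
      have hGa : ∀ i, aeval σ (G i) = mon σ (g i) fun j => m i j - (t + 1) * a j := fun i => by
        simp [G, mon]
      let x : Fin 4 → E := fun i => aeval σ (p i %ₘ G i)
      obtain hs := lag_sum (σ := σ) hyi (t + 1) x fun j => aeval_mem s_R2 _
      refine ⟨γ - ∑ j, ell y (yi j) ^ (t + 1) * lag y yi j ^ (t + 1 + 1) * x j, ?_, fun i => ?_⟩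
      · rw [sub_right_comm]
        refine sub_mem hγ (Submodule.sum_mem _ fun j _ => ?_)
        by_cases hG1 : G j = 1
        · simp [x, hG1]
        rcases hroom j t with h2 | h2
        · exact absurd (Finset.prod_eq_one fun k _ => by rw [Nat.sub_eq_zero_of_le (h2 k), pow_zero]) hG1
        · have h3 := natDegree_modByMonic_lt (p j) (hG j) hG1
          rw [hGd] at h3
          have h4 : x j ∈ Lp y σ (∑ k, n k * (m j k - (t + 1) * a k) - 1) := aeval_Lp s_L1 (by omega)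
          have h5 := Lz_of (ell_L0 (yi j)) (Lp_mul (Lp_mul (Lp_pow (Lp_one (L0_le (ell_L0 (yi j)))) t)
            (Lp_pow (Lz_le (lag_Lz hyi j)) (t + 1 + 1))) h4)
          rw [pow_succ' (ell y (yi j)), mul_assoc, mul_assoc, ← mul_assoc (ell y (yi j) ^ t)]
          exact Lz_mono (by omega) h5
      · obtain ⟨s, hs1, hs2⟩ := hs i
        refine ⟨r' i - s, sub_mem (hr' i) hs1, ?_⟩
        have h3 := Nw_gen (y := y) (σ := σ) (c := yi i) (g := g i) (a := a) (t₀ := 1) (m := m i)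
          (t + 1) (fun j => m i j - (t + 1) * a j) (by omega) (aeval_mem s_R2 (p i /ₘ G i))
          (fun j => by omega)
        have h4 := congrArg (aeval σ) (modByMonic_add_div (p i) (G i))
        rw [map_add, map_mul, hGa] at h4
        convert add_mem (h i) h3 using 1
        rw [hs2, hp i, ← h4]
        simp only [x]
        ring
  obtain ⟨γ, h2, h3⟩ := key (∑ i, ∑ j, m i j)
  refine ⟨γ, h2, fun i => ?_⟩
  obtain ⟨r, hr, h4⟩ := h3 i
  have h5 := Nw_gen (y := y) (σ := σ) (c := yi i) (g := g i) (a := a) (t₀ := 1) (m := m i)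
    (∑ i, ∑ j, m i j + 1) 0 (by omega) hr (fun j => by
      have h6 : m i j ≤ ∑ j, m i j := Finset.single_le_sum (f := m i) (fun _ _ => Nat.zero_le _)
        (Finset.mem_univ j)
      have h7 : ∑ j, m i j ≤ ∑ i, ∑ j, m i j := Finset.single_le_sum (f := fun i => ∑ j, m i j)
        (fun _ _ => Nat.zero_le _) (Finset.mem_univ i)
      have := ha j
      simp only [Pi.zero_apply, add_zero]
      nlinarith)
  rw [mon_zero, mul_one] at h5
  simpa using add_mem h4 h5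

end Crest.Agent.R278
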