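import Crest.Agent.R278.Gens

/-!
Charts away from the four lines, and the chart at the central curve.
-/

set_option autoImplicit false
set_option linter.unusedSectionVars false

namespace Crest.Agent.R278

open Polynomial

variable {K : Type} [Field K] [Algebra ℂ K]

/-- logarithmic derivative lies in `C` -/
def LogD (D : Derivation ℂ K K) (C : Subalgebra ℂ K) (x : K) : Prop := ∃ c ∈ C, D x = c * x

section LogD
variable {D : Derivation ℂ K K} {C : Subalgebra ℂ K}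

lemma LogD.mul {x z : K} (hx : LogD D C x) (hz : LogD D C z) : LogD D C (x * z) := by
  obtain ⟨c, hc, e⟩ := hx
  obtain ⟨c', hc', e'⟩ := hz
  exact ⟨c + c', add_mem hc hc', by rw [Derivation.leibniz, e, e']; simp only [smul_eq_mul]; ring⟩

lemma LogD.one : LogD D C 1 := ⟨0, zero_mem _, by simp⟩

lemma LogD.pow {x : K} (hx : LogD D C x) (n : ℕ) : LogD D C (x ^ n) := by
  induction n with
  | zero => simpa using LogD.one
  | succ n ih => rw [pow_succ]; exact ih.mul hx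

lemma LogD.prod {ι : Type} (s : Finset ι) {f : ι → K} (h : ∀ i ∈ s, LogD D C (f i)) :
    LogD D C (∏ i ∈ s, f i) :=
  Finset.prod_induction f (LogD D C) (fun _ _ => LogD.mul) LogD.one h

lemma LogD.inv {x : K} (hx : LogD D C x) : LogD D C x⁻¹ := by
  obtain ⟨c, hc, e⟩ := hx
  refine ⟨-c, neg_mem hc, ?_⟩
  rw [Derivation.leibniz_inv, e]
  rcases eq_or_ne x 0 with rfl | h
  · simp
  · simp only [smul_eq_mul]; field_simp

variable {V : ValuationSubring K} {hV : ∀ c : ℂ, algebraMap ℂ K c ∈ V}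

lemma Om.logD {x : K} (hx : x ∈ Om V hV D) (h : V.valuation x = 1) : LogD D (Om V hV D) x :=
  ⟨D x * x⁻¹, mul_mem (Om.der hx) (Om.inv hx (v_inv_mem h)), by
    rw [inv_mul_cancel_right₀ (v_ne h)]⟩

lemma Om.root' {u : K} {n : ℕ} (hn : n ≠ 0) (hU : u ^ n ∈ V) (hU0 : u ≠ 0)
    (h : LogD D (Om V hV D) (u ^ n)) : u ∈ Om V hV D := by
  obtain ⟨c, hc, e⟩ := h
  exact (Om.root hn rfl hU (pow_ne_zero _ hU0) hc e).1

lemma Om.root_unit {u : K} {n : ℕ} (hn : n ≠ 0) (hU : u ^ n ∈ Om V hV D)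
    (h : V.valuation (u ^ n) = 1) : u ∈ Om V hV D :=
  Om.root' hn (Om.mem_val hU) (v_ne (v_of_pow hn h)) (Om.logD hU h)

lemma Om.div {x z : K} (hx : x ∈ Om V hV D) (hz : z ∈ Om V hV D) (h : V.valuation z = 1) :
    x / z ∈ Om V hV D := by
  rw [div_eq_mul_inv]; exact mul_mem hx (Om.inv hz (v_inv_mem h))

end LogD

namespace Setup
variable (S : Setup K)

lemma seidW {V : ValuationSubring K} {hV : ∀ c : ℂ, algebraMap ℂ K c ∈ V} {D : Derivation ℂ K K}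
    (h1 : S.y ∈ Frac (Om V hV D)) (h2 : S.σ ∈ Frac (Om V hV D))
    (h3 : ∀ k, S.H k ∈ Frac (Om V hV D)) (hW : ∀ f ∈ S.W, f ∈ Om V hV D) :
    ∀ a, IsIntegral S.Bs a → D a ∈ V := by
  refine Om.seid (hV := hV) ?_ S.Bs (Algebra.adjoin_le hW)
  rw [eq_top_iff, ← S.hK, IntermediateField.adjoin_le_iff]
  rintro z (rfl | rfl | rfl | rfl)
  exacts [h1, h2, h3 0, h3 1]

lemma F_Lp : ∏ i, ell S.y (S.yi i) ∈ Lp S.y S.σ 4 := by
  have h := fun i => Lp_one (L0_le (σ := S.σ) (ell_L0 (y := S.y) (S.yi i)))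
  rw [Fin.prod_univ_four]
  exact Lp_mul (Lp_mul (Lp_mul (h 0) (h 1)) (h 2)) (h 3)

lemma F_sub : S.y ^ 4 - ∏ i, ell S.y (S.yi i) ∈ Lp S.y S.σ 3 := by
  have h := fun i => Lp_one (L0_le (σ := S.σ) (ell_L0 (y := S.y) (S.yi i)))
  have hy := Lp_one (y_L1 (y := S.y) (σ := S.σ))
  have := add_mem (add_mem (add_mem (c_mul_Lp (S.yi 0) (Lp_mul (Lp_mul hy hy) hy))
    (c_mul_Lp (S.yi 1) (Lp_mul (Lp_mul (h 0) hy) hy)))
    (c_mul_Lp (S.yi 2) (Lp_mul (Lp_mul (h 0) (h 1)) hy)))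
    (c_mul_Lp (S.yi 3) (Lp_mul (Lp_mul (h 0) (h 1)) (h 2)))
  convert this using 1
  rw [Fin.prod_univ_four]; simp only [ell]; ring

lemma Dy_Lp (k : Fin 2) : S.D k S.y ∈ Lp S.y S.σ 10 := by
  rw [S.hDy]; exact Lp_mul S.F_Lp (S.hB k)

lemma Dσ_Lp (k : Fin 2) : S.D k S.σ ∈ Lp S.y S.σ 10 := by
  rw [S.hDσ]
  have := Lp_mul (Lp_mul (Lp_one s_L1) (y_pow_Lp (le_refl 3))) (S.hB k)
  exact add_mem (neg_mem (Lp_mono (by norm_num) (S.hP k))) this

lemma Dyσ_Lp (k : Fin 2) : S.y * S.D k S.σ - S.σ * S.D k S.y ∈ Lp S.y S.σ 10 := by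
  have h1 : _ ∈ Lp S.y S.σ 10 := Lp_mul (Lp_one y_L1) (S.hP k)
  have h2 : _ ∈ Lp S.y S.σ 10 := Lp_mul (Lp_mul (Lp_one s_L1) S.F_sub) (S.hB k)
  have := add_mem (neg_mem h1) h2
  convert this using 1
  rw [S.hDσ, S.hDy]; ring

lemma br_yσ : br (S.D 0) (S.D 1) S.y S.σ = (∏ i, ell S.y (S.yi i)) * S.γt := by
  simp only [br, S.hDy, S.hDσ, γt]; ring

lemma br_v (x z : K) : br (S.v 0) (S.v 1) x z = br (S.D 0) (S.D 1) x z / (S.H 0 * S.H 1) := by
  simp only [br, v, Derivation.coe_smul, Pi.smul_apply, smul_eq_mul]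
  have := S.H_ne 0; have := S.H_ne 1
  field_simp

lemma W_int {f : K} (hf : f ∈ S.W) : IsIntegral S.Bs f :=
  isIntegral_algebraMap (R := S.Bs) (A := K) (x := ⟨f, Algebra.subset_adjoin hf⟩)

lemma chart_l {V : ValuationSubring K} (hV : ∀ c : ℂ, algebraMap ℂ K c ∈ V)
    (hW : ∀ f ∈ S.W, f ∈ V) (lam : K) (hl : lam ∈ L1 S.y S.σ) (hl0 : lam ≠ 0)
    (h1 : lam⁻¹ ∈ V) (h2 : S.y / lam ∈ V) (h3 : S.σ / lam ∈ V)
    (h4 : ∀ i, V.valuation (S.l i / lam) = 1)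
    (hD : ∀ k, ∀ φ ∈ ({1, S.y, S.σ} : Set K), lam * S.D k φ - φ * S.D k lam ∈ Lp S.y S.σ 10)
    (φ ψ : K) (hφ : φ ∈ L1 S.y S.σ) (hψ : ψ ∈ L1 S.y S.σ)
    (hbr : br (S.D 0) (S.D 1) (φ / lam) (ψ / lam) * lam ^ 3 = (∏ i, ell S.y (S.yi i)) * S.γt) :
    Good (S.v 0) (S.v 1) (IsIntegral S.Bs) V := by
  have hLV : ∀ {d x}, x ∈ Lp S.y S.σ d → x / lam ^ d ∈ V := fun hx => Lp_div (C := VS V hV) h1 h2 h3 hx
  set f₀ := lam * lam ^ (S.Bn * S.Δ - 1 - ∑ i, S.KK i) * (∏ i, S.l i ^ S.KK i) / S.Γ ^ S.Bn with hf₀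
  have hf₀W : f₀ ∈ S.W := S.gen_l hl hl
  have e0 : f₀ * (S.Γ / lam ^ S.Δ) ^ S.Bn = ∏ i, (S.l i / lam) ^ S.KK i := by
    have h5 := S.hdeg1
    have h6 : (lam ^ S.Δ) ^ S.Bn = lam * lam ^ (S.Bn * S.Δ - 1 - ∑ i, S.KK i) * ∏ i, lam ^ S.KK i := by
      rw [Finset.prod_pow_eq_pow_sum, ← pow_succ', ← pow_add, ← pow_mul]
      congr 1; unfold Δ; rw [mul_comm]; omega
    have := S.Γ_ne
    simp only [div_pow, Finset.prod_div_distrib]
    rw [hf₀, h6]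
    have : ∏ i, lam ^ S.KK i ≠ 0 := Finset.prod_ne_zero_iff.2 fun _ _ => pow_ne_zero _ hl0
    field_simp
  have e1 : V.valuation (f₀ * (S.Γ / lam ^ S.Δ) ^ S.Bn) = 1 := by
    rw [e0, map_prod]; simp only [map_pow, h4, one_pow, Finset.prod_const_one]
  obtain ⟨e2, e3⟩ := v_of_mul (hW _ hf₀W) (pow_mem (hLV S.Γ_Lp) _) e1
  have e4 := v_of_pow (Nat.one_le_iff_ne_zero.1 S.Bn_pos) e3
  have e5 := e4
  rw [Γ, Δ, pow_add, pow_add, mul_div_mul_comm, mul_div_mul_comm] at e5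
  obtain ⟨e6, e7⟩ := v_of_mul (mul_mem (hLV (S.γ_Lp 0)) (hLV (S.γ_Lp 1))) (hLV S.γt_Lp) e5
  have e8 : ∀ k, V.valuation (S.γ k / lam ^ (S.δ k + 1)) = 1 := by
    rw [Fin.forall_fin_two]; exact v_of_mul (hLV (S.γ_Lp 0)) (hLV (S.γ_Lp 1)) e6
  have e9 : ∀ k, (S.H k / lam ^ 8) ^ S.N k =
      S.γ k / lam ^ (S.δ k + 1) / ∏ i, (S.l i / lam) ^ S.kk k i := by
    intro k
    have : ∏ i, S.l i ^ S.kk k i ≠ 0 := Finset.prod_ne_zero_iff.2 fun i _ => pow_ne_zero _ (S.l_ne i)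
    simp only [div_pow, Finset.prod_div_distrib]
    rw [S.hδ, ← S.hH, Finset.prod_pow_eq_pow_sum, pow_add, pow_mul]
    simp only [l] at this ⊢
    field_simp
  have e10 : ∀ k, V.valuation (∏ i, (S.l i / lam) ^ S.kk k i) = 1 := fun k => by
    rw [map_prod]; simp only [map_pow, h4, one_pow, Finset.prod_const_one]
  have e11 : ∀ k, V.valuation ((S.H k / lam ^ 8) ^ S.N k) = 1 := fun k => by
    rw [e9, map_div₀, e8, e10, div_one]
  have e12 : ∀ k, V.valuation (S.H k / lam ^ 8) = 1 := fun k => v_of_pow (S.hN0 k) (e11 k)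
  have hv : ∀ k a, IsIntegral S.Bs a → S.v k a ∈ V := by
    intro k a ha
    let D' : Derivation ℂ K K := (lam ^ 8)⁻¹ • S.D k
    have hT : Algebra.adjoin ℂ {lam⁻¹, S.y / lam, S.σ / lam} ≤ Om V hV D' := by
      refine Om.of_adjoin _ (by simp) (by rintro t (rfl | rfl | rfl); exacts [h1, h2, h3]) ?_
      have key : ∀ φ ∈ ({1, S.y, S.σ} : Set K),
          D' (φ / lam) ∈ Algebra.adjoin ℂ {lam⁻¹, S.y / lam, S.σ / lam} := by
        intro φ hφ
        have := Lp_div (l := lam) (C := Algebra.adjoin ℂ {lam⁻¹, S.y / lam, S.σ / lam})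
          (Algebra.subset_adjoin (by simp)) (Algebra.subset_adjoin (by simp))
          (Algebra.subset_adjoin (by simp)) (hD k φ hφ)
        convert this using 1
        simp only [D', Derivation.coe_smul, Pi.smul_apply, smul_eq_mul, Derivation.leibniz_div]
        field_simp
      rintro t (rfl | rfl | rfl)
      · simpa using key 1 (by simp)
      · exact key _ (by simp)
      · exact key _ (by simp)
    have g1 : lam⁻¹ ∈ Om V hV D' := hT (Algebra.subset_adjoin (by simp))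
    have g2 : S.y / lam ∈ Om V hV D' := hT (Algebra.subset_adjoin (by simp))
    have g3 : S.σ / lam ∈ Om V hV D' := hT (Algebra.subset_adjoin (by simp))
    have hLO : ∀ {d x}, x ∈ Lp S.y S.σ d → x / lam ^ d ∈ Om V hV D' := fun hx => Lp_div g1 g2 g3 hx
    have g4 : lam ∈ Frac (Om V hV D') := by simpa using inv_mem (mem_Frac g1)
    have g5 : ∀ k', S.H k' / lam ^ 8 ∈ Om V hV D' := fun k' => by
      refine Om.root_unit (S.hN0 k') ?_ (e11 k')
      rw [e9]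
      refine Om.div (hLO (S.γ_Lp k')) (Subalgebra.prod_mem _ fun i _ => pow_mem ?_ _) (e10 k')
      simpa [l] using hLO (Lp_one (L0_le (ell_L0 (S.yi i))))
    have g6 := S.seidW (hV := hV) (D := D') (by simpa [hl0] using mul_mem (mem_Frac g2) g4)
      (by simpa [hl0] using mul_mem (mem_Frac g3) g4)
      (fun k' => by simpa [hl0] using mul_mem (mem_Frac (g5 k')) (pow_mem g4 8)) (by
        rintro f ⟨b, Ψ, hb, -, hΨ, rfl⟩
        have := Om.div (hLO (Lz_le hΨ.1)) (pow_mem (hLO S.Γ_Lp) b) (by rw [map_pow, e4, one_pow])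
        convert this using 1
        have h7 : b * S.Δ - 1 + 1 = S.Δ * b := by
          have : 1 ≤ b * S.Δ := Nat.mul_pos hb (by unfold Δ; omega)
          rw [mul_comm S.Δ]; omega
        rw [h7, pow_mul, div_pow, div_div_div_cancel_right₀ (by positivity)]) a ha
    have := mul_mem (v_inv_mem (e12 k)) g6
    convert this using 1
    simp only [D', v, Derivation.coe_smul, Pi.smul_apply, smul_eq_mul]
    field_simp
  have hloc : ∀ φ ∈ L1 S.y S.σ, φ / lam ∈ Loc V S.Bs := fun φ hφ =>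
    ⟨f₀, S.W_int hf₀W, e2, by
      convert S.W_int (S.gen_l hφ hl) using 1
      rw [hf₀]; field_simp⟩
  refine good_of_loc (adjoin_sub_val V hV _ hW) (fun a ha => ⟨hv 0 a ha, hv 1 a ha⟩)
    (hloc φ hφ) (hloc ψ hψ) ?_
  have e13 : br (S.v 0) (S.v 1) (φ / lam) (ψ / lam) = (∏ i, S.l i / lam) * (S.γt / lam ^ 15) /
      (S.H 0 / lam ^ 8 * (S.H 1 / lam ^ 8)) := by
    rw [S.br_v, eq_div_of_mul_eq (pow_ne_zero 3 hl0) hbr, Finset.prod_div_distrib]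
    have := S.H_ne 0; have := S.H_ne 1
    simp only [l, Finset.prod_const, Finset.card_univ, Fintype.card_fin]
    field_simp
  rw [e13, map_div₀, map_mul, map_mul, map_prod, e7, e12, e12]
  simp only [h4, Finset.prod_const_one, mul_one, div_one]

lemma chart_one {V : ValuationSubring K} (hV : ∀ c : ℂ, algebraMap ℂ K c ∈ V)
    (hW : ∀ f ∈ S.W, f ∈ V) (h2 : S.y ∈ V) (h3 : S.σ ∈ V) (h4 : ∀ i, V.valuation (S.l i) = 1) :
    Good (S.v 0) (S.v 1) (IsIntegral S.Bs) V := by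
  refine S.chart_l hV hW 1 one_L1 one_ne_zero (by simp) (by simpa) (by simpa) (by simpa) ?_
    S.y S.σ y_L1 s_L1 (by simpa using S.br_yσ)
  rintro k φ (rfl | rfl | rfl)
  · simp
  · simpa using S.Dy_Lp k
  · simpa using S.Dσ_Lp k

lemma chart_y {V : ValuationSubring K} (hV : ∀ c : ℂ, algebraMap ℂ K c ∈ V)
    (hW : ∀ f ∈ S.W, f ∈ V) (h0 : S.y ≠ 0) (h2 : V.valuation S.y⁻¹ < 1) (h3 : S.σ / S.y ∈ V) :
    Good (S.v 0) (S.v 1) (IsIntegral S.Bs) V := by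
  refine S.chart_l hV hW S.y y_L1 h0 (vmem h2.le) (by simp [h0]) h3 (fun i => ?_) ?_
    S.σ 1 s_L1 one_L1 ?_
  · have := v_one_add (u := 1) (by simp) (vlt_mul h2 (neg_mem (hV (S.yi i))))
    convert this using 2
    rw [l, ell]; field_simp; ring
  · rintro k φ (rfl | rfl | rfl)
    · simpa using S.Dy_Lp k
    · simp
    · exact S.Dyσ_Lp k
  · rw [← S.br_yσ]
    simp only [br, Derivation.leibniz_div, smul_eq_mul, Derivation.map_one_eq_zero]
    field_simp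
    ring

lemma bad (k : Fin 2) (a : K) (ha : IsIntegral S.Bs a) : S.V₀.valuation (S.v k a) < 1 := by
  have hσ := S.hσ
  let D' : Derivation ℂ K K := (S.σ ^ 8)⁻¹ • S.D k
  have c1 : S.σ⁻¹ ∈ Algebra.adjoin ℂ {S.y, S.σ⁻¹} := Algebra.subset_adjoin (by simp)
  have c2 : S.y ∈ Algebra.adjoin ℂ {S.y, S.σ⁻¹} := Algebra.subset_adjoin (by simp)
  have c3 : S.y / S.σ ∈ Algebra.adjoin ℂ {S.y, S.σ⁻¹} := by
    rw [div_eq_mul_inv]; exact mul_mem c2 c1
  have c4 : S.σ / S.σ ∈ Algebra.adjoin ℂ {S.y, S.σ⁻¹} := by rw [div_self hσ]; exact one_mem _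
  have cB := Lp_div c1 c3 c4 (S.hB k)
  have cP := Lp_div c1 c3 c4 (S.hP k)
  have cl : ∀ i, ell S.y (S.yi i) ∈ Algebra.adjoin ℂ {S.y, S.σ⁻¹} := fun i =>
    sub_mem c2 (Subalgebra.algebraMap_mem _ _)
  have d1 : D' S.y = (∏ i, ell S.y (S.yi i)) * (S.σ⁻¹ ^ 2 * (S.B k / S.σ ^ 6)) := by
    simp only [D', Derivation.coe_smul, Pi.smul_apply, smul_eq_mul, S.hDy]; field_simp
  have d2 : D' S.σ⁻¹ = (S.P k / S.σ ^ 9 - S.y ^ 3 * S.σ⁻¹ ^ 2 * (S.B k / S.σ ^ 6)) * S.σ⁻¹ := by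
    simp only [D', Derivation.coe_smul, Pi.smul_apply, smul_eq_mul, Derivation.leibniz_inv, S.hDσ]
    field_simp; ring
  have c5 := sub_mem cP (mul_mem (mul_mem (pow_mem c2 3) (pow_mem c1 2)) cB)
  have hT : Algebra.adjoin ℂ {S.y, S.σ⁻¹} ≤ Om S.V₀ S.hV₀ D' := by
    refine Om.of_adjoin _ (by simp) (by
      rintro t (rfl | rfl); exacts [S.hV₀y, vmem S.hV₀σ.le]) ?_
    rintro t (rfl | rfl)
    · rw [d1]
      exact mul_mem (Subalgebra.prod_mem _ fun i _ => cl i) (mul_mem (pow_mem c1 2) cB)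
    · rw [d2]; exact mul_mem c5 c1
  have e9 : ∀ k', (S.σ ^ 8 / S.H k') ^ S.N k' = S.σ⁻¹ ^ (∑ i, S.kk k' i) *
      ((∏ i, ell S.y (S.yi i) ^ S.kk k' i) * (S.γ k' / S.σ ^ (S.δ k' + 1))⁻¹) := by
    intro k'
    have : ∏ i, ell S.y (S.yi i) ^ S.kk k' i ≠ 0 :=
      Finset.prod_ne_zero_iff.2 fun i _ => pow_ne_zero _ (S.l_ne i)
    have := S.H_ne k'
    rw [S.hδ, ← S.hH, pow_add, pow_mul, div_pow, inv_pow]
    field_simp
  have g0 : ∀ k', S.γ k' / S.σ ^ (S.δ k' + 1) ∈ Om S.V₀ S.hV₀ D' := fun k' =>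
    hT (Lp_div c1 c3 c4 (S.γ_Lp k'))
  have e10 : ∀ k', S.V₀.valuation ((S.σ ^ 8 / S.H k') ^ S.N k') < 1 := by
    intro k'
    rw [e9]
    refine vlt_mul ?_ (mul_mem (Om.mem_val (hT (Subalgebra.prod_mem _ fun i _ => pow_mem (cl i) _)))
      (v_inv_mem (S.val_V₀.1 k')))
    rw [map_pow]
    exact pow_lt_one₀ zero_le S.hV₀σ (Nat.one_le_iff_ne_zero.1 (S.hkk k'))
  have g5 : ∀ k', S.σ ^ 8 / S.H k' ∈ Om S.V₀ S.hV₀ D' := by
    intro k'
    refine Om.root' (S.hN0 k') (vmem (e10 k').le) (div_ne_zero (pow_ne_zero _ hσ) (S.H_ne k')) ?_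
    rw [e9]
    refine (LogD.pow ⟨_, hT c5, d2⟩ _).mul ((LogD.prod _ fun i _ => LogD.pow ?_ _).mul
      (Om.logD (g0 k') (S.val_V₀.1 k')).inv)
    refine ⟨(∏ j ∈ Finset.univ.erase i, ell S.y (S.yi j)) * (S.σ⁻¹ ^ 2 * (S.B k / S.σ ^ 6)),
      hT (mul_mem (Subalgebra.prod_mem _ fun j _ => cl j) (mul_mem (pow_mem c1 2) cB)), ?_⟩
    rw [ell, map_sub, d1, ← Finset.mul_prod_erase _ _ (Finset.mem_univ i)]
    simp only [ell, Derivation.map_algebraMap]; ring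
  have g4 : S.σ ∈ Frac (Om S.V₀ S.hV₀ D') := by simpa using inv_mem (mem_Frac (hT c1))
  have e4 : S.V₀.valuation (S.Γ / S.σ ^ S.Δ) = 1 := by
    rw [Γ, Δ, pow_add, pow_add, mul_div_mul_comm, mul_div_mul_comm, map_mul, map_mul,
      S.val_V₀.1, S.val_V₀.1, S.val_V₀.2.1]
    simp
  have g6 := S.seidW (hV := S.hV₀) (D := D') (mem_Frac (hT c2)) g4
    (fun k' => by
      have := mul_mem (inv_mem (mem_Frac (g5 k'))) (pow_mem g4 8)
      rwa [inv_div, div_mul_cancel₀ _ (pow_ne_zero _ hσ)] at this) (by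
      rintro f ⟨b, Ψ, hb, -, hΨ, rfl⟩
      have := Om.div (hT (Lp_div c1 c3 c4 (Lz_le hΨ.1))) (pow_mem (hT (Lp_div c1 c3 c4 S.Γ_Lp)) b)
        (by rw [map_pow, e4, one_pow])
      convert this using 1
      have h7 : b * S.Δ - 1 + 1 = S.Δ * b := by
        have : 1 ≤ b * S.Δ := Nat.mul_pos hb (by unfold Δ; omega)
        rw [mul_comm S.Δ]; omega
      rw [h7, pow_mul, div_pow, div_div_div_cancel_right₀ (by positivity)]) a ha
  have e11 : S.V₀.valuation (S.σ ^ 8 / S.H k) < 1 := by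
    have := e10 k
    rw [map_pow] at this
    exact (pow_lt_one_iff_of_nonneg zero_le (S.hN0 k)).1 this
  have := vlt_mul e11 g6
  convert this using 2
  simp only [D', v, Derivation.coe_smul, Pi.smul_apply, smul_eq_mul]
  field_simp

end Setup

end Crest.Agent.R278
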