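import Crest.Agent.R278.Chart1

/-!
The charts along the four lines.
-/

set_option autoImplicit false
set_option linter.unusedSectionVars false

namespace Crest.Agent.R278

open Polynomial

variable {K : Type} [Field K] [Algebra ℂ K]

lemma der_pow (D : Derivation ℂ K K) {x : K} (hx : x ≠ 0) (n : ℕ) :
    D (x ^ n) = x ^ n * (n * (D x / x)) := by
  rcases n with _ | n
  · simp
  · rw [Derivation.leibniz_pow]; simp only [Nat.add_sub_cancel, nsmul_eq_mul, smul_eq_mul]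
    field_simp; ring

namespace Setup
variable (S : Setup K)

noncomputable def G (i j : Fin 4) : K := aeval S.σ (S.g i j)
noncomputable def G' (i j : Fin 4) : K := aeval S.σ (derivative (S.g i j))
noncomputable def Cw (i : Fin 4) : Subalgebra ℂ K := Algebra.adjoin ℂ {S.σ, S.w i}
noncomputable def Dt (k : Fin 2) (i : Fin 4) : Derivation ℂ K K := (S.mo i (S.o k i))⁻¹ • S.D k
noncomputable def Fo (i : Fin 4) : K := ∏ j ∈ Finset.univ.erase i, ell S.y (S.yi j)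

lemma der_mo (D : Derivation ℂ K K) (i : Fin 4) (e : Fin 4 → ℕ) :
    D (S.mo i e) = S.mo i e * ((∑ j, e j * S.G' i j / S.G i j) * D S.σ) := by
  have h := fun j => der_pow D (S.G_ne i j) (e j)
  simp only [mo, mon, Fin.prod_univ_four, Fin.sum_univ_four, Derivation.leibniz, h, smul_eq_mul,
    Derivation.map_aeval, G, G']
  ring

lemma mo_single (i j : Fin 4) : S.mo i (Pi.single j 1) = S.G i j := by
  rw [mo, mon, Finset.prod_eq_single j]
  · simp [G]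
  · intro b _ hb; simp [Pi.single_eq_of_ne hb]
  · simp

lemma mo_add (i : Fin 4) (e e' : Fin 4 → ℕ) : S.mo i (e + e') = S.mo i e * S.mo i e' := mon_add _ _ _

lemma mo_sub (i : Fin 4) {e e' : Fin 4 → ℕ} (h : ∀ j, e' j ≤ e j) :
    S.mo i (e - e') = S.mo i e / S.mo i e' := by
  rw [eq_div_iff (S.mo_ne i _), ← mo_add]
  congr 1; ext j; have := h j; simp; omega

lemma mo_sub_single (i j : Fin 4) {e : Fin 4 → ℕ} (h : 1 ≤ e j) :
    S.mo i (e - Pi.single j 1) = S.mo i e / S.G i j := by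
  rw [S.mo_sub, mo_single]
  intro j'
  rcases eq_or_ne j' j with rfl | h'
  · simpa
  · simp [Pi.single_eq_of_ne h']

lemma σ_Cw (i : Fin 4) : S.σ ∈ S.Cw i := Algebra.subset_adjoin (by simp)
lemma w_Cw (i : Fin 4) : S.w i ∈ S.Cw i := Algebra.subset_adjoin (by simp)
lemma mo_Cw (i : Fin 4) (e : Fin 4 → ℕ) : S.mo i e ∈ S.Cw i := mon_mem (S.σ_Cw i) _ _
lemma l_eq' (i : Fin 4) : ell S.y (S.yi i) = S.w i * S.mo i S.a := S.l_eq i
lemma y_Cw (i : Fin 4) : S.y ∈ S.Cw i := by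
  have : S.y = algebraMap ℂ K (S.yi i) + S.w i * S.mo i S.a := by rw [← S.l_eq', ell]; ring
  rw [this]; exact add_mem (Subalgebra.algebraMap_mem _ _) (mul_mem (S.w_Cw i) (S.mo_Cw i _))
lemma R2_Cw (i : Fin 4) : R2 S.y S.σ ≤ S.Cw i := R2_le (S.y_Cw i) (S.σ_Cw i)

lemma o_lt (k : Fin 2) (i j : Fin 4) : S.o k i j + 1 ≤ S.a j := by
  have := S.hoa i j
  fin_cases k <;> simp <;> omega

lemma Dt_σ (k : Fin 2) (i : Fin 4) : ∃ r ∈ S.Cw i,
    S.Dt k i S.σ = S.A k i + S.w i * S.mo i (S.a - S.o k i) * r := by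
  obtain ⟨r, hr, h⟩ := S.hQ k i
  refine ⟨r, S.R2_Cw i hr, ?_⟩
  have := S.mo_ne i (S.o k i)
  rw [S.mo_sub i (fun j => by have := S.o_lt k i j; omega)]
  simp only [Dt, Derivation.coe_smul, Pi.smul_apply, smul_eq_mul, h, S.l_eq']
  rw [← mo]
  field_simp

lemma D_w (k : Fin 2) (i : Fin 4) : S.D k (S.w i) =
    S.w i * (S.Fo i * S.B k - (∑ j, S.a j * S.G' i j / S.G i j) * S.D k S.σ) := by
  have h1 := S.mo_ne i S.a
  have h2 : S.D k (S.l i) = S.l i * (S.Fo i * S.B k) := by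
    rw [l, ell, map_sub, S.hDy, ← Finset.mul_prod_erase _ _ (Finset.mem_univ i), Fo]
    simp only [ell, Derivation.map_algebraMap]; ring
  rw [w, Derivation.leibniz_div, h2, S.der_mo]
  simp only [smul_eq_mul]
  field_simp

lemma Dt_w (k : Fin 2) (i : Fin 4) : S.Dt k i (S.w i) ∈ S.Cw i := by
  obtain ⟨r, hr, h⟩ := S.hQ k i
  obtain ⟨z, hz, r', hr', h'⟩ := S.hN k i
  have h1 := S.mo_ne i (S.o k i)
  have h2 : ∀ j, mon S.σ (S.g i) (S.o k i - Pi.single j 1) = S.mo i (S.o k i) / S.G i j :=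
    fun j => S.mo_sub_single i j (S.ho k i j)
  have h3 : ∀ j, S.mo i (S.a - S.o k i - Pi.single j 1) =
      S.mo i S.a / S.mo i (S.o k i) / S.G i j := fun j => by
    rw [S.mo_sub_single i j (by have := S.o_lt k i j; simp; omega),
      S.mo_sub i (fun j => by have := S.o_lt k i j; omega)]
  have : S.Dt k i (S.w i) = S.w i * (z + S.w i * S.mo i (S.a - S.o k i) * r' -
      S.w i * r * ∑ j, S.a j * S.G' i j * S.mo i (S.a - S.o k i - Pi.single j 1)) := by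
    simp only [Dt, Derivation.coe_smul, Pi.smul_apply, smul_eq_mul, S.D_w, Fo]
    rw [h', h]
    simp only [h2, h3, S.l_eq']
    rw [S.mo_sub i (fun j => by have := S.o_lt k i j; omega), ← mo]
    simp only [Fin.sum_univ_four, G']
    have := S.G_ne i 0; have := S.G_ne i 1; have := S.G_ne i 2; have := S.G_ne i 3
    simp only [G]
    field_simp
    ring
  rw [this]
  refine mul_mem (S.w_Cw i) (sub_mem (add_mem (S.R2_Cw i hz) (mul_mem (mul_mem (S.w_Cw i)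
    (S.mo_Cw i _)) (S.R2_Cw i hr'))) (mul_mem (mul_mem (S.w_Cw i) (S.R2_Cw i hr))
    (Subalgebra.sum_mem _ fun j _ => mul_mem (mul_mem (natCast_mem _ _)
      (aeval_mem (S.σ_Cw i) _)) (S.mo_Cw i _))))

lemma γ_div (k : Fin 2) (i : Fin 4) : ∃ z ∈ S.Cw i, S.γ k / S.mo i (S.m k i) = 1 + S.w i * z := by
  obtain ⟨z, hz, h⟩ := Nw_div (S.l_eq i) (S.w_Cw i) (S.σ_Cw i) (S.hγN k i)
  refine ⟨z, hz, ?_⟩
  have := S.mo_ne i (S.m k i)
  rw [sub_eq_iff_eq_add.1 h, ← mo]; field_simp; ring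

lemma γt_div (i : Fin 4) : ∃ z ∈ S.Cw i,
    S.γt / S.mo i (S.o 0 i + S.o 1 i) = algebraMap ℂ K S.cδ + S.w i * z := by
  obtain ⟨z, hz, h⟩ := Nw_div (S.l_eq i) (S.w_Cw i) (S.σ_Cw i) (S.γt_NW i)
  refine ⟨z, hz, ?_⟩
  have := S.mo_ne i (S.o 0 i + S.o 1 i)
  rw [sub_eq_iff_eq_add.1 h, ← mo]; field_simp; ring

lemma Γ_div (i : Fin 4) : S.Γ / S.mo i (S.M i) = S.γ 0 / S.mo i (S.m 0 i) *
    (S.γ 1 / S.mo i (S.m 1 i)) * (S.γt / S.mo i (S.o 0 i + S.o 1 i)) := by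
  rw [Γ, M, mo_add, mo_add, mul_div_mul_comm, mul_div_mul_comm]

lemma W_div (i : Fin 4) {f : K} (hf : f ∈ S.W) :
    ∃ b, ∃ z ∈ S.Cw i, f = S.w i * z / (S.Γ / S.mo i (S.M i)) ^ b := by
  obtain ⟨b, Ψ, -, -, hΨ, rfl⟩ := hf
  obtain ⟨z, hz, h⟩ := Nw_div (S.l_eq i) (S.w_Cw i) (S.σ_Cw i) (hΨ.2 i)
  refine ⟨b, z, hz, ?_⟩
  have := S.mo_ne i (S.M i)
  have := S.Γ_ne
  rw [h, mon_smul, ← mo, div_pow]; field_simp

lemma val_w {V : ValuationSubring K} (hV : ∀ c : ℂ, algebraMap ℂ K c ∈ V) (i : Fin 4)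
    (hσ : S.σ ∈ V) (hw : V.valuation (S.w i) < 1) : ∀ f ∈ S.W, V.valuation f < 1 := by
  have hC : S.Cw i ≤ VS V hV := Algebra.adjoin_le (by
    rintro t (rfl | rfl); exacts [hσ, vmem hw.le])
  intro f hf
  obtain ⟨b, z, hz, rfl⟩ := S.W_div i hf
  obtain ⟨z0, hz0, e0⟩ := S.γ_div 0 i
  obtain ⟨z1, hz1, e1⟩ := S.γ_div 1 i
  obtain ⟨z2, hz2, e2⟩ := S.γt_div i
  rw [map_div₀, map_pow, S.Γ_div, map_mul _ (_ * _), map_mul _ (_ / _), e0, e1, e2,
    v_one_add (by simp) (vlt_mul hw (hC hz0)), v_one_add (by simp) (vlt_mul hw (hC hz1)),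
    v_one_add (v_const hV S.hcδ) (vlt_mul hw (hC hz2))]
  simpa using vlt_mul hw (hC hz)

lemma exists_G {V : ValuationSubring K} (hV : ∀ c : ℂ, algebraMap ℂ K c ∈ V) (i : Fin 4)
    (hσ : S.σ ∈ V) (h : V.valuation (S.mo i S.a) < 1) :
    ∃ j, V.valuation (S.G i j) < 1 ∧ ∀ e : Fin 4 → ℕ,
      V.valuation (S.mo i e) = V.valuation (S.G i j) ^ e j := by
  have hG : ∀ p : ℂ[X], aeval S.σ p ∈ V := fun p => aeval_mem (C := VS V hV) hσ p
  obtain ⟨j, hj⟩ : ∃ j, V.valuation (S.G i j) < 1 := by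
    by_contra hcon
    push Not at hcon
    have : ∀ j, V.valuation (aeval S.σ (S.g i j)) = 1 := fun j => le_antisymm (vle (hG _)) (hcon j)
    rw [mo, mon, map_prod] at h
    simp only [map_pow, this, one_pow, Finset.prod_const_one, lt_irrefl] at h
  refine ⟨j, hj, fun e => ?_⟩
  have : ∀ j', j' ≠ j → V.valuation (aeval S.σ (S.g i j')) = 1 := by
    intro j' hj'
    refine le_antisymm (vle (hG _)) (not_lt.1 fun h' => ?_)
    obtain ⟨u, u', huv⟩ := S.hcop i j' j hj'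
    have h1 := congrArg (aeval S.σ) huv
    rw [map_add, map_mul, map_mul, map_one, mul_comm (aeval S.σ u), mul_comm (aeval S.σ u')] at h1
    have := V.valuation.map_add_lt (vlt_mul h' (hG u)) (vlt_mul hj (hG u'))
    rw [G, h1] at this
    simp at this
  rw [mo, mon, map_prod, Finset.prod_eq_single j]
  · simp [G]
  · intro b _ hb; rw [map_pow, this b hb, one_pow]
  · simp

lemma val_l_ne {V : ValuationSubring K} (hV : ∀ c : ℂ, algebraMap ℂ K c ∈ V) {i : Fin 4}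
    (hl : V.valuation (S.l i) < 1) {i' : Fin 4} (h : i' ≠ i) : V.valuation (ell S.y (S.yi i')) = 1 := by
  have := v_one_add (v_const hV (sub_ne_zero.2 (S.hyi.ne h.symm))) hl
  convert this using 2
  simp [l, ell]

lemma fx_eq (i j : Fin 4) : S.fx i j * S.Γ ^ S.Bn = S.mo i (S.ex i j) * S.l i ^ S.kx i j *
    ∏ i' ∈ Finset.univ.erase i, S.l i' ^ S.tx i j i' := by
  rw [fx, div_mul_cancel₀ _ (pow_ne_zero _ S.Γ_ne), ← Finset.mul_prod_erase _ _ (Finset.mem_univ i)]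
  simp [tx, mul_assoc]

lemma val_fx {V : ValuationSubring K} (hV : ∀ c : ℂ, algebraMap ℂ K c ∈ V) {i j : Fin 4}
    (hl : V.valuation (S.l i) < 1)
    (hj : ∀ e : Fin 4 → ℕ, V.valuation (S.mo i e) = V.valuation (S.G i j) ^ e j) :
    V.valuation (S.fx i j) * V.valuation S.Γ ^ S.Bn = V.valuation (S.l i) ^ S.kx i j := by
  have := congrArg V.valuation (S.fx_eq i j)
  rw [map_mul, map_mul, map_mul, map_pow, map_pow, hj, map_prod,
    Finset.prod_eq_one (fun i' hi' => by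
      rw [map_pow, l, S.val_l_ne hV hl (Finset.ne_of_mem_erase hi'), one_pow])] at this
  simpa [ex] using this

lemma no_w_inf {V : ValuationSubring K} (hV : ∀ c : ℂ, algebraMap ℂ K c ∈ V)
    (hW : ∀ f ∈ S.W, f ∈ V) (i : Fin 4) (hy : S.y ∈ V) (hσ : S.σ ∈ V)
    (hl : V.valuation (S.l i) < 1) : S.w i ∈ V := by
  by_contra hw
  have hw1 : 1 < V.valuation (S.w i) := not_le.1 fun h => hw (vmem h)
  have hlpos : 0 < V.valuation (S.l i) := by rw [Valuation.pos_iff]; exact S.l_ne i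
  have h1 : V.valuation (S.mo i S.a) < V.valuation (S.l i) := by
    rw [l, S.l_eq', map_mul]
    exact lt_mul_of_one_lt_left (by rw [Valuation.pos_iff]; exact S.mo_ne i _) hw1
  obtain ⟨j, hj1, hj⟩ := S.exists_G hV i hσ (h1.trans hl)
  rw [hj] at h1
  have ha : S.a j ≠ 0 := Nat.one_le_iff_ne_zero.1 (S.a_pos j)
  have h2 := fun k => Nw_val hV hy hσ j ha h1.le (S.γ_NW k i)
  have h3 : V.valuation S.γt ^ S.a j < V.valuation (S.l i) ^ (S.o 0 i j + S.o 1 i j) := by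
    obtain ⟨r, hr, h⟩ := S.hγt' i
    have hM : S.o 0 i j + S.o 1 i j ≠ 0 := by have := S.ho 0 i j; omega
    have t1 : V.valuation (algebraMap ℂ K S.cδ * mon S.σ (S.g i) (S.o 0 i + S.o 1 i)) ^ S.a j <
        V.valuation (S.l i) ^ (S.o 0 i j + S.o 1 i j) := by
      rw [map_mul, v_const hV S.hcδ, one_mul, ← mo, hj, ← pow_mul, mul_comm, pow_mul]
      exact pow_lt_pow_left₀ h1 zero_le hM
    have t2 : V.valuation (ell S.y (S.yi i) * r) ^ S.a j <
        V.valuation (S.l i) ^ (S.o 0 i j + S.o 1 i j) := by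
      refine lt_of_le_of_lt (pow_le_pow_left₀ zero_le (b := V.valuation (S.l i)) ?_ _)
        (pow_lt_pow_right_of_lt_one₀ hlpos hl (S.hoa i j))
      rw [map_mul]
      exact mul_le_of_le_one_right' (vle (R2_le (C := VS V hV) hy hσ hr))
    rw [γt, h]
    refine lt_of_le_of_lt (pow_le_pow_left₀ zero_le (V.valuation.map_add _ _) _) ?_
    rcases max_choice (V.valuation (algebraMap ℂ K S.cδ * mon S.σ (S.g i) (S.o 0 i + S.o 1 i)))
      (V.valuation (ell S.y (S.yi i) * r)) with h' | h' <;> rw [h']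
    exacts [t1, t2]
  have h4 : V.valuation S.Γ ^ S.a j < V.valuation (S.l i) ^ S.M i j := by
    rw [Γ, map_mul, map_mul, mul_pow, mul_pow, M, Pi.add_apply, Pi.add_apply, Pi.add_apply,
      pow_add, pow_add _ (S.m 0 i j)]
    exact mul_lt_mul_of_le_of_lt_of_nonneg_of_pos (mul_le_mul' (h2 0) (h2 1)) h3 zero_le
      (mul_pos (pow_pos hlpos _) (pow_pos hlpos _))
  have h5 := pow_lt_pow_left₀ h4 zero_le (Nat.one_le_iff_ne_zero.1 S.Bn_pos)
  rw [← pow_mul, ← pow_mul, mul_comm (S.M i j), S.M_le, mul_comm (S.a j), pow_mul, pow_mul] at h5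
  have h6 := lt_of_pow_lt_pow_left₀ _ zero_le h5
  rw [← S.val_fx hV hl hj] at h6
  have h7 : V.valuation (S.fx i j) ≤ 1 := vle (by simpa using hW _ (S.gen_x i j one_L1))
  exact absurd h6 (not_lt.2 (mul_le_of_le_one_left' h7))

lemma chart_w {V : ValuationSubring K} (hV : ∀ c : ℂ, algebraMap ℂ K c ∈ V)
    (hW : ∀ f ∈ S.W, f ∈ V) (i : Fin 4) (hσ : S.σ ∈ V) (hl : V.valuation (S.l i) < 1)
    (hw : V.valuation (S.w i) = 1) : Good (S.v 0) (S.v 1) (IsIntegral S.Bs) V := by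
  have : CharZero K := charZero_of_injective_ringHom (algebraMap ℂ K).injective
  have hwV : S.w i ∈ V := vmem hw.le
  have hC : S.Cw i ≤ VS V hV := Algebra.adjoin_le (by rintro t (rfl | rfl); exacts [hσ, hwV])
  obtain ⟨j, hj1, hj⟩ := S.exists_G hV i hσ (by
    have := hl; rwa [l, S.l_eq', map_mul, hw, one_mul] at this)
  have hGpos : 0 < V.valuation (S.G i j) := by rw [Valuation.pos_iff]; exact S.G_ne i j
  obtain ⟨z0, hz0, e0⟩ := S.γ_div 0 i
  obtain ⟨z1, hz1, e1⟩ := S.γ_div 1 i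
  obtain ⟨z2, hz2, e2⟩ := S.γt_div i
  have c0 : S.γ 0 / S.mo i (S.m 0 i) ∈ S.Cw i := e0 ▸ add_mem (one_mem _) (mul_mem (S.w_Cw i) hz0)
  have c1 : S.γ 1 / S.mo i (S.m 1 i) ∈ S.Cw i := e1 ▸ add_mem (one_mem _) (mul_mem (S.w_Cw i) hz1)
  have c2 : S.γt / S.mo i (S.o 0 i + S.o 1 i) ∈ S.Cw i :=
    e2 ▸ add_mem (Subalgebra.algebraMap_mem _ _) (mul_mem (S.w_Cw i) hz2)
  have c3 : S.Γ / S.mo i (S.M i) ∈ S.Cw i := S.Γ_div i ▸ mul_mem (mul_mem c0 c1) c2
  have hfW : S.fx i j ∈ S.W := by simpa using S.gen_x i j one_L1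
  have h1 : V.valuation (S.fx i j * (S.Γ / S.mo i (S.M i)) ^ S.Bn) = 1 := by
    rw [map_mul, map_pow, map_div₀, div_pow, ← mul_div_assoc, S.val_fx hV hl hj, l, S.l_eq',
      map_mul, hw, one_mul, hj, hj, ← pow_mul, ← pow_mul, mul_comm (S.M i j), S.M_le, mul_comm,
      div_self (pow_pos hGpos _).ne']
  obtain ⟨h2, h3⟩ := v_of_mul (hW _ hfW) (pow_mem (hC c3) _) h1
  have h4 := v_of_pow (Nat.one_le_iff_ne_zero.1 S.Bn_pos) h3
  obtain ⟨h5, h6⟩ := v_of_mul (mul_mem (hC c0) (hC c1)) (hC c2) (S.Γ_div i ▸ h4)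
  obtain ⟨h7, h8⟩ := v_of_mul (hC c0) (hC c1) h5
  -- the units
  have cP : ∀ k, S.w i ^ S.kk k i * ∏ i' ∈ Finset.univ.erase i, ell S.y (S.yi i') ^ S.kk k i' ∈
      S.Cw i := fun k => mul_mem (pow_mem (S.w_Cw i) _)
        (Subalgebra.prod_mem _ fun i' _ => pow_mem (S.R2_Cw i (ell_R2 _)) _)
  have vP : ∀ k, V.valuation (S.w i ^ S.kk k i *
      ∏ i' ∈ Finset.univ.erase i, ell S.y (S.yi i') ^ S.kk k i') = 1 := fun k => by
    rw [map_mul, map_pow, hw, map_prod, Finset.prod_eq_one (fun i' hi' => by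
      rw [map_pow, S.val_l_ne hV hl (Finset.ne_of_mem_erase hi'), one_pow])]
    simp
  have hs0 : S.s i ≠ 0 := by
    rcases S.hs i with h | ⟨c, h, h', -⟩
    · rw [h]; exact one_ne_zero
    · have := S.G_ne i 1; rw [h] at this; rw [h']; simpa using this
  have hsC : S.s i ∈ S.Cw i := by
    rcases S.hs i with h | ⟨c, h, h', -⟩
    · rw [h]; exact one_mem _
    · rw [h']; exact sub_mem (S.σ_Cw i) (Subalgebra.algebraMap_mem _ _)
  have hq0 : S.q i ≠ 0 := fun h => S.hN0 0 (by rw [S.hb i, h, mul_zero])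
  have hb0 : S.b i ≠ 0 := fun h => S.hN0 0 (by rw [S.hb i, h, zero_mul])
  obtain ⟨b', hb'⟩ := Nat.exists_eq_succ_of_ne_zero hb0
  set x := S.s i * S.H 0 / S.mo i (S.o 0 i) with hx
  set η := x ^ S.b i / S.s i with hη
  set u := S.H 1 / S.mo i (S.o 1 i) with hu
  clear_value u η x
  have hx0 : x ≠ 0 := hx ▸ div_ne_zero (mul_ne_zero hs0 (S.H_ne 0)) (S.mo_ne i _)
  have hxb : x ^ S.b i = η * S.s i := by rw [hη, div_mul_cancel₀ _ hs0]
  have hHk : ∀ k, S.H k ^ S.N k * S.mo i S.a ^ S.kk k i * (S.w i ^ S.kk k i *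
      ∏ i' ∈ Finset.univ.erase i, ell S.y (S.yi i') ^ S.kk k i') = S.γ k := fun k => by
    rw [← S.hH, ← Finset.mul_prod_erase _ _ (Finset.mem_univ i), S.l_eq', mul_pow]; ring
  have eη : η ^ S.q i = S.γ 0 / S.mo i (S.m 0 i) / (S.w i ^ S.kk 0 i *
      ∏ i' ∈ Finset.univ.erase i, ell S.y (S.yi i') ^ S.kk 0 i') := by
    have t1 := S.hm0 i
    rw [← mo, ← mo, ← mo] at t1
    have t2 := S.mo_ne i (S.m 0 i)
    have t3 := S.mo_ne i (S.o 0 i)
    rw [eq_div_iff (v_ne (vP 0)), eq_div_iff t2, ← hHk 0, hη, div_pow, ← pow_mul, ← S.hb, hx,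
      div_pow, mul_pow]
    have t4 : S.s i ^ S.N 0 = S.s i ^ S.p i * S.s i ^ S.q i := by rw [← pow_add, ← S.hp]
    rw [t4]
    field_simp
    linear_combination (S.H 0 ^ S.N 0 * S.w i ^ S.kk 0 i *
      ∏ i' ∈ Finset.univ.erase i, ell S.y (S.yi i') ^ S.kk 0 i') * t1
  have eu : u ^ S.N 1 = S.γ 1 / S.mo i (S.m 1 i) / (S.w i ^ S.kk 1 i *
      ∏ i' ∈ Finset.univ.erase i, ell S.y (S.yi i') ^ S.kk 1 i') := by
    have t1 := S.hm1 i
    rw [← mo, ← mo, ← mo] at t1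
    have t2 := S.mo_ne i (S.m 1 i)
    have t3 := S.mo_ne i (S.o 1 i)
    rw [eq_div_iff (v_ne (vP 1)), eq_div_iff t2, ← hHk 1, hu, div_pow, t1]
    field_simp
  have vη' : V.valuation (η ^ S.q i) = 1 := by rw [eη, map_div₀, h7, vP, div_one]
  have vu' : V.valuation (u ^ S.N 1) = 1 := by rw [eu, map_div₀, h8, vP, div_one]
  have vη := v_of_pow hq0 vη'
  have vu := v_of_pow (S.hN0 1) vu'
  have hxV : x ∈ V := mem_of_pow_mem hb0 (hxb ▸ mul_mem (vmem vη.le) (hC hsC))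
  have hO : ∀ k, S.Cw i ≤ Om V hV (S.Dt k i) := fun k => by
    refine Om.of_adjoin _ (by simp) (by rintro t (rfl | rfl); exacts [hσ, hwV]) ?_
    rintro t (rfl | rfl)
    · obtain ⟨r, hr, h⟩ := S.Dt_σ k i
      rw [h]
      exact add_mem (S.R2_Cw i (S.hA k i)) (mul_mem (mul_mem (S.w_Cw i) (S.mo_Cw i _)) hr)
    · exact S.Dt_w k i
  have hη' : ∀ k, η ∈ Om V hV (S.Dt k i) := fun k =>
    Om.root_unit hq0 (eη ▸ Om.div (hO k c0) (hO k (cP 0)) (vP 0)) vη'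
  have hu' : ∀ k, u ∈ Om V hV (S.Dt k i) := fun k =>
    Om.root_unit (S.hN0 1) (eu ▸ Om.div (hO k c1) (hO k (cP 1)) (vP 1)) vu'
  have fin : ∀ D' : Derivation ℂ K K, S.Cw i ≤ Om V hV D' → x ∈ Om V hV D' → u ∈ Om V hV D' →
      ∀ a, IsIntegral S.Bs a → D' a ∈ V := by
    intro D' g1 g2 g3
    refine S.seidW (hV := hV) (mem_Frac (g1 (S.y_Cw i))) (mem_Frac (g1 (S.σ_Cw i))) ?_ ?_
    · rw [Fin.forall_fin_two]
      constructor
      · have := div_mem (mul_mem (mem_Frac g2) (mem_Frac (g1 (S.mo_Cw i (S.o 0 i)))))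
          (mem_Frac (g1 hsC))
        rwa [hx, div_mul_cancel₀ _ (S.mo_ne i _), mul_div_cancel_left₀ _ hs0] at this
      · have := mul_mem (mem_Frac g3) (mem_Frac (g1 (S.mo_Cw i (S.o 1 i))))
        rwa [hu, div_mul_cancel₀ _ (S.mo_ne i _)] at this
    · intro f hf
      obtain ⟨b, z, hz, rfl⟩ := S.W_div i hf
      exact Om.div (g1 (mul_mem (S.w_Cw i) hz)) (pow_mem (g1 c3) _) (by rw [map_pow, h4, one_pow])
  have hv1 : ∀ z, S.v 1 z = u⁻¹ * S.Dt 1 i z := fun z => by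
    have := S.mo_ne i (S.o 1 i)
    simp only [v, Dt, hu, Derivation.coe_smul, Pi.smul_apply, smul_eq_mul]
    field_simp
  have hη0 := v_ne vη
  have hsx : S.s i = x ^ b' * η⁻¹ * x := by
    rw [hb', pow_succ] at hxb
    field_simp
    linear_combination -hxb
  have hv0 : ∀ z, S.v 0 z = x ^ b' * η⁻¹ * S.Dt 0 i z := fun z => by
    have := S.mo_ne i (S.o 0 i)
    have := S.H_ne 0
    rw [← mul_div_cancel_right₀ (x ^ b' * η⁻¹) hx0, ← hsx]
    simp only [v, Dt, hx, Derivation.coe_smul, Pi.smul_apply, smul_eq_mul]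
    field_simp
  have hbK : ((b' : K) + 1) ≠ 0 := Nat.cast_add_one_ne_zero b'
  have hDx : ∀ D' : Derivation ℂ K K, ((b' : K) + 1) * x ^ b' * D' x = D' (η * S.s i) := by
    intro D'
    rw [← hxb, hb', Derivation.leibniz_pow]
    simp [mul_assoc]
  have hv0x : S.v 0 x = ((b' : K) + 1)⁻¹ * (η⁻¹ * S.Dt 0 i (η * S.s i)) := by
    have := hDx (S.v 0)
    rw [hv0 (η * S.s i)] at this
    have h' : x ^ b' ≠ 0 := pow_ne_zero _ hx0
    field_simp
    field_simp at this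
    linear_combination this
  have hbO : ∀ D' : Derivation ℂ K K, ((b' : K) + 1)⁻¹ ∈ Om V hV D' := fun D' => by
    have := (Om V hV D').algebraMap_mem ((b' : ℂ) + 1)⁻¹
    simpa using this
  have hηi : ∀ k, η⁻¹ ∈ Om V hV (S.Dt k i) := fun k => Om.inv (hη' k) (v_inv_mem vη)
  have main : ∀ a, IsIntegral S.Bs a → S.v 0 a ∈ V ∧ S.v 1 a ∈ V := by
    intro a ha
    constructor
    · obtain ⟨g1, g2⟩ := Om.adj_gen (hV := hV) (D := S.Dt 0 i) (D' := S.v 0) x η⁻¹ _ 0 b' hxV hv0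
        (hηi 0) (mul_mem (hbO _) (mul_mem (hηi 0) (Om.der (mul_mem (hη' 0) (hO 0 hsC)))))
        (zero_mem _) 0 (by rw [hv0x]; simp)
      exact fin _ ((hO 0).trans g2) g1 (g2 (hu' 0)) a ha
    · rw [hv1]
      refine mul_mem (v_inv_mem vu) (fin _ (hO 1) ?_ (hu' 1) a ha)
      refine Om.root' hb0 (pow_mem hxV _) hx0 ?_
      rw [hxb]
      refine (Om.logD (hη' 1) vη).mul ?_
      rcases S.hs i with h | ⟨c, h, h', -, z, hz, h''⟩
      · rw [h]; exact LogD.one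
      · obtain ⟨r, hr, e⟩ := S.Dt_σ 1 i
        have hG : S.G i 1 = S.s i := by rw [G, h, h']; simp
        refine ⟨z + S.w i * S.mo i (S.a - S.o 1 i - Pi.single 1 1) * r,
          hO 1 (add_mem (S.R2_Cw i hz) (mul_mem (mul_mem (S.w_Cw i) (S.mo_Cw i _)) hr)), ?_⟩
        rw [S.mo_sub_single i 1 (by have := S.o_lt 1 i 1; simp; omega), hG]
        have : S.Dt 1 i (S.s i) = S.Dt 1 i S.σ := by rw [h']; simp
        rw [this, e, h'']
        field_simp
  have lσ : S.σ ∈ Loc V S.Bs := ⟨_, S.W_int hfW, h2, S.W_int (S.gen_x i j s_L1)⟩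
  have lw : S.w i ∈ Loc V S.Bs := by
    have : (S.w i)⁻¹ ∈ Loc V S.Bs := ⟨_, S.W_int hfW, h2, S.W_int (S.gen_w i j)⟩
    simpa using Loc.inv this (by simp [hw])
  have hLC : S.Cw i ≤ Loc V S.Bs := Algebra.adjoin_le (by rintro t (rfl | rfl); exacts [lσ, lw])
  have hJ : br (S.Dt 0 i) (S.Dt 1 i) S.σ (S.w i) =
      -(S.w i * S.Fo i * (S.γt / S.mo i (S.o 0 i + S.o 1 i))) := by
    have := S.mo_ne i (S.o 0 i)
    have := S.mo_ne i (S.o 1 i)
    simp only [br, Dt, Derivation.coe_smul, Pi.smul_apply, smul_eq_mul, S.D_w, mo_add, γt, S.hDσ]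
    field_simp
    ring
  have vJ : V.valuation (br (S.Dt 0 i) (S.Dt 1 i) S.σ (S.w i)) = 1 := by
    rw [hJ, Valuation.map_neg, map_mul, map_mul, hw, h6, Fo, map_prod, Finset.prod_eq_one
      (fun i' hi' => S.val_l_ne hV hl (Finset.ne_of_mem_erase hi'))]
    simp
  have hbr : ∀ z z', br (S.v 0) (S.v 1) z z' =
      x ^ b' * η⁻¹ * u⁻¹ * br (S.Dt 0 i) (S.Dt 1 i) z z' := fun z z' => by
    simp only [br, hv0, hv1]; ring
  rcases (vle (hC hsC)).eq_or_lt with hsv | hsv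
  · refine good_of_loc (adjoin_sub_val V hV _ hW) main lσ lw ?_
    have : V.valuation x = 1 := v_of_pow hb0 (by rw [hxb, map_mul, vη, hsv, one_mul])
    rw [hbr]
    simp [this, vη, vu, vJ]
  · rcases S.hs i with h | ⟨c, h, h', ho1, -⟩
    · rw [h] at hsv; simp at hsv
    have hG : S.G i 1 = S.s i := by rw [G, h, h']; simp
    have hj' : j = 1 := by
      by_contra hne
      have := hj (Pi.single 1 1)
      rw [mo_single, hG, Pi.single_eq_of_ne hne, pow_zero] at this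
      exact absurd this hsv.ne
    subst hj'
    have lH : S.H 0 ∈ Loc V S.Bs := ⟨_, S.W_int hfW, h2,
      IsIntegral.of_pow (Nat.pos_of_ne_zero (S.hN0 0)) (S.W_int (S.gen_θ i 1))⟩
    have lx : x ∈ Loc V S.Bs := by
      have := mul_mem lH (Loc.inv (hLC (S.mo_Cw i (S.o 0 i - Pi.single 1 1))) (by
        rw [hj]; simp [ho1]))
      convert this using 1
      rw [S.mo_sub_single i 1 ho1.ge, hG, hx]
      field_simp
    refine good_of_loc (adjoin_sub_val V hV _ hW) main lx lw ?_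
    have hDs : ∀ k, S.Dt k i (S.s i) = S.Dt k i S.σ := fun k => by rw [h']; simp
    have e : ((b' : K) + 1) * br (S.v 0) (S.v 1) x (S.w i) = u⁻¹ * (br (S.Dt 0 i) (S.Dt 1 i) S.σ (S.w i)
        + S.s i * (η⁻¹ * br (S.Dt 0 i) (S.Dt 1 i) η (S.w i))) := by
      have t0 := hDx (S.Dt 0 i)
      have t1 := hDx (S.Dt 1 i)
      rw [Derivation.leibniz, hDs, smul_eq_mul, smul_eq_mul] at t0 t1
      rw [hbr]
      simp only [br]
      have t2 : η * η⁻¹ = 1 := mul_inv_cancel₀ hη0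
      linear_combination u⁻¹ * η⁻¹ * S.Dt 1 i (S.w i) * t0 - u⁻¹ * η⁻¹ * S.Dt 0 i (S.w i) * t1 +
        u⁻¹ * (S.Dt 0 i S.σ * S.Dt 1 i (S.w i) - S.Dt 1 i S.σ * S.Dt 0 i (S.w i)) * t2
    have e' := congrArg V.valuation e
    have vb : V.valuation ((b' : K) + 1) = 1 := by
      have := v_const hV (Nat.cast_add_one_ne_zero b' : (b' : ℂ) + 1 ≠ 0)
      simpa using this
    have hbV : br (S.Dt 0 i) (S.Dt 1 i) η (S.w i) ∈ V := sub_mem
        (mul_mem (Om.mem_val (Om.der (hη' 0))) (hC (S.Dt_w 1 i)))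
        (mul_mem (Om.mem_val (Om.der (hη' 1))) (hC (S.Dt_w 0 i)))
    rw [map_mul, vb, one_mul, map_mul, map_inv₀, vu, inv_one, one_mul, v_one_add vJ
      (vlt_mul hsv (mul_mem (v_inv_mem vη) hbV))] at e'
    exact e'

lemma good {V : ValuationSubring K} (hV : ∀ c : ℂ, algebraMap ℂ K c ∈ V)
    (hW : ∀ f ∈ S.W, f ∈ V) (hf : ∃ f ∈ S.W, V.valuation f = 1) :
    Good (S.v 0) (S.v 1) (IsIntegral S.Bs) V := by
  obtain ⟨f, hf1, hf2⟩ := hf
  have hσpos : 0 < V.valuation S.σ := by rw [Valuation.pos_iff]; exact S.hσ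
  by_cases hO : V.valuation S.σ⁻¹ < 1 ∧ V.valuation (S.y / S.σ) < 1
  · exact absurd hf2 ((S.val_O hV hO.1 hO.2).2.2 f hf1).ne
  rw [map_inv₀, map_div₀, inv_lt_one₀ hσpos, div_lt_one₀ hσpos, not_and_or, not_lt, not_lt] at hO
  rcases le_or_gt (V.valuation S.y) 1 with hy | hy
  · have hσ : S.σ ∈ V := vmem (hO.elim id fun h => h.trans hy)
    by_cases hl : ∀ i, V.valuation (S.l i) = 1
    · exact S.chart_one hV hW (vmem hy) hσ hl
    push Not at hl
    obtain ⟨i, hi⟩ := hl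
    have hl : V.valuation (S.l i) < 1 := lt_of_le_of_ne (vle (sub_mem (vmem hy) (hV _))) hi
    rcases (vle (S.no_w_inf hV hW i (vmem hy) hσ hl)).eq_or_lt with hw | hw
    · exact S.chart_w hV hW i hσ hl hw
    · exact absurd hf2 (S.val_w hV i hσ hw f hf1).ne
  · have hypos : 0 < V.valuation S.y := zero_lt_one.trans hy
    refine S.chart_y hV hW (by rwa [Valuation.pos_iff] at hypos)
      (by rwa [map_inv₀, inv_lt_one₀ hypos]) (vmem ?_)
    rw [map_div₀, div_le_one₀ hypos]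
    exact hO.elim (fun h => h.trans hy.le) id

include S in
theorem target : Target := by
  have hf0 : (1 : K) * 1 ^ (S.Bn * S.Δ - 1 - ∑ i, S.KK i) * (∏ i, S.l i ^ S.KK i) / S.Γ ^ S.Bn ≠ 0 := by
    rw [one_pow, one_mul, one_mul]
    exact div_ne_zero (Finset.prod_ne_zero_iff.2 fun i _ => pow_ne_zero _ (S.l_ne i))
      (pow_ne_zero _ S.Γ_ne)
  have halg : ∀ φ ∈ L1 S.y S.σ, IsAlgebraic S.Bs φ := fun φ hφ => by
    have h1 := (S.W_int (S.gen_l hφ one_L1)).isAlgebraic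
    have h2 := (S.W_int (S.gen_l one_L1 one_L1)).isAlgebraic
    have h3 := h1.mul h2.inv
    rwa [show ∀ A B C : K, φ * A * B / C = φ * (1 * A * B / C) from fun _ _ _ => by ring,
      mul_inv_cancel_right₀ hf0] at h3
  have hR : ∀ z ∈ R2 S.y S.σ, IsAlgebraic S.Bs z := by
    intro z hz
    induction hz using Algebra.adjoin_induction with
    | mem x hx => rcases hx with rfl | rfl; exacts [halg _ y_L1, halg _ s_L1]
    | algebraMap c => exact isAlgebraic_algebraMap (algebraMap ℂ S.Bs c)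
    | add x y _ _ hx hy => exact hx.add hy
    | mul x y _ _ hx hy => exact hx.mul hy
  have hH : ∀ k, IsAlgebraic S.Bs (S.H k) := fun k => by
    refine IsAlgebraic.of_pow (Nat.pos_of_ne_zero (S.hN0 k)) ?_
    have h1 := (hR _ (Lp_R2 (S.γ_Lp k))).mul (hR _ (Subalgebra.prod_mem (R2 S.y S.σ)
      (t := Finset.univ) fun i _ => pow_mem (ell_R2 (S.yi i)) (S.kk k i))).inv
    rwa [← S.hH, mul_inv_cancel_right₀
      (Finset.prod_ne_zero_iff.2 fun i _ => pow_ne_zero _ (S.hell i))] at h1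
  refine abs1 (S.v 0) (S.v 1) S.W S.Bs_fg S.htr (fun V h1 h2 h3 => S.good h1 h2 h3)
    {S.y, S.σ, S.H 0, S.H 1} (by simp) ?_ S.hK S.V₀ S.hV₀ S.val_V₀.2.2
    fun a ha => ⟨S.bad 0 a ha, S.bad 1 a ha⟩
  rintro z (rfl | rfl | rfl | rfl)
  exacts [halg _ y_L1, halg _ s_L1, hH 0, hH 1]

end Setup

end Crest.Agent.R278
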