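import Crest.Agent.R278.Setup

/-!
The function field of the construction.
-/

set_option autoImplicit false
set_option linter.unusedSectionVars false

namespace Crest.Agent.R278

abbrev K0 := FractionRing P2

noncomputable def y0 : K0 := algebraMap P2 K0 (MvPolynomial.X 0)
noncomputable def s0 : K0 := (algebraMap P2 K0 (MvPolynomial.X 1))⁻¹

lemma field_props (K : Type) [Field K] [Algebra ℂ K] [Algebra K0 K] [IsScalarTower ℂ K0 K]
    [Algebra.IsAlgebraic K0 K] :
    Algebra.trdeg ℂ K = 2 ∧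
    (∀ a b : K, ∃ D : Derivation ℂ K K, D (algebraMap K0 K y0) = a ∧ D (algebraMap K0 K s0) = b) ∧
    (∃ V : ValuationSubring K, (∀ c : ℂ, algebraMap ℂ K c ∈ V) ∧ algebraMap K0 K y0 ∈ V ∧
      V.valuation (algebraMap K0 K s0)⁻¹ < 1) ∧
    (∀ T : IntermediateField ℂ K, algebraMap K0 K y0 ∈ T → algebraMap K0 K s0 ∈ T →
      ∀ z, algebraMap K0 K z ∈ T) := by
  let : Algebra P2 K := ((algebraMap K0 K).comp (algebraMap P2 K0)).toAlgebra
  have : IsScalarTower P2 K0 K := IsScalarTower.of_algebraMap_eq fun _ => rfl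
  have : IsScalarTower ℂ P2 K := IsScalarTower.of_algebraMap_eq fun c => by
    rw [IsScalarTower.algebraMap_apply P2 K0 K, ← IsScalarTower.algebraMap_apply ℂ P2 K0,
      ← IsScalarTower.algebraMap_apply]
  have hinj : Function.Injective (algebraMap P2 K) :=
    (algebraMap K0 K).injective.comp (IsFractionRing.injective P2 K0)
  have : FaithfulSMul P2 K := (faithfulSMul_iff_algebraMap_injective _ _).2 hinj
  have hy : algebraMap K0 K y0 = algebraMap P2 K (MvPolynomial.X 0) := rfl
  have hs : algebraMap K0 K s0 = (algebraMap P2 K (MvPolynomial.X 1))⁻¹ := by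
    rw [s0, map_inv₀]; rfl
  have hτ : algebraMap P2 K (MvPolynomial.X 1) ≠ 0 := by
    rw [map_ne_zero_iff _ hinj]; exact MvPolynomial.X_ne_zero 1
  rw [hy, hs, inv_inv]
  refine ⟨?_, fun a b => ?_, ?_, fun T h1 h2 z => ?_⟩
  · have : Algebra.IsAlgebraic P2 K0 := IsLocalization.isAlgebraic K0 (nonZeroDivisors P2)
    have : Algebra.IsAlgebraic P2 K := Algebra.IsAlgebraic.trans P2 K0 K
    have h1 := trdeg_add_eq ℂ P2 (A := K)
    rw [trdeg_eq_zero (R := P2), add_zero, MvPolynomial.trdeg_of_isDomain] at h1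
    rw [← h1]; simp
  · have : CharZero K0 := charZero_of_injective_ringHom (algebraMap ℂ K0).injective
    have : Algebra.FormallyEtale P2 K0 := Algebra.FormallyEtale.of_isLocalization (nonZeroDivisors P2)
    have : Algebra.FormallyEtale K0 K := Algebra.FormallyEtale.of_isSeparable K0 K
    have : Algebra.FormallyEtale P2 K := Algebra.FormallyEtale.comp P2 K0 K
    have hb := KaehlerDifferential.isBaseChange_of_formallyEtale ℂ P2 K
    let d₀ : Derivation ℂ P2 K :=
      MvPolynomial.mkDerivation ℂ ![a, -(algebraMap P2 K (MvPolynomial.X 1)) ^ 2 * b]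
    let D : Derivation ℂ K K := (hb.lift d₀.liftKaehlerDifferential).compDer (KaehlerDifferential.D ℂ K)
    have hD : ∀ p : P2, D (algebraMap P2 K p) = d₀ p := fun p => by
      change hb.lift d₀.liftKaehlerDifferential (KaehlerDifferential.D ℂ K (algebraMap P2 K p)) = _
      rw [← KaehlerDifferential.map_D ℂ ℂ P2 K, IsBaseChange.lift_eq,
        Derivation.liftKaehlerDifferential_comp_D]
    refine ⟨D, by simp [hD, d₀], ?_⟩
    rw [Derivation.leibniz_inv, hD]
    simp only [d₀, MvPolynomial.mkDerivation_X, Matrix.cons_val_one, Matrix.cons_val_zero,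
      smul_eq_mul]
    field_simp
  · have hne : Ideal.span {(⟨_, ⟨MvPolynomial.X 1, rfl⟩⟩ : (algebraMap P2 K).range)} ≠ ⊤ := by
      intro h
      rw [Ideal.span_singleton_eq_top, isUnit_iff_exists_inv] at h
      obtain ⟨⟨_, p, rfl⟩, h⟩ := h
      have h' : algebraMap P2 K (MvPolynomial.X 1) * algebraMap P2 K p = 1 := congrArg Subtype.val h
      rw [← map_mul, ← map_one (algebraMap P2 K)] at h'
      simpa using congrArg MvPolynomial.constantCoeff (hinj h')
    obtain ⟨V, hV1, hV2⟩ := Ideal.image_subset_nonunits_valuationSubring _ hne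
    refine ⟨V, fun c => ?_, hV1 ⟨_, rfl⟩,
      (V.mem_nonunits_iff).1 (hV2 ⟨_, Ideal.subset_span rfl, rfl⟩)⟩
    rw [IsScalarTower.algebraMap_apply ℂ P2 K]; exact hV1 ⟨_, rfl⟩
  · have h3 : ∀ p : P2, algebraMap P2 K p ∈ T := by
      intro p
      induction p using MvPolynomial.induction_on with
      | C c => rw [← MvPolynomial.algebraMap_eq, ← IsScalarTower.algebraMap_apply]; simp
      | add p q hp hq => rw [map_add]; exact add_mem hp hq
      | mul_X p i hp =>
        rw [map_mul]
        refine mul_mem hp ?_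
        fin_cases i
        · exact h1
        · simpa using inv_mem h2
    obtain ⟨p, q, -, rfl⟩ := IsFractionRing.div_surjective (A := P2) z
    rw [map_div₀]
    exact div_mem (h3 p) (h3 q)

theorem exists_field (N : Fin 2 → ℕ) (hN : ∀ k, N k ≠ 0) (c : Fin 2 → K0) :
    ∃ (K : Type) (_ : Field K) (_ : Algebra ℂ K) (φ : K0 →ₐ[ℂ] K) (H : Fin 2 → K),
    (∀ k, H k ^ N k = φ (c k)) ∧ IntermediateField.adjoin ℂ {φ y0, φ s0, H 0, H 1} = ⊤ ∧
    Algebra.trdeg ℂ K = 2 ∧
    (∀ a b : K, ∃ D : Derivation ℂ K K, D (φ y0) = a ∧ D (φ s0) = b) ∧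
    (∃ V : ValuationSubring K, (∀ c : ℂ, algebraMap ℂ K c ∈ V) ∧ φ y0 ∈ V ∧
      V.valuation (φ s0)⁻¹ < 1) := by
  let Ω := AlgebraicClosure K0
  choose H hH using fun k => IsAlgClosed.exists_pow_nat_eq (algebraMap K0 Ω (c k))
    (Nat.pos_of_ne_zero (hN k))
  let K := IntermediateField.adjoin K0 {H 0, H 1}
  have hHK : ∀ k, H k ∈ K := by
    rw [Fin.forall_fin_two]
    exact ⟨IntermediateField.subset_adjoin _ _ (by simp), IntermediateField.subset_adjoin _ _ (by simp)⟩
  obtain ⟨h1, h2, h3, h4⟩ := field_props K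
  refine ⟨K, inferInstance, inferInstance, IsScalarTower.toAlgHom ℂ K0 K, fun k => ⟨H k, hHK k⟩,
    fun k => Subtype.ext (hH k), ?_, h1, h2, h3⟩
  rw [eq_top_iff]
  rintro ⟨x, hx⟩ -
  induction hx using IntermediateField.adjoin_induction with
  | mem x hx =>
    rcases hx with rfl | rfl
    · exact IntermediateField.subset_adjoin _ _ (by simp)
    · exact IntermediateField.subset_adjoin _ _ (by simp)
  | algebraMap z =>
    exact h4 _ (IntermediateField.subset_adjoin _ _ (by simp))
      (IntermediateField.subset_adjoin _ _ (by simp)) z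
  | add x y _ _ hx hy => exact add_mem hx hy
  | inv x _ hx => exact inv_mem hx
  | mul x y _ _ hx hy => exact mul_mem hx hy

lemma s0_ne : s0 ≠ 0 := by
  refine inv_ne_zero ?_
  rw [map_ne_zero_iff _ (IsFractionRing.injective P2 K0)]
  exact MvPolynomial.X_ne_zero 1

lemma ell0_ne (c : ℂ) : ell y0 c ≠ 0 := by
  rw [ell, y0, IsScalarTower.algebraMap_apply ℂ P2 K0, ← map_sub,
    map_ne_zero_iff _ (IsFractionRing.injective P2 K0)]
  intro h
  simpa using congrArg (MvPolynomial.eval fun _ => c + 1) h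

end Crest.Agent.R278
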