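import Crest.Agent.R278.Chart2
import Crest.Agent.R278.Fld
import Crest.Agent.R278.Data

/-!
Assembly of the counterexample.
-/

set_option autoImplicit false
set_option linter.unusedSectionVars false

namespace Crest.Agent.R278

open Polynomial

section
variable {E : Type} [Field E] [Algebra ℂ E] {y σ : E}

lemma prod_red (c : ℂ) {ι : Type} (s : Finset ι) (f : ι → ℂ) :
    ∃ r ∈ R2 y σ, ∏ j ∈ s, ell y (f j) = algebraMap ℂ E (∏ j ∈ s, (c - f j)) + ell y c * r := by
  obtain ⟨r, hr, h⟩ := aeval_y_red (y := y) (σ := σ) c (∏ j ∈ s, (X - C (f j)))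
  refine ⟨r, hr, ?_⟩
  simpa [ell, eval_prod] using h

lemma exists_BP (y σ : E) (t : Fin 6 → ℚ) (e : ℕ) (L : Fin 4 → List ℚ)
    (hL : ∀ i, (L i).length ≤ e + 1) :
    ∃ P : E, P - algebraMap ℂ E (t 0) * σ ^ (e + 3) ∈ Lz y σ (e + 2) ∧
      ∀ i, ∃ r ∈ R2 y σ, P = topv σ t e i + pol σ (L i) + ell y (yC i) * r :=
  interp yC_inj e _ (t 1) (t 2) (t 3) (t 4) (t 5) _ fun i => by
    simpa [topv] using pol_Lp y σ (L i) e (hL i)

lemma top_Lp {P : E} {c : ℂ} {e : ℕ} (h : P - algebraMap ℂ E c * σ ^ (e + 1) ∈ Lz y σ e) :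
    P ∈ Lp y σ (e + 1) := by
  simpa using add_mem (Lz_le h) (c_mul_Lp c (s_pow_Lp le_rfl))

end

theorem target : Target := by
  choose γ hγ hγN using exists_gamma y0 s0
  have hN0 : ∀ k, NN k ≠ 0 := by decide
  obtain ⟨K, _, _, φ, H, hH, hK, htr, hD, V₀, hV1, hV2, hV3⟩ :=
    exists_field NN hN0 fun k => γ k / ∏ i, ell y0 (yC i) ^ kkN k i
  have : CharZero K := charZero_of_injective_ringHom (algebraMap ℂ K).injective
  set y := φ y0 with hy
  set σ := φ s0 with hσ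
  choose B hB hB' using fun k => exists_BP y σ (Bt k) 3 (Br k) (by revert k; decide)
  choose P hP hP' using fun k => exists_BP y σ (Pt k) 6 (Pr k) (by revert k; decide)
  choose D hD1 hD2 using fun k => hD ((∏ i, ell y (yC i)) * B k) (-P k + σ * y ^ 3 * B k)
  have hBL : ∀ k, B k ∈ Lp y σ 6 := fun k => top_Lp (hB k)
  have hPL : ∀ k, P k ∈ Lp y σ 9 := fun k => top_Lp (hP k)
  have hell : ∀ i, ell y (yC i) ≠ 0 := fun i => by
    rw [hy, ← map_ell]; exact (map_ne_zero φ).2 (ell0_ne _)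
  have hpol : ∀ l, pol σ l ∈ R2 y σ := fun l => Lp_R2 (pol_Lp y σ l l.length (by omega))
  have hBi : ∀ k i, Bi σ k i ∈ R2 y σ := fun k i => by
    obtain ⟨r, hr, h⟩ := hB' k i
    rw [Bi, ← sub_eq_iff_eq_add.2 h]
    exact sub_mem (Lp_R2 (hBL k)) (mul_mem (ell_R2 _) hr)
  have hPi : ∀ k i, Pi' σ k i ∈ R2 y σ := fun k i => by
    obtain ⟨r, hr, h⟩ := hP' k i
    rw [Pi', ← sub_eq_iff_eq_add.2 h]
    exact sub_mem (Lp_R2 (hPL k)) (mul_mem (ell_R2 _) hr)
  have hyq : ∀ i, algebraMap ℂ K (yC i) = (yq i : K) := fun i => by simp [yC]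
  refine Setup.target (K := K)
    { y := y, σ := σ, yi := yC, g := gP, n := nN, a := aN, o := oN, m := mN, N := NN, kk := kkN
      δ := fun k => eN k + 2, D := D, P := P, B := B, A := fun k i => pol σ (Ac k i)
      γ := fun k => φ (γ k), H := H, s := fun i => mon σ (gP i) (epsN i), p := pN, q := qN, b := bN
      cδ := dq, Bn := 60, KK := KKN, kx := kxN, V₀ := V₀
      hyi := yC_inj, hmon := gP_monic, hdeg := gP_deg, hcop := gP_cop
      ho := by decide
      hoa := by decide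
      hDy := hD1, hDσ := hD2, hP := hPL, hB := hBL
      hA := fun k i => hpol _
      hQ := ?_, hN := ?_, hs := ?_
      hb := by decide
      hp := by decide
      hm0 := ?_, hm1 := ?_
      hmk := by decide
      hγ := fun k => by simpa using map_Lz φ (hγ k)
      hγN := fun k i => by simpa [map_mon] using map_Nw φ (hγN k i)
      hH := ?_
      hN0 := hN0
      hδ := by decide
      hkk := by decide
      hkN := by decide
      hcδ := by norm_num [dq]
      hγt := ?_, hγt' := ?_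
      hK := hK, htr := htr, hV₀ := hV1, hV₀y := hV2, hV₀σ := hV3
      hσ := (map_ne_zero φ).2 s0_ne
      hell := hell
      hkx := by decide
      hkx2 := by decide
      hKK := by decide
      hdeg1 := by decide
      hdeg2 := by decide }
  · intro k i
    obtain ⟨r, hr, h⟩ := hB' k i
    obtain ⟨r', hr', h'⟩ := hP' k i
    refine ⟨-r' + σ * y ^ 3 * r + σ * (y ^ 2 + y * (yq i : K) + (yq i : K) ^ 2) * Bi σ k i, ?_, ?_⟩
    · have h1 : (yq i : K) ∈ R2 y σ := hyq i ▸ Subalgebra.algebraMap_mem _ _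
      exact add_mem (add_mem (neg_mem hr') (mul_mem (mul_mem s_R2 (pow_mem y_R2 _)) hr))
        (mul_mem (mul_mem s_R2 (add_mem (add_mem (pow_mem y_R2 _) (mul_mem y_R2 h1))
          (pow_mem h1 _))) (hBi k i))
    · rw [hD2, ← ident2, h, h', ← Bi, ← Pi', ell, hyq]; ring
  · intro k i
    obtain ⟨r, hr, h⟩ := hB' k i
    obtain ⟨r', hr', h'⟩ := prod_red (y := y) (σ := σ) (yC i) (Finset.univ.erase i) yC
    have h1 : algebraMap ℂ K (∏ j ∈ Finset.univ.erase i, (yC i - yC j)) = (Fq i : K) := by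
      rw [← Fq_eq]; simp [yC]
    have h2 : (Fq i : K) ∈ R2 y σ := h1 ▸ Subalgebra.algebraMap_mem _ _
    refine ⟨pol σ (Nc k i), hpol _, r' * B k + (Fq i : K) * r,
      add_mem (mul_mem hr' (Lp_R2 (hBL k))) (mul_mem h2 hr), ?_⟩
    rw [← ident1, h', h1, Bi]
    linear_combination (Fq i : K) * h
  · intro i
    have key : ∀ i, (i = 0 ∨ i = 1) → ∃ c : ℂ, gP i 1 = X - C c ∧
        mon σ (gP i) (epsN i) = σ - algebraMap ℂ K c ∧ oN 0 i 1 = 1 ∧
        ∃ z ∈ R2 y σ, pol σ (Ac 1 i) = mon σ (gP i) (epsN i) * z := by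
      intro i hi
      have h1 : mon σ (gP i) (epsN i) = σ - (Sq i : K) := by
        rw [mon_eq]; rcases hi with rfl | rfl <;> simp [epsN]
      refine ⟨Sq i, rfl, by simpa using h1, by rcases hi with rfl | rfl <;> rfl, _, hpol (Zc i), ?_⟩
      rw [h1, ident4 σ i hi]
    fin_cases i
    · exact Or.inr (key _ (Or.inl rfl))
    · exact Or.inr (key _ (Or.inr rfl))
    · left; rw [mon_eq]; simp [epsN]
    · left; rw [mon_eq]; simp [epsN]
  · intro i
    rw [← mon_smul, ← mon_smul, ← mon_smul, ← mon_add, ← mon_add]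
    congr 1
    revert i; decide
  · intro i
    rw [← mon_smul, ← mon_smul, ← mon_add]
    congr 1
    revert i; decide
  · intro k
    rw [hH, map_div₀, map_prod]
    simp only [map_pow, map_ell]
    exact div_mul_cancel₀ _ (Finset.prod_ne_zero_iff.2 fun i _ => pow_ne_zero _ (hell i))
  · have h1 := Lz_mul (hB 1) (hPL 0)
    have h2 := Lz_mul (hB 0) (hPL 1)
    have h3 := Lz_mul (hP 0) (c_mul_Lp (Bt 1 0) (s_pow_Lp (le_refl 6)))
    have h4 := Lz_mul (hP 1) (c_mul_Lp (Bt 0 0) (s_pow_Lp (le_refl 6)))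
    norm_num only at h1 h2 h3 h4
    convert sub_mem (add_mem h1 h3) (add_mem h2 h4) using 1
    simp [Bt, Pt, dq]
    ring
  · intro i
    obtain ⟨r0, hr0, h0⟩ := hB' 0 i
    obtain ⟨r1, hr1, h1⟩ := hB' 1 i
    obtain ⟨s0, hs0, k0⟩ := hP' 0 i
    obtain ⟨s1, hs1, k1⟩ := hP' 1 i
    refine ⟨r1 * P 0 + Bi σ 1 i * s0 - (r0 * P 1 + Bi σ 0 i * s1), sub_mem
      (add_mem (mul_mem hr1 (Lp_R2 (hPL 0))) (mul_mem (hBi 1 i) hs0))
      (add_mem (mul_mem hr0 (Lp_R2 (hPL 1))) (mul_mem (hBi 0 i) hs1)), ?_⟩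
    rw [map_ratCast, ← ident3]
    rw [← Bi] at h0 h1
    rw [← Pi'] at k0 k1
    linear_combination P 0 * h1 + Bi σ 1 i * k0 - P 1 * h0 - Bi σ 0 i * k1

end Crest.Agent.R278
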