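import Crest.Agent.R278.Seid

/-!
General commutative algebra: Krull dimension of integral extensions, a Nakayama argument for
brackets of two derivations, Hartogs' lemma for integral closures of a polynomial ring.
-/

set_option autoImplicit false

namespace Crest.Agent.R278

open Polynomial

lemma krullDim_integral (R S : Type) [CommRing R] [CommRing S] [Algebra R S]
    [Algebra.IsIntegral R S] (hinj : Function.Injective (algebraMap R S)) :
    ringKrullDim S = ringKrullDim R := by
  apply le_antisymm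
  · refine Order.krullDim_le_of_strictMono (PrimeSpectrum.comap (algebraMap R S)) ?_
    intro p q hpq
    exact Ideal.IsIntegral.comap_lt_comap (R := R) (show p.asIdeal < q.asIdeal from hpq)
  · rw [ringKrullDim, Order.krullDim, iSup_le_iff]
    intro l
    obtain ⟨P, _, hP, hP'⟩ := Ideal.exists_ideal_over_prime_of_isIntegral (S := S) l.head.asIdeal ⊥
      (by rw [← RingHom.ker_eq_comap_bot, (RingHom.injective_iff_ker_eq_bot _).1 hinj]; exact bot_le)
    have : P.LiesOver l.head.asIdeal := ⟨hP'.symm⟩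
    obtain ⟨L, hL, -⟩ := Ideal.exists_ltSeries_of_hasGoingUp l P
    rw [← hL]
    exact Order.LTSeries.length_le_krullDim L

lemma nak_br (R : Type) [CommRing R] [Algebra ℂ R] [IsLocalRing R] [IsNoetherianRing R]
    (hres : ∀ x : R, ∃ c : ℂ, x - algebraMap ℂ R c ∈ IsLocalRing.maximalIdeal R)
    (D₁ D₂ : Derivation ℂ R R) (a b : R)
    (hab : IsLocalRing.maximalIdeal R = Ideal.span {a, b}) (x y : R) :
    ∃ r : R, D₁ x * D₂ y - D₂ x * D₁ y = r * (D₁ a * D₂ b - D₂ a * D₁ b) := by
  let φ : R → R × R := fun x => (D₁ x, D₂ x)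
  let T : Submodule R (R × R) := Submodule.span R (Set.range φ)
  let N : Submodule R (R × R) := Submodule.span R {φ a, φ b}
  have hT : ∀ x, φ x ∈ T := fun x => Submodule.subset_span ⟨x, rfl⟩
  have ha : a ∈ IsLocalRing.maximalIdeal R := hab ▸ Ideal.subset_span (by simp)
  have hb : b ∈ IsLocalRing.maximalIdeal R := hab ▸ Ideal.subset_span (by simp)
  have h : T ≤ N := by
    refine Submodule.le_of_le_smul_of_le_jacobson_bot (I := IsLocalRing.maximalIdeal R)
      (IsNoetherian.noetherian _) (IsLocalRing.jacobson_eq_maximalIdeal _ bot_ne_top).ge ?_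
    rw [Submodule.span_le]
    rintro _ ⟨x, rfl⟩
    obtain ⟨c, hc⟩ := hres x
    rw [hab, Ideal.mem_span_pair] at hc
    obtain ⟨α, β, h⟩ := hc
    have hx : x = algebraMap ℂ R c + (α * a + β * b) := by rw [h]; ring
    have : φ x = (α • φ a + β • φ b) + (a • φ α + b • φ β) := by
      rw [hx]; ext <;> simp [φ] <;> ring
    rw [this]
    refine Submodule.add_mem_sup (N.add_mem (N.smul_mem _ (Submodule.subset_span (by simp)))
      (N.smul_mem _ (Submodule.subset_span (by simp)))) (Submodule.add_mem _ ?_ ?_)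
    · exact Submodule.smul_mem_smul ha (hT _)
    · exact Submodule.smul_mem_smul hb (hT _)
  obtain ⟨p, q, h1⟩ := Submodule.mem_span_pair.1 (h (hT x))
  obtain ⟨p', q', h2⟩ := Submodule.mem_span_pair.1 (h (hT y))
  simp only [φ, Prod.smul_mk, smul_eq_mul, Prod.mk_add_mk, Prod.mk.injEq] at h1 h2
  refine ⟨p * q' - q * p', ?_⟩
  rw [← h1.1, ← h1.2, ← h2.1, ← h2.2]; ring

abbrev P2 := MvPolynomial (Fin 2) ℂ

section Hartogs
variable {K : Type} [Field K] [Algebra P2 K]

lemma mul_pow_integral (s : P2) (hs : algebraMap P2 K s ≠ 0) (x : K)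
    (h : ∀ V : ValuationSubring K, (∀ p : P2, algebraMap P2 K p ∈ V) →
      V.valuation (algebraMap P2 K s) = 1 → x ∈ V) :
    ∃ n : ℕ, IsIntegral P2 (s ^ n • x) := by
  let L := Localization.Away s
  let f : L →+* K := IsLocalization.Away.lift s (g := algebraMap P2 K) (Ne.isUnit hs)
  let : Algebra L K := f.toAlgebra
  have : IsScalarTower P2 L K := IsScalarTower.of_algebraMap_eq fun p =>
    (IsLocalization.Away.lift_eq s (Ne.isUnit hs) p).symm
  have hx : IsIntegral L x := by
    by_contra hx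
    have hx' : x ∉ (integralClosure L K).toSubring := hx
    have : IsIntegrallyClosedIn (integralClosure L K).toSubring K :=
      inferInstanceAs (IsIntegrallyClosedIn (integralClosure L K) K)
    obtain ⟨V, hV, hxV⟩ := Subring.exists_le_valuationSubring_of_isIntegrallyClosedIn hx'
    have hL : ∀ z : L, algebraMap L K z ∈ V := fun z => hV ((integralClosure L K).algebraMap_mem z)
    refine hxV (h V (fun p => by rw [IsScalarTower.algebraMap_apply P2 L K]; exact hL _) ?_)
    have h1 : V.valuation (algebraMap P2 K s) ≤ 1 := by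
      rw [V.valuation_le_one_iff, IsScalarTower.algebraMap_apply P2 L K]; exact hL _
    have h2 : (algebraMap P2 K s)⁻¹ = algebraMap L K (IsLocalization.Away.invSelf s) := by
      apply inv_eq_of_mul_eq_one_right
      rw [IsScalarTower.algebraMap_apply P2 L K, ← map_mul, IsLocalization.Away.mul_invSelf, map_one]
    have h3 : V.valuation (algebraMap P2 K s)⁻¹ ≤ 1 := by
      rw [V.valuation_le_one_iff, h2]; exact hL _
    rw [map_inv₀, inv_le_one₀ (by rwa [Valuation.pos_iff])] at h3
    exact le_antisymm h1 h3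
  obtain ⟨⟨_, n, rfl⟩, hn⟩ := hx.exists_multiple_integral_of_isLocalization (.powers s)
  exact ⟨n, hn⟩

lemma hartogs_aux (hinj : Function.Injective (algebraMap P2 K)) (x : K) (n m : ℕ)
    (h1 : IsIntegral P2 ((MvPolynomial.X 0 : P2) ^ n • x))
    (h2 : IsIntegral P2 ((MvPolynomial.X 1 : P2) ^ m • x)) : IsIntegral P2 x := by
  let F := FractionRing P2
  have : FaithfulSMul P2 K := (faithfulSMul_iff_algebraMap_injective _ _).2 hinj
  let : Algebra F K := FractionRing.liftAlgebra P2 K
  have hne : ∀ (i : Fin 2) (k : ℕ), algebraMap P2 F (MvPolynomial.X i ^ k) ≠ 0 := fun i k => by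
    rw [map_ne_zero_iff _ (IsFractionRing.injective P2 F)]
    exact pow_ne_zero _ (MvPolynomial.X_ne_zero i)
  have hx : IsIntegral F x := by
    have := (h1.tower_top (A := F)).smul (algebraMap P2 F (MvPolynomial.X 0 ^ n))⁻¹
    rwa [← algebraMap_smul F (MvPolynomial.X 0 ^ n : P2) x, smul_smul, inv_mul_cancel₀ (hne 0 n),
      one_smul] at this
  have key : ∀ (i : Fin 2) (k : ℕ), IsIntegral P2 ((MvPolynomial.X i : P2) ^ k • x) → ∀ j,
      ∃ (e : ℕ) (p : P2), algebraMap P2 F p =
        (minpoly F x).coeff j * algebraMap P2 F (MvPolynomial.X i ^ e) := by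
    intro i k h j
    have e1 := minpoly.isIntegrallyClosed_eq_field_fractions' F h
    rw [← algebraMap_smul F, IsIntegrallyClosed.minpoly_smul (hne i k) hx] at e1
    have e2 := congrArg (fun p => p.coeff j) e1
    simp only [coeff_scaleRoots, coeff_map] at e2
    exact ⟨k * ((minpoly F x).natDegree - j), _, by rw [← e2, pow_mul, map_pow _ (_ ^ k)]⟩
  have hl : minpoly F x ∈ lifts (algebraMap P2 F) := by
    rw [lifts_iff_coeff_lifts]
    intro j
    obtain ⟨e, p, hp⟩ := key 0 n h1 j
    obtain ⟨e', p', hp'⟩ := key 1 m h2 j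
    have h3 : p * MvPolynomial.X 1 ^ e' = p' * MvPolynomial.X 0 ^ e := by
      apply IsFractionRing.injective P2 F
      rw [map_mul, map_mul, hp, hp']; ring
    have h4 : (MvPolynomial.X 0 : P2) ^ e ∣ p * MvPolynomial.X 1 ^ e' := ⟨p', by rw [h3]; ring⟩
    have hpr : Prime (MvPolynomial.X 0 : P2) := MvPolynomial.X_prime
    have h5 : ¬ (MvPolynomial.X 0 : P2) ∣ MvPolynomial.X 1 ^ e' := fun h => by
      have := hpr.dvd_of_dvd_pow h
      rw [MvPolynomial.X_dvd_X] at this
      exact absurd this (by decide)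
    obtain ⟨q, hq⟩ := hpr.pow_dvd_of_dvd_mul_right e h5 h4
    refine ⟨q, ?_⟩
    apply mul_right_cancel₀ (hne 0 e)
    rw [← hp, hq, map_mul]; ring
  obtain ⟨q, hq1, _, hq3⟩ := lifts_and_natDegree_eq_and_monic hl (minpoly.monic hx)
  refine ⟨q, hq3, ?_⟩
  rw [IsScalarTower.algebraMap_eq P2 F K, ← eval₂_map, hq1]
  exact minpoly.aeval F x

lemma hartogs (hinj : Function.Injective (algebraMap P2 K)) (x : K)
    (h : ∀ V : ValuationSubring K, (∀ p : P2, algebraMap P2 K p ∈ V) →
      (∃ i, V.valuation (algebraMap P2 K (MvPolynomial.X i)) = 1) → x ∈ V) :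
    IsIntegral P2 x := by
  have hne : ∀ i : Fin 2, algebraMap P2 K (MvPolynomial.X i) ≠ 0 := fun i => by
    rw [map_ne_zero_iff _ hinj]; exact MvPolynomial.X_ne_zero i
  obtain ⟨n, hn⟩ := mul_pow_integral (MvPolynomial.X 0) (hne 0) x fun V h1 h2 => h V h1 ⟨0, h2⟩
  obtain ⟨m, hm⟩ := mul_pow_integral (MvPolynomial.X 1) (hne 1) x fun V h1 h2 => h V h1 ⟨1, h2⟩
  exact hartogs_aux hinj x n m hn hm

end Hartogs

end Crest.Agent.R278
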