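import Crest.Agent.R278.Setup

/-!
The generating functions of the affine surface and their basic properties.
-/

set_option autoImplicit false
set_option linter.unusedSectionVars false

namespace Crest.Agent.R278

open Polynomial

variable {K : Type} [Field K] [Algebra ℂ K]

namespace Setup
variable (S : Setup K)

noncomputable def l (i : Fin 4) : K := ell S.y (S.yi i)
noncomputable def mo (i : Fin 4) (e : Fin 4 → ℕ) : K := mon S.σ (S.g i) e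
noncomputable def w (i : Fin 4) : K := S.l i / S.mo i S.a
noncomputable def γt : K := S.B 1 * S.P 0 - S.B 0 * S.P 1
noncomputable def Γ : K := S.γ 0 * S.γ 1 * S.γt
def M (i : Fin 4) : Fin 4 → ℕ := S.m 0 i + S.m 1 i + (S.o 0 i + S.o 1 i)
def Δ : ℕ := S.δ 0 + 1 + (S.δ 1 + 1) + 15
def NW (i : Fin 4) (t : ℕ) (e : Fin 4 → ℕ) : Submodule ℂ K := Nw S.y S.σ (S.yi i) (S.g i) S.a t e
def Adm (b : ℕ) (Ψ : K) : Prop := Ψ ∈ Lz S.y S.σ (b * S.Δ - 1) ∧ ∀ i, Ψ ∈ S.NW i 1 (b • S.M i)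
def W : Set K := {x | ∃ b Ψ, 1 ≤ b ∧ b ≤ S.Bn * S.N 0 ∧ S.Adm b Ψ ∧ x = Ψ / S.Γ ^ b}
def Bs : Subalgebra ℂ K := Algebra.adjoin ℂ S.W
noncomputable def v (k : Fin 2) : Derivation ℂ K K := (S.H k)⁻¹ • S.D k

lemma a_pos (j : Fin 4) : 1 ≤ S.a j := by have := S.hoa 0 j; omega

lemma Bn_pos : 1 ≤ S.Bn := by
  have h1 := S.hkx 0 0
  have h2 := S.hkx2 0 0
  have h3 := S.a_pos 0
  rcases Nat.eq_zero_or_pos S.Bn with h | h
  · rw [h, zero_mul] at h1; nlinarith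
  · exact h

lemma γ_Lp (k : Fin 2) : S.γ k ∈ Lp S.y S.σ (S.δ k + 1) := by
  simpa using add_mem (Lz_le (S.hγ k)) (s_pow_Lp le_rfl)

lemma γt_Lp : S.γt ∈ Lp S.y S.σ 15 := sub_mem (Lp_mul (S.hB 1) (S.hP 0)) (Lp_mul (S.hB 0) (S.hP 1))

lemma Γ_Lp : S.Γ ∈ Lp S.y S.σ S.Δ := Lp_mul (Lp_mul (S.γ_Lp 0) (S.γ_Lp 1)) S.γt_Lp

lemma γ_NW (k : Fin 2) (i : Fin 4) : S.γ k ∈ S.NW i 0 (S.m k i) := by
  simpa [NW] using add_mem (Nw_mono (Nat.zero_le 1) (fun _ => le_rfl) (S.hγN k i)) (Nw_mon (S.m k i))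

lemma l_NW (i : Fin 4) (t : ℕ) : S.l i ^ t ∈ S.NW i t (t • S.a) := by
  simpa [mon_zero, NW, l] using Nw_gen (y := S.y) (σ := S.σ) (c := S.yi i) (g := S.g i) (a := S.a) (t₀ := t)
    (m := t • S.a) t 0 le_rfl (one_mem _) (by simp)

lemma γt_NW (i : Fin 4) :
    S.γt - algebraMap ℂ K S.cδ * S.mo i (S.o 0 i + S.o 1 i) ∈ S.NW i 1 (S.o 0 i + S.o 1 i) := by
  obtain ⟨r, hr, h⟩ := S.hγt' i
  have := Nw_mono (m' := S.o 0 i + S.o 1 i) le_rfl (fun j => by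
    have := S.hoa i j; simp; omega) (Nw_mul (S.l_NW i 1) (Nw_R2 hr))
  rw [γt, h]; simpa [mo, l, NW] using this

/-- centre at the point `O` -/
lemma val_O {V : ValuationSubring K} (hV : ∀ c : ℂ, algebraMap ℂ K c ∈ V)
    (h1 : V.valuation S.σ⁻¹ < 1) (h2 : V.valuation (S.y / S.σ) < 1) :
    (∀ k, V.valuation (S.γ k / S.σ ^ (S.δ k + 1)) = 1) ∧ V.valuation (S.γt / S.σ ^ 15) = 1 ∧
    ∀ f ∈ S.W, V.valuation f < 1 := by
  have key : ∀ d x, x ∈ Lz S.y S.σ d → V.valuation (x / S.σ ^ (d + 1)) < 1 := by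
    intro d x hx
    obtain ⟨c₁, h₁, c₂, h₂, e⟩ := Lz_div (C := VS V hV) (l := S.σ) (vmem h1.le) (vmem h2.le)
      (by rw [div_self S.hσ]; exact one_mem _) hx
    rw [e]
    exact V.valuation.map_add_lt (vlt_mul h1 h₁) (vlt_mul h2 h₂)
  have e1 : ∀ k, V.valuation (S.γ k / S.σ ^ (S.δ k + 1)) = 1 := fun k => by
    have := v_one_add (u := 1) (by simp) (key _ _ (S.hγ k))
    rwa [sub_div, div_self (pow_ne_zero _ S.hσ), add_sub_cancel] at this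
  have e2 : V.valuation (S.γt / S.σ ^ 15) = 1 := by
    have := v_one_add (v_const hV S.hcδ) (key _ _ S.hγt)
    rwa [sub_div, mul_div_assoc, div_self (pow_ne_zero _ S.hσ), mul_one, add_sub_cancel] at this
  refine ⟨e1, e2, ?_⟩
  rintro f ⟨b, Ψ, hb, -, hΨ, rfl⟩
  have e3 : V.valuation (S.Γ / S.σ ^ S.Δ) = 1 := by
    rw [Γ, Δ, pow_add, pow_add, mul_div_mul_comm, mul_div_mul_comm, map_mul, map_mul, e1, e1, e2]
    simp
  have e4 := key _ _ hΨ.1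
  have : b * S.Δ - 1 + 1 = S.Δ * b := by
    have : 1 ≤ b * S.Δ := Nat.mul_pos hb (by unfold Δ; omega)
    rw [mul_comm S.Δ]; omega
  rw [this, pow_mul] at e4
  have e5 : Ψ / S.Γ ^ b = Ψ / (S.σ ^ S.Δ) ^ b / (S.Γ / S.σ ^ S.Δ) ^ b := by
    have := S.hσ
    rw [div_pow, div_div_div_cancel_right₀ (by positivity)]
  rw [e5, map_div₀, map_pow, e3, one_pow, div_one]
  exact e4

lemma val_V₀ : (∀ k, S.V₀.valuation (S.γ k / S.σ ^ (S.δ k + 1)) = 1) ∧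
    S.V₀.valuation (S.γt / S.σ ^ 15) = 1 ∧ ∀ f ∈ S.W, S.V₀.valuation f < 1 :=
  S.val_O S.hV₀ S.hV₀σ (by rw [div_eq_mul_inv, mul_comm]; exact vlt_mul S.hV₀σ S.hV₀y)

lemma γ_ne (k : Fin 2) : S.γ k ≠ 0 := fun h => by simpa [h] using S.val_V₀.1 k
lemma γt_ne : S.γt ≠ 0 := fun h => by simpa [h] using S.val_V₀.2.1
lemma Γ_ne : S.Γ ≠ 0 := mul_ne_zero (mul_ne_zero (S.γ_ne 0) (S.γ_ne 1)) S.γt_ne
lemma l_ne (i : Fin 4) : S.l i ≠ 0 := S.hell i
lemma H_ne (k : Fin 2) : S.H k ≠ 0 := fun h => S.γ_ne k (by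
  rw [← S.hH, h, zero_pow (S.hN0 k), zero_mul])

lemma G_ne (i j : Fin 4) : aeval S.σ (S.g i j) ≠ 0 := fun h => by
  have h1 : S.σ ∈ S.V₀ := mem_val_of_isIntegral S.V₀ S.hV₀ ⟨_, S.hmon i j, h⟩
  have := vlt_mul S.hV₀σ h1
  rw [inv_mul_cancel₀ S.hσ] at this
  simp at this

lemma mo_ne (i : Fin 4) (e : Fin 4 → ℕ) : S.mo i e ≠ 0 := by
  rw [mo, mon]
  exact Finset.prod_ne_zero_iff.2 fun j _ => pow_ne_zero _ (S.G_ne i j)

lemma l_eq (i : Fin 4) : ell S.y (S.yi i) = S.w i * mon S.σ (S.g i) S.a :=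
  (div_mul_cancel₀ _ (S.mo_ne i S.a)).symm

lemma w_ne (i : Fin 4) : S.w i ≠ 0 := div_ne_zero (S.l_ne i) (S.mo_ne i _)

lemma Bs_fg : S.Bs.FG := by
  have h1 : (Lp S.y S.σ (S.Bn * S.N 0 * S.Δ)).FG :=
    Submodule.FG.pow (Submodule.fg_span (by simp)) _
  have h2 := h1.map (LinearMap.mulRight ℂ (S.Γ ^ (S.Bn * S.N 0))⁻¹)
  have h3 : Submodule.span ℂ S.W ≤ (Lp S.y S.σ (S.Bn * S.N 0 * S.Δ)).map
      (LinearMap.mulRight ℂ (S.Γ ^ (S.Bn * S.N 0))⁻¹) := by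
    rw [Submodule.span_le]
    rintro f ⟨b, Ψ, hb, hb', hΨ, rfl⟩
    obtain ⟨c, hc⟩ := Nat.exists_eq_add_of_le hb'
    refine ⟨Ψ * S.Γ ^ c, Lp_mono ?_ (Lp_mul (Lz_le hΨ.1) (Lp_pow S.Γ_Lp c)), ?_⟩
    · have : 1 ≤ b * S.Δ := Nat.mul_pos hb (by unfold Δ; omega)
      rw [hc, add_mul, mul_comm c]; omega
    · have := S.Γ_ne
      rw [LinearMap.mulRight_apply, hc]; field_simp; ring
  have := (Submodule.fg_iff_finiteDimensional _).1 h2
  have h4 : (Submodule.span ℂ S.W).FG :=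
    (Submodule.fg_iff_finiteDimensional _).2 (Submodule.finiteDimensional_of_le h3)
  obtain ⟨T, hT⟩ := h4
  exact ⟨T, by rw [Bs, ← Algebra.adjoin_span, hT, Algebra.adjoin_span]⟩

lemma adm_of (b r : ℕ) (Z : K) (t : Fin 4 → ℕ) (z : Fin 4 → Fin 4 → ℕ) (ht : ∀ i, 1 ≤ t i)
    (hZ : Z ∈ Lp S.y S.σ r) (hZ' : ∀ i, Z ∈ S.NW i 0 (z i))
    (h1 : ∀ i j, b * S.M i j ≤ t i * S.a j + z i j) (h2 : r + ∑ i, t i ≤ b * S.Δ) :
    S.Adm b (Z * ∏ i, S.l i ^ t i) := by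
  constructor
  · have hl : ∀ i n, S.l i ^ n ∈ Lp S.y S.σ n := fun i n => by
      simpa [l] using Lp_pow (Lp_one (L0_le (σ := S.σ) (ell_L0 (y := S.y) (S.yi i)))) n
    obtain ⟨t', ht'⟩ := Nat.exists_eq_add_of_le (ht 0)
    have := Lz_of (ell_L0 (y := S.y) (S.yi 0)) (Lp_mul (Lp_mul (Lp_mul (Lp_mul hZ (hl 0 t'))
      (hl 1 (t 1))) (hl 2 (t 2))) (hl 3 (t 3)))
    rw [Fin.sum_univ_four] at h2
    refine Lz_mono (by omega) (?_ : _ ∈ Lz S.y S.σ (r + t' + t 1 + t 2 + t 3))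
    convert this using 1
    rw [Fin.prod_univ_four, ht', l]; ring
  · intro i
    rw [← Finset.mul_prod_erase _ _ (Finset.mem_univ i), ← mul_assoc]
    refine Nw_mono ?_ ?_ (Nw_mul (Nw_mul (hZ' i) (S.l_NW i (t i))) (Nw_R2
      (Subalgebra.prod_mem _ fun j _ => pow_mem (ell_R2 _) _)))
    · simpa using ht i
    · intro j; simpa [add_comm] using h1 i j

lemma M_le (i j : Fin 4) : S.Bn * S.M i j = S.kx i j * S.a j := S.hkx i j

lemma mem_W {b : ℕ} {Ψ : K} (hb : b = S.Bn ∨ b = S.Bn * S.N 0) (h : S.Adm b Ψ) :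
    Ψ / S.Γ ^ b ∈ S.W := by
  have h1 := S.Bn_pos
  have h2 := Nat.pos_of_ne_zero (S.hN0 0)
  refine ⟨b, Ψ, ?_, ?_, h, rfl⟩ <;> rcases hb with rfl | rfl <;> nlinarith

/-- generators for the charts away from the lines -/
lemma gen_l {φ lam : K} (hφ : φ ∈ L1 S.y S.σ) (hl : lam ∈ L1 S.y S.σ) :
    φ * lam ^ (S.Bn * S.Δ - 1 - ∑ i, S.KK i) * (∏ i, S.l i ^ S.KK i) / S.Γ ^ S.Bn ∈ S.W := by
  refine S.mem_W (Or.inl rfl) (S.adm_of _ _ _ _ 0 (fun i => ?_)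
    (Lp_mul (Lp_one hφ) (Lp_pow (Lp_one hl) _))
    (fun i => Nw_R2 (Lp_R2 (Lp_mul (Lp_one hφ) (Lp_pow (Lp_one hl) _)))) (fun i j => ?_) ?_)
  · have := S.hkx2 i 0; have := S.hKK i 0; omega
  · rw [S.M_le]; simpa using Nat.mul_le_mul_right _ (S.hKK i j)
  · have := S.hdeg1; unfold Δ; omega

def ex (i j : Fin 4) : Fin 4 → ℕ := fun j' => S.kx i j' * S.a j' - S.kx i j * S.a j'
def tx (i j : Fin 4) : Fin 4 → ℕ := Function.update S.KK i (S.kx i j)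

lemma tx_ge (i j i' : Fin 4) : 2 ≤ S.tx i j i' := by
  unfold tx
  rcases eq_or_ne i' i with rfl | h
  · simpa using S.hkx2 _ _
  · rw [Function.update_of_ne h]; have := S.hkx2 i' 0; have := S.hKK i' 0; omega

noncomputable def fx (i j : Fin 4) : K := S.mo i (S.ex i j) * (∏ i', S.l i' ^ S.tx i j i') / S.Γ ^ S.Bn

lemma mo_NW (i i' : Fin 4) (e : Fin 4 → ℕ) : S.mo i e ∈ S.NW i' 0 (if i' = i then e else 0) := by
  split_ifs with h
  · subst h; exact Nw_mon _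
  · exact Nw_R2 (mon_mem s_R2 _ _)

lemma newton_x (i j i' j' : Fin 4) :
    S.Bn * S.M i' j' ≤ S.tx i j i' * S.a j' + (if i' = i then S.ex i j else 0) j' := by
  rw [S.M_le]
  unfold tx ex
  split_ifs with h
  · subst h; simp only [Function.update_self]; omega
  · rw [Function.update_of_ne h]; simpa using Nat.mul_le_mul_right _ (S.hKK i' j')

lemma gen_x (i j : Fin 4) {φ : K} (hφ : φ ∈ L1 S.y S.σ) : φ * S.fx i j ∈ S.W := by
  rw [fx, ← mul_div_assoc, ← mul_assoc]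
  refine S.mem_W (Or.inl rfl) (S.adm_of _ _ _ _ (fun i' => 0 + if i' = i then S.ex i j else 0)
    (fun i' => by have := S.tx_ge i j i'; omega)
    (Lp_mul (Lp_one hφ) (mon_Lp (S.hdeg i) _))
    (fun i' => Nw_mul (t₀ := 0) (t₁ := 0) (Nw_R2 (Lp_R2 (Lp_one hφ))) (S.mo_NW i i' _))
    (fun i' j' => by rw [zero_add]; exact S.newton_x i j i' j') ?_)
  have := S.hdeg2 i j
  unfold Δ ex tx; omega

lemma gen_w (i j : Fin 4) : (S.w i)⁻¹ * S.fx i j ∈ S.W := by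
  have e : (S.w i)⁻¹ * S.fx i j = S.mo i (S.ex i j + S.a) *
      (∏ i', S.l i' ^ (S.tx i j - Pi.single i 1 : Fin 4 → ℕ) i') / S.Γ ^ S.Bn := by
    have h1 : ∏ i', S.l i' ^ S.tx i j i' =
        S.l i * ∏ i', S.l i' ^ (S.tx i j - Pi.single i 1 : Fin 4 → ℕ) i' := by
      rw [← Finset.mul_prod_erase _ _ (Finset.mem_univ i),
        ← Finset.mul_prod_erase _ _ (Finset.mem_univ i), ← mul_assoc, ← pow_succ']
      congr 1
      · have := S.tx_ge i j i; simp only [Pi.sub_apply, Pi.single_eq_same]; congr 1; omega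
      · exact Finset.prod_congr rfl fun i' hi' => by
          simp [Pi.single_eq_of_ne (Finset.ne_of_mem_erase hi')]
    have := S.l_ne i
    have := S.mo_ne i S.a
    rw [fx, h1, w, mo, mo, mo, mon_add]
    rw [mo] at this
    field_simp
  rw [e]
  have h2 : ∀ i', (S.tx i j - Pi.single i 1 : Fin 4 → ℕ) i' + (if i' = i then 1 else 0) =
      S.tx i j i' := by
    intro i'
    have := S.tx_ge i j i'
    split_ifs with h
    · subst h; simp; omega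
    · simp [Pi.single_eq_of_ne h]
  refine S.mem_W (Or.inl rfl) (S.adm_of _ _ _ _ (fun i' => if i' = i then S.ex i j + S.a else 0)
    (fun i' => by have := S.tx_ge i j i'; have := h2 i'; split_ifs at this <;> omega)
    (mon_Lp (S.hdeg i) _) (fun i' => S.mo_NW i i' _) (fun i' j' => ?_) ?_)
  · have h3 := S.newton_x i j i' j'
    rw [← h2 i'] at h3
    split_ifs at h3 ⊢ with h
    · simp only [Pi.add_apply, add_mul] at h3 ⊢; omega
    · simpa using h3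
  · have h3 := S.hdeg2 i j
    have h4 : ∑ i', (S.tx i j - Pi.single i 1 : Fin 4 → ℕ) i' ≤ ∑ i', S.tx i j i' :=
      Finset.sum_le_sum fun i' _ => by simp
    simp only [Pi.add_apply, mul_add, Finset.sum_add_distrib]
    unfold Δ ex tx at *; omega

lemma gen_θ (i j : Fin 4) : (S.H 0 * S.fx i j) ^ S.N 0 ∈ S.W := by
  have hN := Nat.pos_of_ne_zero (S.hN0 0)
  have h0 : ∀ i', S.N 0 * S.tx i j i' = S.kk 0 i' + (S.N 0 * S.tx i j i' - S.kk 0 i') ∧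
      1 ≤ S.N 0 * S.tx i j i' - S.kk 0 i' := by
    intro i'
    have := S.tx_ge i j i'; have := S.hkN i'
    have : S.N 0 * 2 ≤ S.N 0 * S.tx i j i' := Nat.mul_le_mul_left _ ‹_›
    omega
  have e : (S.H 0 * S.fx i j) ^ S.N 0 = S.γ 0 * S.mo i (S.N 0 • S.ex i j) *
      (∏ i', S.l i' ^ (S.N 0 * S.tx i j i' - S.kk 0 i')) / S.Γ ^ (S.Bn * S.N 0) := by
    have h1 : (∏ i', S.l i' ^ S.tx i j i') ^ S.N 0 = (∏ i', ell S.y (S.yi i') ^ S.kk 0 i') *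
        ∏ i', S.l i' ^ (S.N 0 * S.tx i j i' - S.kk 0 i') := by
      rw [← Finset.prod_pow, ← Finset.prod_mul_distrib]
      exact Finset.prod_congr rfl fun i' _ => by
        rw [← pow_mul, mul_comm, l, ← pow_add, ← (h0 i').1]
    rw [fx, mul_pow, div_pow, mul_pow, h1, ← S.hH, mo, mo, mon_smul, pow_mul]
    ring
  rw [e]
  refine S.mem_W (Or.inr rfl) (S.adm_of _ _ _ _
    (fun i' => S.m 0 i' + if i' = i then S.N 0 • S.ex i j else 0) (fun i' => (h0 i').2)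
    (Lp_mul (S.γ_Lp 0) (mon_Lp (S.hdeg i) _))
    (fun i' => Nw_mul (t₀ := 0) (t₁ := 0) (S.γ_NW 0 i') (S.mo_NW i i' _)) (fun i' j' => ?_) ?_)
  · have h3 := Nat.mul_le_mul_left (S.N 0) (S.newton_x i j i' j')
    have h4 := S.hmk i' j'
    have h5 := congrArg (· * S.a j') (h0 i').1
    simp only [add_mul] at h5
    have h6 : (if i' = i then S.N 0 • S.ex i j else 0) j' =
        S.N 0 * (if i' = i then S.ex i j else 0) j' := by split_ifs <;> simp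
    rw [Pi.add_apply, h6]
    nlinarith
  · have h3 := Nat.mul_le_mul_left (S.N 0) (S.hdeg2 i j)
    have h4 := S.hδ 0
    have h5 : ∑ i', S.kk 0 i' + ∑ i', (S.N 0 * S.tx i j i' - S.kk 0 i') =
        S.N 0 * ∑ i', S.tx i j i' := by
      rw [← Finset.sum_add_distrib, Finset.mul_sum]
      exact Finset.sum_congr rfl fun i' _ => (h0 i').1.symm
    have h6 : ∑ j', S.n j' * (S.N 0 • S.ex i j) j' = S.N 0 * ∑ j', S.n j' * S.ex i j j' := by
      rw [Finset.mul_sum]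
      exact Finset.sum_congr rfl fun j' _ => by simp; ring
    rw [h6]
    change S.N 0 * (∑ j', S.n j' * S.ex i j j' + _ + 8 + ∑ i', S.tx i j i') ≤ S.N 0 * (S.Bn * S.Δ) at h3
    have h7 : S.Bn * S.N 0 * S.Δ = S.N 0 * (S.Bn * S.Δ) := by ring
    rw [h7]
    simp only [mul_add] at h3
    omega

end Setup

end Crest.Agent.R278
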