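import Mathlib

/-!
Degree filtrations and Newton-polygon submodules for polynomials in two elements `y, σ`,
interpolation along four concurrent lines and a Chinese remainder construction.
-/

set_option autoImplicit false
set_option linter.unusedSectionVars false

namespace Crest.Agent.R278

open Polynomial

variable {E : Type} [CommRing E] [Algebra ℂ E]

def L1 (y σ : E) : Submodule ℂ E := Submodule.span ℂ {1, y, σ}
def L0 (y : E) : Submodule ℂ E := Submodule.span ℂ {1, y}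
def Lp (y σ : E) (d : ℕ) : Submodule ℂ E := L1 y σ ^ d
def Lz (y σ : E) (d : ℕ) : Submodule ℂ E := L0 y * L1 y σ ^ d
def R2 (y σ : E) : Subalgebra ℂ E := Algebra.adjoin ℂ {y, σ}
def ell (y : E) (c : ℂ) : E := y - algebraMap ℂ E c
noncomputable def mon (σ : E) (g : Fin 4 → ℂ[X]) (e : Fin 4 → ℕ) : E := ∏ j, aeval σ (g j) ^ e j

section basic
variable {y σ : E}

lemma one_L1 : (1 : E) ∈ L1 y σ := Submodule.subset_span (by simp)
lemma y_L1 : y ∈ L1 y σ := Submodule.subset_span (by simp)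
lemma s_L1 : σ ∈ L1 y σ := Submodule.subset_span (by simp)
lemma one_L0 : (1 : E) ∈ L0 y := Submodule.subset_span (by simp)
lemma y_L0 : y ∈ L0 y := Submodule.subset_span (by simp)
lemma L0_le : L0 y ≤ L1 y σ := Submodule.span_mono (by intro x; simp; tauto)
lemma ell_L0 (c : ℂ) : ell y c ∈ L0 y := by
  rw [ell, Algebra.algebraMap_eq_smul_one]; exact sub_mem y_L0 (Submodule.smul_mem _ _ one_L0)

lemma Lp_mul {a b : ℕ} {x z : E} (hx : x ∈ Lp y σ a) (hz : z ∈ Lp y σ b) :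
    x * z ∈ Lp y σ (a + b) := by
  rw [Lp, pow_add]; exact Submodule.mul_mem_mul hx hz

lemma Lp_one {x : E} (hx : x ∈ L1 y σ) : x ∈ Lp y σ 1 := by rwa [Lp, pow_one]

lemma Lp_pow {a : ℕ} {x : E} (hx : x ∈ Lp y σ a) (n : ℕ) : x ^ n ∈ Lp y σ (a * n) := by
  rw [Lp, pow_mul]; exact Submodule.pow_mem_pow _ hx n

lemma one_Lp (d : ℕ) : (1 : E) ∈ Lp y σ d := by
  simpa using Lp_pow (Lp_one (one_L1 (y := y) (σ := σ))) d

lemma Lp_mono {a b : ℕ} (h : a ≤ b) {x : E} (hx : x ∈ Lp y σ a) : x ∈ Lp y σ b := by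
  obtain ⟨c, rfl⟩ := Nat.exists_eq_add_of_le h
  simpa using Lp_mul hx (one_Lp c)

lemma c_Lp (c : ℂ) (d : ℕ) : algebraMap ℂ E c ∈ Lp y σ d := by
  rw [Algebra.algebraMap_eq_smul_one]; exact Submodule.smul_mem _ _ (one_Lp d)

lemma c_mul_Lp (c : ℂ) {d : ℕ} {x : E} (hx : x ∈ Lp y σ d) : algebraMap ℂ E c * x ∈ Lp y σ d := by
  rw [← Algebra.smul_def]; exact Submodule.smul_mem _ _ hx

lemma s_pow_Lp {n d : ℕ} (h : n ≤ d) : σ ^ n ∈ Lp y σ d :=
  Lp_mono h (by simpa using Lp_pow (Lp_one (s_L1 (y := y) (σ := σ))) n)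

lemma y_pow_Lp {n d : ℕ} (h : n ≤ d) : y ^ n ∈ Lp y σ d :=
  Lp_mono h (by simpa using Lp_pow (Lp_one (y_L1 (y := y) (σ := σ))) n)

lemma Lz_mul {a b : ℕ} {x z : E} (hx : x ∈ Lz y σ a) (hz : z ∈ Lp y σ b) :
    x * z ∈ Lz y σ (a + b) := by
  rw [Lz, pow_add, ← mul_assoc]; exact Submodule.mul_mem_mul hx hz

lemma Lz_of {a : ℕ} {x z : E} (hx : x ∈ L0 y) (hz : z ∈ Lp y σ a) : x * z ∈ Lz y σ a :=
  Submodule.mul_mem_mul hx hz

lemma Lz_mono {a b : ℕ} (h : a ≤ b) {x : E} (hx : x ∈ Lz y σ a) : x ∈ Lz y σ b := by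
  obtain ⟨c, rfl⟩ := Nat.exists_eq_add_of_le h
  simpa using Lz_mul hx (one_Lp c)

lemma Lz_le {a : ℕ} {x : E} (hx : x ∈ Lz y σ a) : x ∈ Lp y σ (a + 1) := by
  rw [Lp, pow_succ']
  exact (mul_le_mul' (L0_le (σ := σ)) le_rfl : L0 y * L1 y σ ^ a ≤ _) hx

lemma Lp_Lz {a : ℕ} {x : E} (hx : x ∈ Lp y σ a) : x ∈ Lz y σ a := by
  simpa using Lz_of (one_L0 (y := y)) hx

lemma aeval_Lp {x : E} (hx : x ∈ L1 y σ) {p : ℂ[X]} {d : ℕ} (h : p.natDegree ≤ d) :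
    aeval x p ∈ Lp y σ d := by
  rw [aeval_eq_sum_range]
  refine Submodule.sum_mem _ fun i hi => Submodule.smul_mem _ _ (Lp_mono ?_ (Lp_pow (Lp_one hx) i))
  rw [Finset.mem_range] at hi; omega

lemma y_R2 : y ∈ R2 y σ := Algebra.subset_adjoin (by simp)
lemma s_R2 : σ ∈ R2 y σ := Algebra.subset_adjoin (by simp)
lemma ell_R2 (c : ℂ) : ell y c ∈ R2 y σ := sub_mem y_R2 (Subalgebra.algebraMap_mem _ _)

lemma aeval_mem {C : Subalgebra ℂ E} {x : E} (hx : x ∈ C) (p : ℂ[X]) : aeval x p ∈ C := by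
  rw [aeval_eq_sum_range]
  exact C.sum_mem fun i _ => C.smul_mem (C.pow_mem hx _) _

lemma mon_mem {C : Subalgebra ℂ E} (hx : σ ∈ C) (g : Fin 4 → ℂ[X]) (e : Fin 4 → ℕ) :
    mon σ g e ∈ C := C.prod_mem fun _ _ => C.pow_mem (aeval_mem hx _) _

lemma Lp_sub {C : Subalgebra ℂ E} (hy : y ∈ C) (hs : σ ∈ C) {d : ℕ} {x : E} (hx : x ∈ Lp y σ d) :
    x ∈ C := by
  have h1 : L1 y σ ≤ C.toSubmodule := by
    rw [L1, Submodule.span_le]
    rintro z (rfl | rfl | rfl)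
    exacts [C.one_mem, hy, hs]
  induction d generalizing x with
  | zero =>
    rw [Lp, pow_zero, Submodule.mem_one] at hx
    obtain ⟨c, rfl⟩ := hx; exact C.algebraMap_mem c
  | succ d ih =>
    rw [Lp, pow_succ] at hx
    refine Submodule.mul_induction_on hx (fun a ha b hb => C.mul_mem (ih ha) (h1 hb))
      fun a b ha hb => C.add_mem ha hb

lemma Lp_R2 {d : ℕ} {x : E} (hx : x ∈ Lp y σ d) : x ∈ R2 y σ := Lp_sub y_R2 s_R2 hx

lemma mon_add (g : Fin 4 → ℂ[X]) (e e' : Fin 4 → ℕ) :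
    mon σ g (e + e') = mon σ g e * mon σ g e' := by
  simp [mon, pow_add, Finset.prod_mul_distrib]

lemma mon_smul (g : Fin 4 → ℂ[X]) (t : ℕ) (e : Fin 4 → ℕ) :
    mon σ g (t • e) = mon σ g e ^ t := by
  simp [mon, ← Finset.prod_pow, ← pow_mul, mul_comm]

lemma mon_zero (g : Fin 4 → ℂ[X]) : mon σ g 0 = 1 := by simp [mon]

lemma mon_Lp {g : Fin 4 → ℂ[X]} {n : Fin 4 → ℕ} (hn : ∀ j, (g j).natDegree = n j) (e : Fin 4 → ℕ) :
    mon σ g e ∈ Lp y σ (∑ j, n j * e j) := by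
  simp only [mon, Fin.prod_univ_four, Fin.sum_univ_four]
  exact Lp_mul (Lp_mul (Lp_mul (Lp_pow (aeval_Lp s_L1 (hn _).le) _) (Lp_pow (aeval_Lp s_L1 (hn _).le) _))
    (Lp_pow (aeval_Lp s_L1 (hn _).le) _)) (Lp_pow (aeval_Lp s_L1 (hn _).le) _)

lemma aeval_y_red (c : ℂ) (p : ℂ[X]) :
    ∃ r ∈ R2 y σ, aeval y p = algebraMap ℂ E (p.eval c) + ell y c * r := by
  obtain ⟨q, hq⟩ := X_sub_C_dvd_sub_C_eval (p := p) (a := c)
  refine ⟨aeval y q, aeval_mem y_R2 q, ?_⟩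
  have := congrArg (aeval y) hq
  simp only [map_sub, aeval_C, map_mul, aeval_X] at this
  rw [ell, ← this]; ring

lemma R2_red (c : ℂ) {x : E} (hx : x ∈ R2 y σ) :
    ∃ p : ℂ[X], ∃ r ∈ R2 y σ, x = aeval σ p + ell y c * r := by
  induction hx using Algebra.adjoin_induction with
  | mem x hx =>
    rcases hx with rfl | rfl
    · exact ⟨C c, 1, one_mem _, by simp [ell]⟩
    · exact ⟨X, 0, zero_mem _, by simp⟩
  | algebraMap r => exact ⟨C r, 0, zero_mem _, by simp⟩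
  | add x z _ _ hx hz =>
    obtain ⟨p, r, hr, rfl⟩ := hx
    obtain ⟨p', r', hr', rfl⟩ := hz
    exact ⟨p + p', r + r', add_mem hr hr', by rw [map_add]; ring⟩
  | mul x z _ _ hx hz =>
    obtain ⟨p, r, hr, rfl⟩ := hx
    obtain ⟨p', r', hr', rfl⟩ := hz
    exact ⟨p * p', r * aeval σ p' + r' * aeval σ p + ell y c * r * r',
      add_mem (add_mem (mul_mem hr (aeval_mem s_R2 _)) (mul_mem hr' (aeval_mem s_R2 _)))
        (mul_mem (mul_mem (ell_R2 c) hr) hr'), by rw [map_mul]; ring⟩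

end basic

/-- Newton polygon submodule along the line `y = c` -/
def Nw (y σ : E) (c : ℂ) (g : Fin 4 → ℂ[X]) (a : Fin 4 → ℕ) (t₀ : ℕ) (m : Fin 4 → ℕ) :
    Submodule ℂ E :=
  Submodule.span ℂ {x | ∃ (t : ℕ) (e : Fin 4 → ℕ) (r : E), t₀ ≤ t ∧ r ∈ R2 y σ ∧
    (∀ j, m j ≤ t * a j + e j) ∧ x = ell y c ^ t * mon σ g e * r}

section Nw
variable {y σ : E} {c : ℂ} {g : Fin 4 → ℂ[X]} {a : Fin 4 → ℕ}

lemma Nw_gen {t₀ : ℕ} {m : Fin 4 → ℕ} (t : ℕ) (e : Fin 4 → ℕ) {r : E} (ht : t₀ ≤ t)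
    (hr : r ∈ R2 y σ) (h : ∀ j, m j ≤ t * a j + e j) :
    ell y c ^ t * mon σ g e * r ∈ Nw y σ c g a t₀ m :=
  Submodule.subset_span ⟨t, e, r, ht, hr, h, rfl⟩

lemma Nw_mono {t₀ t₁ : ℕ} {m m' : Fin 4 → ℕ} (ht : t₁ ≤ t₀) (hm : ∀ j, m' j ≤ m j) {x : E}
    (hx : x ∈ Nw y σ c g a t₀ m) : x ∈ Nw y σ c g a t₁ m' := by
  refine Submodule.span_mono ?_ hx
  rintro _ ⟨t, e, r, h1, h2, h3, rfl⟩
  exact ⟨t, e, r, ht.trans h1, h2, fun j => (hm j).trans (h3 j), rfl⟩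

lemma Nw_mul {t₀ t₁ : ℕ} {m m' : Fin 4 → ℕ} {x z : E} (hx : x ∈ Nw y σ c g a t₀ m)
    (hz : z ∈ Nw y σ c g a t₁ m') : x * z ∈ Nw y σ c g a (t₀ + t₁) (m + m') := by
  induction hx using Submodule.span_induction with
  | zero => simp
  | add x x' _ _ h h' => rw [add_mul]; exact add_mem h h'
  | smul b x _ h => rw [smul_mul_assoc]; exact Submodule.smul_mem _ _ h
  | mem x hx =>
    induction hz using Submodule.span_induction with
    | zero => simp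
    | add x x' _ _ h h' => rw [mul_add]; exact add_mem h h'
    | smul b x _ h => rw [mul_smul_comm]; exact Submodule.smul_mem _ _ h
    | mem z hz =>
      obtain ⟨t, e, r, h1, h2, h3, rfl⟩ := hx
      obtain ⟨t', e', r', h1', h2', h3', rfl⟩ := hz
      have := Nw_gen (c := c) (g := g) (a := a) (t₀ := t₀ + t₁) (m := m + m') (t + t') (e + e')
        (add_le_add h1 h1') (mul_mem h2 h2') (fun j => by
          have := h3 j; have := h3' j; simp only [Pi.add_apply, add_mul]; omega)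
      convert this using 1
      rw [mon_add]; ring

lemma Nw_R2 {r : E} (hr : r ∈ R2 y σ) : r ∈ Nw y σ c g a 0 0 := by
  simpa [mon_zero] using Nw_gen (c := c) (g := g) (a := a) (t₀ := 0) (m := 0) 0 0 le_rfl hr (by simp)

lemma Nw_mon (m : Fin 4 → ℕ) : mon σ g m ∈ Nw y σ c g a 0 m := by
  simpa using Nw_gen (y := y) (σ := σ) (c := c) (g := g) (a := a) (t₀ := 0) (m := m) 0 m le_rfl
    (one_mem _) (by simp)

lemma Nw_pow {m : Fin 4 → ℕ} {x : E} (hx : x ∈ Nw y σ c g a 0 m) (n : ℕ) :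
    x ^ n ∈ Nw y σ c g a 0 (n • m) := by
  induction n with
  | zero => simpa using Nw_R2 (one_mem _)
  | succ n ih => rw [pow_succ, succ_nsmul]; exact Nw_mul (t₀ := 0) (t₁ := 0) ih hx

lemma Nw_sub_R2 {t₀ : ℕ} {m : Fin 4 → ℕ} {x : E} (hx : x ∈ Nw y σ c g a t₀ m) : x ∈ R2 y σ := by
  induction hx using Submodule.span_induction with
  | zero => exact zero_mem _
  | add x x' _ _ h h' => exact add_mem h h'
  | smul b x _ h => exact Subalgebra.smul_mem _ h _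
  | mem x hx =>
    obtain ⟨t, e, r, h1, h2, h3, rfl⟩ := hx
    exact mul_mem (mul_mem (pow_mem (ell_R2 c) _) (mon_mem s_R2 _ _)) h2

end Nw

section maps
variable {E' : Type} [CommRing E'] [Algebra ℂ E'] (φ : E →ₐ[ℂ] E') {y σ : E}

lemma map_ell (c : ℂ) : φ (ell y c) = ell (φ y) c := by simp [ell]
lemma map_mon (g : Fin 4 → ℂ[X]) (e : Fin 4 → ℕ) : φ (mon σ g e) = mon (φ σ) g e := by
  simp [mon, aeval_algHom_apply]

lemma map_R2 {x : E} (hx : x ∈ R2 y σ) : φ x ∈ R2 (φ y) (φ σ) := by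
  have : (R2 y σ).map φ = R2 (φ y) (φ σ) := by
    rw [R2, AlgHom.map_adjoin, Set.image_pair]; rfl
  exact this ▸ ⟨x, hx, rfl⟩

lemma map_Lz {d : ℕ} {x : E} (hx : x ∈ Lz y σ d) : φ x ∈ Lz (φ y) (φ σ) d := by
  have : (Lz y σ d).map φ.toLinearMap = Lz (φ y) (φ σ) d := by
    rw [Lz, Submodule.map_mul, Submodule.map_pow, L0, L1, Submodule.map_span, Submodule.map_span]
    simp [Lz, L0, L1, Set.image_insert_eq]
  exact this ▸ ⟨x, hx, rfl⟩

lemma map_Nw {c : ℂ} {g : Fin 4 → ℂ[X]} {a : Fin 4 → ℕ} {t₀ : ℕ} {m : Fin 4 → ℕ} {x : E}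
    (hx : x ∈ Nw y σ c g a t₀ m) : φ x ∈ Nw (φ y) (φ σ) c g a t₀ m := by
  induction hx using Submodule.span_induction with
  | zero => simp
  | add x x' _ _ h h' => rw [map_add]; exact add_mem h h'
  | smul b x _ h => rw [map_smul]; exact Submodule.smul_mem _ _ h
  | mem x hx =>
    obtain ⟨t, e, r, h1, h2, h3, rfl⟩ := hx
    rw [map_mul, map_mul, map_pow, map_ell, map_mon]
    exact Nw_gen t e h1 (map_R2 φ h2) h3

end maps

end Crest.Agent.R278
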