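import Mathlib

/-!
Seidenberg's lemma (a derivation preserving a Noetherian domain preserves its integral closure),
in a form adapted to valuation subrings.
-/

set_option autoImplicit false

namespace Crest.Agent.R278

open Polynomial

variable {K : Type} [Field K] [Algebra ℂ K]

lemma iter_add' (D : Derivation ℂ K K) (n : ℕ) (a b : K) :
    D^[n] (a + b) = D^[n] a + D^[n] b := by
  induction n generalizing a b with
  | zero => simp
  | succ n ih => simp [Function.iterate_succ_apply, ih]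

/-- The key identity, with an auxiliary family: if `f` and `α` are such that ... -/
lemma seid_key (D : Derivation ℂ K K) (C : Subalgebra ℂ K) (hC : ∀ z ∈ C, D z ∈ C)
    (α c : K) (hc : ∀ n, c * α ^ n ∈ C) (n : ℕ) :
    c * (c * (D α) ^ n) ∈ C := by
  have : CharZero K := charZero_of_injective_ringHom (algebraMap ℂ K).injective
  -- the derivation acting on coefficients of `K[X]`
  let E : K[X] → K[X] := fun p => p.sum fun i a => monomial i (D a)
  have Ecoeff : ∀ p i, (E p).coeff i = D (p.coeff i) := by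
    intro p i
    simp only [E, Polynomial.sum, finsetSum_coeff, coeff_monomial]
    rw [Finset.sum_ite_eq']
    split_ifs with h
    · rfl
    · rw [notMem_support_iff.1 h, map_zero]
  have Eadd : ∀ p q, E (p + q) = E p + E q := by
    intro p q; ext i; simp [Ecoeff]
  have Emul : ∀ p q, E (p * q) = p * E q + q * E p := by
    intro p q; ext i
    rw [Ecoeff, coeff_add, coeff_mul, coeff_mul, mul_comm q, coeff_mul, map_sum,
      ← Finset.sum_add_distrib]
    refine Finset.sum_congr rfl fun x _ => ?_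
    rw [Derivation.leibniz, Ecoeff, Ecoeff]; simp only [smul_eq_mul]; ring
  have EC : ∀ a, E (Polynomial.C a) = Polynomial.C (D a) := by
    intro a; ext i; rw [Ecoeff, coeff_C, coeff_C]; split_ifs <;> simp
  have Elin : E (Polynomial.C α - X) = Polynomial.C (D α) := by
    ext i; rw [Ecoeff, coeff_sub, coeff_C, coeff_C, coeff_X]
    split_ifs <;> simp_all
  have Epow : ∀ k : ℕ, E ((Polynomial.C α - X) ^ (k + 1)) =
      ((k : K[X]) + 1) * (Polynomial.C α - X) ^ k * Polynomial.C (D α) := by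
    intro k
    induction k with
    | zero => simp [Elin]
    | succ k ih => rw [pow_succ, Emul, ih, Elin]; push_cast; ring
  -- structure of iterates
  have key : ∀ m k : ℕ, ∀ q : K[X], ∃ r : K[X], E^[m] (q * (Polynomial.C α - X) ^ (m + k)) =
      ((m + k).descFactorial m : K[X]) * q * Polynomial.C (D α) ^ m * (Polynomial.C α - X) ^ k
        + r * (Polynomial.C α - X) ^ (k + 1) := by
    intro m
    induction m with
    | zero => intro k q; exact ⟨0, by simp⟩
    | succ m ih =>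
      intro k q
      obtain ⟨r, hr⟩ := ih (k + 1) q
      rw [show m + 1 + k = m + (k + 1) by ring, Function.iterate_succ_apply', hr, Eadd,
        Emul _ ((Polynomial.C α - X) ^ (k + 1)), Emul r, Epow, Epow,
        Nat.descFactorial_succ, show m + (k + 1) - m = k + 1 by omega]
      refine ⟨E (((m + (k + 1)).descFactorial m : K[X]) * q * Polynomial.C (D α) ^ m) +
        r * (((k + 1 : ℕ) : K[X]) + 1) * Polynomial.C (D α) + (Polynomial.C α - X) * E r, ?_⟩
      push_cast; ring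
  obtain ⟨r, hr⟩ := key n 0 (Polynomial.C c)
  have hcoef : ∀ m p, (∀ i, p.coeff i ∈ C) → ∀ i, (E^[m] p).coeff i ∈ C := by
    intro m
    induction m with
    | zero => intro p hp; simpa using hp
    | succ m ih =>
      intro p hp
      rw [Function.iterate_succ_apply]
      exact ih _ fun i => by rw [Ecoeff]; exact hC _ (hp i)
  have h0 : ∀ i, (Polynomial.C c * (Polynomial.C α - X) ^ (n + 0)).coeff i ∈ C := by
    intro i
    rw [add_zero, sub_eq_add_neg, add_pow, Finset.mul_sum, finsetSum_coeff]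
    refine C.sum_mem fun j _ => ?_
    have : Polynomial.C c * (Polynomial.C α ^ j * (-X) ^ (n - j) * (n.choose j : K[X])) =
        Polynomial.C (c * α ^ j * ((-1) ^ (n - j) * (n.choose j : K))) * X ^ (n - j) := by
      rw [neg_pow (X : K[X])]; simp only [map_mul, map_pow, map_neg, map_one, map_natCast]; ring
    rw [this, coeff_C_mul_X_pow]
    split_ifs
    · exact C.mul_mem (hc j) (C.mul_mem (C.pow_mem (C.neg_mem C.one_mem) _) (natCast_mem C _))
    · exact C.zero_mem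
  have h1 := hcoef n _ h0
  have h2 : c * eval α (E^[n] (Polynomial.C c * (Polynomial.C α - X) ^ (n + 0))) ∈ C := by
    rw [eval_eq_sum_range, Finset.mul_sum]
    refine C.sum_mem fun i _ => ?_
    rw [mul_left_comm]
    exact C.mul_mem (h1 i) (hc i)
  rw [hr] at h2
  simp only [add_zero, Nat.descFactorial_self, pow_zero, mul_one, zero_add, pow_one, eval_add,
    eval_mul, eval_natCast, eval_C, eval_pow, eval_sub, eval_X, sub_self, mul_zero] at h2
  have h3 := C.smul_mem h2 ((n.factorial : ℂ)⁻¹)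
  have h4 : (n.factorial : K) ≠ 0 := by exact_mod_cast n.factorial_ne_zero
  convert h3 using 1
  rw [Algebra.smul_def, map_inv₀, map_natCast]
  field_simp

lemma seid_fg (D : Derivation ℂ K K) (C : Subalgebra ℂ K) (hfg : C.FG) (hC : ∀ z ∈ C, D z ∈ C)
    (α : K) (hα : IsIntegral C α) (c : K) (hc0 : c ≠ 0) (hc : c ∈ C) (hcα : c * α ∈ C) :
    IsIntegral C (D α) := by
  have : Algebra.FiniteType ℂ C := (Subalgebra.fg_top C).2 hfg |> fun h => ⟨h⟩
  have : IsNoetherianRing C := Algebra.FiniteType.isNoetherianRing ℂ C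
  obtain ⟨r, hr, hr'⟩ := hα.isAlmostIntegral_of_exists_smul_mem_range
    ⟨⟨c, hc⟩, mem_nonZeroDivisors_of_ne_zero (fun h => hc0 (congrArg Subtype.val h)),
      ⟨⟨_, hcα⟩, rfl⟩⟩
  have h1 : ∀ n, (r : K) * α ^ n ∈ C := fun n => by
    obtain ⟨z, hz⟩ := hr' n
    have : (z : K) = r * α ^ n := hz
    rw [← this]; exact z.2
  refine IsAlmostIntegral.isIntegral ⟨r * r, mul_mem hr hr, fun n => ?_⟩
  refine ⟨⟨_, seid_key D C hC α r h1 n⟩, ?_⟩
  change _ = ((r * r : C) : K) * _
  simp [mul_assoc]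

lemma adjoin_sub_val (V : ValuationSubring K) (hV : ∀ c : ℂ, algebraMap ℂ K c ∈ V) (T : Set K)
    (hT : ∀ t ∈ T, t ∈ V) : ∀ z ∈ Algebra.adjoin ℂ T, z ∈ V := by
  intro z hz
  induction hz using Algebra.adjoin_induction with
  | mem x hx => exact hT x hx
  | algebraMap r => exact hV r
  | add x y _ _ hx hy => exact V.add_mem _ _ hx hy
  | mul x y _ _ hx hy => exact V.mul_mem _ _ hx hy

lemma adjoin_der (D : Derivation ℂ K K) (T : Set K) (C : Subalgebra ℂ K) (hTC : ∀ t ∈ T, t ∈ C)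
    (hT : ∀ t ∈ T, D t ∈ C) : ∀ z ∈ Algebra.adjoin ℂ T, D z ∈ C := by
  have hle : Algebra.adjoin ℂ T ≤ C := Algebra.adjoin_le hTC
  intro z hz
  induction hz using Algebra.adjoin_induction with
  | mem x hx => exact hT x hx
  | algebraMap r => simp
  | add x y _ _ hx hy => rw [map_add]; exact C.add_mem hx hy
  | mul x y hx' hy' hx hy =>
    rw [Derivation.leibniz]
    exact C.add_mem (C.mul_mem (hle hx') hy) (C.mul_mem (hle hy') hx)

/-- finitely generated `D`-stable subalgebra inside `V` -/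
def Stab (V : ValuationSubring K) (D : Derivation ℂ K K) (C : Subalgebra ℂ K) : Prop :=
  C.FG ∧ (∀ z ∈ C, z ∈ V) ∧ (∀ z ∈ C, D z ∈ C)

lemma Stab.sup {V : ValuationSubring K} (hV : ∀ c : ℂ, algebraMap ℂ K c ∈ V)
    {D : Derivation ℂ K K} {C C' : Subalgebra ℂ K}
    (h : Stab V D C) (h' : Stab V D C') : Stab V D (C ⊔ C') := by
  refine ⟨h.1.sup h'.1, ?_, ?_⟩
  · rw [Algebra.sup_def]
    refine adjoin_sub_val V hV _ ?_
    rintro t (ht | ht)
    exacts [h.2.1 t ht, h'.2.1 t ht]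
  · intro z hz
    rw [Algebra.sup_def] at hz
    refine adjoin_der D _ _ ?_ ?_ z hz
    · rintro t (ht | ht)
      exacts [(le_sup_left : C ≤ C ⊔ C') ht, (le_sup_right : C' ≤ C ⊔ C') ht]
    · rintro t (ht | ht)
      exacts [(le_sup_left : C ≤ C ⊔ C') (h.2.2 t ht), (le_sup_right : C' ≤ C ⊔ C') (h'.2.2 t ht)]

lemma Stab.bot {V : ValuationSubring K} (hV : ∀ c : ℂ, algebraMap ℂ K c ∈ V)
    (D : Derivation ℂ K K) : Stab V D ⊥ := by
  refine ⟨Subalgebra.fg_bot, ?_, ?_⟩
  · intro z hz; obtain ⟨c, rfl⟩ := Algebra.mem_bot.1 hz; exact hV c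
  · intro z hz; obtain ⟨c, rfl⟩ := Algebra.mem_bot.1 hz; simp

/-- Elements lying in some finitely generated `D`-stable subalgebra inside `V`. -/
def Om (V : ValuationSubring K) (hV : ∀ c : ℂ, algebraMap ℂ K c ∈ V) (D : Derivation ℂ K K) :
    Subalgebra ℂ K where
  carrier := {x | ∃ C : Subalgebra ℂ K, Stab V D C ∧ x ∈ C}
  mul_mem' := by
    rintro a b ⟨C, h1, h2⟩ ⟨C', h1', h2'⟩
    exact ⟨C ⊔ C', h1.sup hV h1', Subalgebra.mul_mem _ ((le_sup_left : C ≤ C ⊔ C') h2)
      ((le_sup_right : C' ≤ C ⊔ C') h2')⟩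
  add_mem' := by
    rintro a b ⟨C, h1, h2⟩ ⟨C', h1', h2'⟩
    exact ⟨C ⊔ C', h1.sup hV h1', Subalgebra.add_mem _ ((le_sup_left : C ≤ C ⊔ C') h2)
      ((le_sup_right : C' ≤ C ⊔ C') h2')⟩
  algebraMap_mem' c := ⟨⊥, Stab.bot hV D, Subalgebra.algebraMap_mem _ c⟩

section Om
variable {V : ValuationSubring K} {hV : ∀ c : ℂ, algebraMap ℂ K c ∈ V} {D : Derivation ℂ K K}

lemma Om.mem_val {x : K} (h : x ∈ Om V hV D) : x ∈ V := by
  obtain ⟨C, h1, h2⟩ := h; exact h1.2.1 x h2

lemma Om.der {x : K} (h : x ∈ Om V hV D) : D x ∈ Om V hV D := by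
  obtain ⟨C, h1, h2⟩ := h; exact ⟨C, h1, h1.2.2 x h2⟩

lemma Om.finset (s : Finset K) (h : ∀ x ∈ s, x ∈ Om V hV D) :
    ∃ C : Subalgebra ℂ K, Stab V D C ∧ ∀ x ∈ s, x ∈ C := by
  classical
  induction s using Finset.induction_on with
  | empty => exact ⟨⊥, Stab.bot hV D, by simp⟩
  | insert a s _ ih =>
    obtain ⟨C, h1, h2⟩ := ih fun x hx => h x (Finset.mem_insert_of_mem hx)
    obtain ⟨C', h1', h2'⟩ := h a (Finset.mem_insert_self _ _)
    refine ⟨C ⊔ C', h1.sup hV h1', fun x hx => ?_⟩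
    rcases Finset.mem_insert.1 hx with rfl | hx
    · exact (le_sup_right : C' ≤ C ⊔ C') h2'
    · exact (le_sup_left : C ≤ C ⊔ C') (h2 x hx)

/-- initial charts -/
lemma Om.of_adjoin (T : Set K) (hT : T.Finite) (h1 : ∀ t ∈ T, t ∈ V)
    (h2 : ∀ t ∈ T, D t ∈ Algebra.adjoin ℂ T) : Algebra.adjoin ℂ T ≤ Om V hV D := fun _ hx =>
  ⟨Algebra.adjoin ℂ T, ⟨⟨hT.toFinset, by simp⟩, adjoin_sub_val V hV T h1,
    adjoin_der D T _ (fun _ ht => Algebra.subset_adjoin ht) h2⟩, hx⟩

/-- adjoining an element after rescaling the derivation -/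
lemma Om.adj_gen {D' : Derivation ℂ K K} (u c p q : K) (n : ℕ) (hu : u ∈ V)
    (hD' : ∀ z, D' z = u ^ n * c * D z) (hc : c ∈ Om V hV D) (hp : p ∈ Om V hV D)
    (hq : q ∈ Om V hV D) (m : ℕ) (hDu : D' u = p + q * u ^ m) :
    u ∈ Om V hV D' ∧ Om V hV D ≤ Om V hV D' := by
  classical
  have main : ∀ x ∈ Om V hV D, u ∈ Om V hV D' ∧ x ∈ Om V hV D' := by
    intro x hx
    obtain ⟨C, h1, h2⟩ := Om.finset (hV := hV) (D := D) {c, p, q, x} (by simp [hc, hp, hq, hx])
    simp only [Finset.mem_insert, Finset.mem_singleton, forall_eq_or_imp, forall_eq] at h2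
    have hl : C ≤ C ⊔ Algebra.adjoin ℂ {u} := le_sup_left
    have hr : u ∈ C ⊔ Algebra.adjoin ℂ {u} :=
      (le_sup_right : _ ≤ C ⊔ Algebra.adjoin ℂ {u}) (Algebra.self_mem_adjoin_singleton ℂ u)
    have he : C ⊔ Algebra.adjoin ℂ {u} = Algebra.adjoin ℂ ((C : Set K) ∪ {u}) := by
      rw [Algebra.adjoin_union, Algebra.adjoin_eq]
    have hs : Stab V D' (C ⊔ Algebra.adjoin ℂ {u}) := by
      refine ⟨h1.1.sup ⟨{u}, by simp⟩, ?_, ?_⟩
      · rw [he]
        refine adjoin_sub_val V hV _ ?_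
        rintro t (ht | rfl)
        exacts [h1.2.1 t ht, hu]
      · intro z hz
        rw [he] at hz
        refine adjoin_der D' _ _ ?_ ?_ z hz
        · rintro t (ht | rfl)
          exacts [hl ht, hr]
        · rintro t (ht | rfl)
          · rw [hD']
            exact mul_mem (mul_mem (pow_mem hr _) (hl h2.1)) (hl (h1.2.2 t ht))
          · rw [hDu]
            exact add_mem (hl h2.2.1) (mul_mem (hl h2.2.2.1) (pow_mem hr _))
    exact ⟨⟨_, hs, hr⟩, ⟨_, hs, hl h2.2.2.2⟩⟩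
  exact ⟨(main 1 (one_mem _)).1, fun x hx => (main x hx).2⟩

lemma Om.adj (u p q : K) (m : ℕ) (hu : u ∈ V) (hp : p ∈ Om V hV D) (hq : q ∈ Om V hV D)
    (hDu : D u = p + q * u ^ m) : u ∈ Om V hV D :=
  (Om.adj_gen (D' := D) u 1 p q 0 hu (by simp) (one_mem _) hp hq m hDu).1

lemma Om.inv {u : K} (hu : u ∈ Om V hV D) (hu' : u⁻¹ ∈ V) : u⁻¹ ∈ Om V hV D := by
  refine Om.adj u⁻¹ 0 (-D u) 2 hu' (zero_mem _) (neg_mem (Om.der hu)) ?_
  rw [Derivation.leibniz_inv]; simp; ring

lemma mem_of_pow_mem {u : K} {n : ℕ} (hn : n ≠ 0) (h : u ^ n ∈ V) : u ∈ V := by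
  rw [← V.valuation_le_one_iff] at h ⊢
  rw [map_pow] at h
  exact (pow_le_one_iff hn).1 h

/-- roots with controlled logarithmic derivative -/
lemma Om.root {u U c : K} {n : ℕ} (hn : n ≠ 0) (h : u ^ n = U) (hU : U ∈ V) (hU0 : U ≠ 0)
    (hc : c ∈ Om V hV D) (hD : D U = c * U) : u ∈ Om V hV D ∧ D u = (n : K)⁻¹ * c * u := by
  have : CharZero K := charZero_of_injective_ringHom (algebraMap ℂ K).injective
  have hu0 : u ≠ 0 := by rintro rfl; exact hU0 (by rw [← h, zero_pow hn])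
  have h1 : D u = (n : K)⁻¹ * c * u := by
    obtain ⟨k, rfl⟩ := Nat.exists_eq_succ_of_ne_zero hn
    rw [← h, Derivation.leibniz_pow] at hD
    have h2 : ((k + 1 : ℕ) : K) ≠ 0 := by exact_mod_cast hn
    simp only [Nat.succ_eq_add_one, Nat.add_sub_cancel, nsmul_eq_mul, smul_eq_mul] at hD ⊢
    have h3 : u ^ k ≠ 0 := pow_ne_zero _ hu0
    field_simp
    apply mul_left_cancel₀ h3
    linear_combination hD
  refine ⟨Om.adj u 0 ((n : K)⁻¹ * c) 1 (mem_of_pow_mem hn (h ▸ hU)) (zero_mem _) ?_ (by simp [h1]), h1⟩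
  refine mul_mem ?_ hc
  have := (Om V hV D).algebraMap_mem (n : ℂ)⁻¹
  rwa [map_inv₀, map_natCast] at this

/-- the field of fractions of a subalgebra, as an intermediate field -/
def Frac (C : Subalgebra ℂ K) : IntermediateField ℂ K where
  carrier := {z | ∃ c ∈ C, c ≠ 0 ∧ c * z ∈ C}
  mul_mem' := by
    rintro a b ⟨c, h1, h2, h3⟩ ⟨c', h1', h2', h3'⟩
    exact ⟨c * c', mul_mem h1 h1', mul_ne_zero h2 h2', by
      rw [mul_mul_mul_comm]; exact mul_mem h3 h3'⟩
  add_mem' := by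
    rintro a b ⟨c, h1, h2, h3⟩ ⟨c', h1', h2', h3'⟩
    refine ⟨c * c', mul_mem h1 h1', mul_ne_zero h2 h2', ?_⟩
    rw [show c * c' * (a + b) = c' * (c * a) + c * (c' * b) by ring]
    exact add_mem (mul_mem h1' h3) (mul_mem h1 h3')
  algebraMap_mem' c := ⟨1, one_mem _, one_ne_zero, by simp⟩
  inv_mem' := by
    rintro a ⟨c, h1, h2, h3⟩
    rcases eq_or_ne a 0 with rfl | ha
    · exact ⟨1, one_mem _, one_ne_zero, by simp⟩
    · exact ⟨c * a, h3, mul_ne_zero h2 ha, by rwa [mul_assoc, mul_inv_cancel₀ ha, mul_one]⟩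

lemma mem_Frac {C : Subalgebra ℂ K} {z : K} (h : z ∈ C) : z ∈ Frac C :=
  ⟨1, one_mem _, one_ne_zero, by simpa using h⟩

/-- Seidenberg's lemma in valuative form. -/
lemma Om.seid (hF : Frac (Om V hV D) = ⊤) (B : Subalgebra ℂ K) (hB : B ≤ Om V hV D)
    (α : K) (hα : IsIntegral B α) : D α ∈ V := by
  classical
  obtain ⟨c, h1, h2, h3⟩ : α ∈ Frac (Om V hV D) := hF ▸ IntermediateField.mem_top
  obtain ⟨p, hp, hpα⟩ := hα
  obtain ⟨C, hC, hC'⟩ := Om.finset (hV := hV) (D := D)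
    (insert c (insert (c * α) ((p.map (algebraMap B K)).coeffs))) (by
      intro x hx
      simp only [Finset.mem_insert, mem_coeffs_iff] at hx
      rcases hx with rfl | rfl | ⟨n, _, rfl⟩
      · exact h1
      · exact h3
      · rw [coeff_map]; exact hB (p.coeff n).2)
  have hint : IsIntegral C α := by
    have hl : p.map (algebraMap B K) ∈ lifts (algebraMap C K) := by
      rw [lifts_iff_coeff_lifts]
      intro n
      by_cases h : (p.map (algebraMap B K)).coeff n = 0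
      · rw [h]; exact ⟨0, by simp⟩
      · exact ⟨⟨_, hC' _ (by simp only [Finset.mem_insert]; exact Or.inr (Or.inr (coeff_mem_coeffs h)))⟩, rfl⟩
    obtain ⟨q, hq1, _, hq3⟩ := lifts_and_natDegree_eq_and_monic hl (hp.map _)
    refine ⟨q, hq3, ?_⟩
    rw [← eval_map, hq1, eval_map, hpα]
  have h4 := seid_fg D C hC.1 hC.2.2 α hint c h2 (hC' _ (by simp)) (hC' _ (by simp))
  have h5 : IsIntegral V (D α) := by
    let f : C →+* V := (C.val.toRingHom).codRestrict V.toSubring (fun z => hC.2.1 z z.2)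
    exact h4.map_of_comp_eq f (RingHom.id K) (by ext; rfl)
  obtain ⟨z, hz⟩ := IsIntegrallyClosed.isIntegral_iff.1 h5
  rw [← hz]; exact z.2

end Om

end Crest.Agent.R278
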