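import Crest.Agent.R278.Abs
import Crest.Agent.R278.CRT

/-!
The data of the construction, and valuation-theoretic lemmas.
-/

set_option autoImplicit false
set_option linter.unusedSectionVars false

namespace Crest.Agent.R278

open Polynomial

variable {K : Type} [Field K] [Algebra ℂ K]

section val

lemma Lp_div {y σ l : K} {C : Subalgebra ℂ K} (h1 : l⁻¹ ∈ C) (hy : y / l ∈ C) (hs : σ / l ∈ C)
    {d : ℕ} {x : K} (hx : x ∈ Lp y σ d) : x / l ^ d ∈ C := by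
  have h0 : ∀ z ∈ L1 y σ, z / l ∈ C := by
    intro z hz
    induction hz using Submodule.span_induction with
    | mem x hx => rcases hx with rfl | rfl | rfl; exacts [by simpa using h1, hy, hs]
    | zero => simp
    | add x x' _ _ h h' => rw [add_div]; exact add_mem h h'
    | smul c x _ h => rw [smul_div_assoc]; exact C.smul_mem h _
  induction d generalizing x with
  | zero =>
    rw [Lp, pow_zero, Submodule.mem_one] at hx
    obtain ⟨c, rfl⟩ := hx; simp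
  | succ d ih =>
    rw [Lp, pow_succ] at hx
    refine Submodule.mul_induction_on hx (fun a ha b hb => ?_) fun a b ha hb => ?_
    · rw [pow_succ, mul_div_mul_comm]; exact C.mul_mem (ih ha) (h0 b hb)
    · rw [add_div]; exact add_mem ha hb

lemma Lz_div {y σ l : K} {C : Subalgebra ℂ K} (h1 : l⁻¹ ∈ C) (hy : y / l ∈ C) (hs : σ / l ∈ C)
    {d : ℕ} {x : K} (hx : x ∈ Lz y σ d) :
    ∃ c₁ ∈ C, ∃ c₂ ∈ C, x / l ^ (d + 1) = l⁻¹ * c₁ + y / l * c₂ := by
  refine Submodule.mul_induction_on hx (fun a ha b hb => ?_) fun a b ha hb => ?_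
  · obtain ⟨α, β, rfl⟩ := Submodule.mem_span_pair.1 ha
    have := Lp_div h1 hy hs hb
    refine ⟨α • (b / l ^ d), C.smul_mem this _, β • (b / l ^ d), C.smul_mem this _, ?_⟩
    simp only [Algebra.smul_def, pow_succ, div_eq_mul_inv, mul_inv]; ring
  · obtain ⟨c₁, h₁, c₂, h₂, e⟩ := ha
    obtain ⟨c₁', h₁', c₂', h₂', e'⟩ := hb
    exact ⟨c₁ + c₁', add_mem h₁ h₁', c₂ + c₂', add_mem h₂ h₂', by rw [add_div, e, e']; ring⟩

lemma R2_le {y σ : K} {C : Subalgebra ℂ K} (hy : y ∈ C) (hs : σ ∈ C) : R2 y σ ≤ C :=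
  Algebra.adjoin_le (by rintro z (rfl | rfl); exacts [hy, hs])

lemma Nw_div {y σ w : K} {c : ℂ} {g : Fin 4 → ℂ[X]} {a : Fin 4 → ℕ} {C : Subalgebra ℂ K}
    (hw : ell y c = w * mon σ g a) (hwC : w ∈ C) (hs : σ ∈ C) {t₀ : ℕ} {m : Fin 4 → ℕ} {x : K}
    (hx : x ∈ Nw y σ c g a t₀ m) : ∃ z ∈ C, x = w ^ t₀ * mon σ g m * z := by
  have hy : y ∈ C := by
    have : y = algebraMap ℂ K c + w * mon σ g a := by rw [← hw, ell]; ring
    rw [this]; exact add_mem (C.algebraMap_mem _) (mul_mem hwC (mon_mem hs _ _))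
  induction hx using Submodule.span_induction with
  | zero => exact ⟨0, zero_mem _, by simp⟩
  | add x x' _ _ h h' =>
    obtain ⟨z, hz, rfl⟩ := h
    obtain ⟨z', hz', rfl⟩ := h'
    exact ⟨z + z', add_mem hz hz', by ring⟩
  | smul b x _ h =>
    obtain ⟨z, hz, rfl⟩ := h
    exact ⟨b • z, C.smul_mem hz _, by simp⟩
  | mem x hx =>
    obtain ⟨t, e, r, h1, h2, h3, rfl⟩ := hx
    obtain ⟨t', rfl⟩ := Nat.exists_eq_add_of_le h1
    refine ⟨w ^ t' * mon σ g ((t₀ + t') • a + e - m) * r,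
      mul_mem (mul_mem (pow_mem hwC _) (mon_mem hs _ _)) (R2_le hy hs h2), ?_⟩
    have : (t₀ + t') • a + e = m + ((t₀ + t') • a + e - m) := by
      ext j; have := h3 j; simp only [Pi.add_apply, Pi.smul_apply, smul_eq_mul, Pi.sub_apply]; omega
    rw [hw, mul_pow, ← mon_smul, mul_assoc (w ^ _), ← mon_add, this, mon_add, ← this]
    ring

/-- a valuation subring containing `ℂ` as a subalgebra -/
def VS (V : ValuationSubring K) (hV : ∀ c : ℂ, algebraMap ℂ K c ∈ V) : Subalgebra ℂ K where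
  carrier := V
  mul_mem' := fun ha hb => V.mul_mem _ _ ha hb
  add_mem' := fun ha hb => V.add_mem _ _ ha hb
  algebraMap_mem' := hV

variable {V : ValuationSubring K}

lemma vle {x : K} (h : x ∈ V) : V.valuation x ≤ 1 := (V.valuation_le_one_iff _).2 h
lemma vmem {x : K} (h : V.valuation x ≤ 1) : x ∈ V := (V.valuation_le_one_iff _).1 h

lemma vlt_mul {x z : K} (h : V.valuation x < 1) (hz : z ∈ V) : V.valuation (x * z) < 1 := by
  rw [map_mul]; exact lt_of_le_of_lt (mul_le_of_le_one_right' (vle hz)) h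

lemma v_one_add {x u : K} (hu : V.valuation u = 1) (h : V.valuation x < 1) :
    V.valuation (u + x) = 1 := by
  rw [V.valuation.map_add_eq_of_lt_left (by rwa [hu]), hu]

lemma v_const (hV : ∀ c : ℂ, algebraMap ℂ K c ∈ V) {c : ℂ} (hc : c ≠ 0) :
    V.valuation (algebraMap ℂ K c) = 1 := by
  have h1 := vle (hV c⁻¹)
  rw [map_inv₀, map_inv₀, inv_le_one₀ (by rw [Valuation.pos_iff]; simpa using hc)] at h1
  exact le_antisymm (vle (hV c)) h1

lemma v_of_mul {x z : K} (hx : x ∈ V) (hz : z ∈ V) (h : V.valuation (x * z) = 1) :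
    V.valuation x = 1 ∧ V.valuation z = 1 := by
  constructor
  · exact le_antisymm (vle hx) (not_lt.1 fun h' => absurd h (vlt_mul h' hz).ne)
  · exact le_antisymm (vle hz) (not_lt.1 fun h' => absurd h (by rw [mul_comm]; exact (vlt_mul h' hx).ne))

lemma v_ne {x : K} (h : V.valuation x = 1) : x ≠ 0 := by
  rintro rfl; simp at h

lemma v_inv_mem {x : K} (h : V.valuation x = 1) : x⁻¹ ∈ V := vmem (by simp [h])

lemma v_of_pow {x : K} {n : ℕ} (hn : n ≠ 0) (h : V.valuation (x ^ n) = 1) : V.valuation x = 1 := by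
  rw [map_pow] at h
  exact (pow_eq_one_iff_of_nonneg zero_le hn).1 h

lemma Nw_val (hV : ∀ c : ℂ, algebraMap ℂ K c ∈ V) {y σ : K} {c : ℂ} {g : Fin 4 → ℂ[X]}
    {a : Fin 4 → ℕ} (hy : y ∈ V) (hs : σ ∈ V) (j : Fin 4) (ha : a j ≠ 0)
    (hg : V.valuation (aeval σ (g j)) ^ a j ≤ V.valuation (ell y c)) {m : Fin 4 → ℕ} {x : K}
    (hx : x ∈ Nw y σ c g a 0 m) : V.valuation x ^ a j ≤ V.valuation (ell y c) ^ m j := by
  have hR : R2 y σ ≤ VS V hV := R2_le hy hs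
  induction hx using Submodule.span_induction with
  | zero => simp [ha]
  | add x x' _ _ h h' =>
    rcases le_total (V.valuation x) (V.valuation x') with h1 | h1
    · exact (pow_le_pow_left₀ zero_le ((V.valuation.map_add _ _).trans (max_le h1 le_rfl)) _).trans h'
    · exact (pow_le_pow_left₀ zero_le ((V.valuation.map_add _ _).trans (max_le le_rfl h1)) _).trans h
  | smul b x _ h =>
    rw [Algebra.smul_def, map_mul]
    exact (pow_le_pow_left₀ zero_le (mul_le_of_le_one_left' (vle (hV b))) _).trans h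
  | mem x hx =>
    obtain ⟨t, e, r, -, h2, h3, rfl⟩ := hx
    have h4 : V.valuation (mon σ g e) ≤ V.valuation (aeval σ (g j)) ^ e j := by
      rw [mon, ← Finset.mul_prod_erase _ _ (Finset.mem_univ j), map_mul, map_pow]
      exact mul_le_of_le_one_right' (vle ((VS V hV).prod_mem fun _ _ =>
        pow_mem (aeval_mem (C := VS V hV) hs _) _))
    have h5 : V.valuation (ell y c) ≤ 1 := vle (hR (ell_R2 c))
    calc V.valuation (ell y c ^ t * mon σ g e * r) ^ a j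
        ≤ (V.valuation (ell y c) ^ t * V.valuation (aeval σ (g j)) ^ e j) ^ a j := by
          refine pow_le_pow_left₀ zero_le ?_ _
          rw [map_mul, map_mul, map_pow]
          exact (mul_le_of_le_one_right' (vle (hR h2))).trans (mul_le_mul_right h4 _)
      _ = V.valuation (ell y c) ^ (t * a j) * (V.valuation (aeval σ (g j)) ^ a j) ^ e j := by
          rw [mul_pow, ← pow_mul, ← pow_mul, ← pow_mul, mul_comm (e j)]
      _ ≤ V.valuation (ell y c) ^ (t * a j) * V.valuation (ell y c) ^ e j :=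
          mul_le_mul_right (pow_le_pow_left₀ zero_le hg _) _
      _ ≤ _ := by rw [← pow_add]; exact pow_le_pow_of_le_one zero_le h5 (h3 j)

/-- localisation of the integral closure at the centre of `V` -/
def Loc (V : ValuationSubring K) (B : Subalgebra ℂ K) : Subalgebra ℂ K where
  carrier := {x | ∃ u, IsIntegral B u ∧ V.valuation u = 1 ∧ IsIntegral B (x * u)}
  mul_mem' := by
    rintro x z ⟨u, h1, h2, h3⟩ ⟨u', h1', h2', h3'⟩
    exact ⟨u * u', h1.mul h1', by simp [h2, h2'], by rw [mul_mul_mul_comm]; exact h3.mul h3'⟩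
  add_mem' := by
    rintro x z ⟨u, h1, h2, h3⟩ ⟨u', h1', h2', h3'⟩
    refine ⟨u * u', h1.mul h1', by simp [h2, h2'], ?_⟩
    rw [show (x + z) * (u * u') = x * u * u' + z * u' * u by ring]
    exact (h3.mul h1').add (h3'.mul h1)
  algebraMap_mem' c := ⟨1, isIntegral_one, by simp, by
    rw [mul_one]; exact isIntegral_algebraMap (x := algebraMap ℂ B c)⟩

lemma Loc.inv {B : Subalgebra ℂ K} {x : K} (hx : x ∈ Loc V B) (h : V.valuation x = 1) :
    x⁻¹ ∈ Loc V B := by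
  obtain ⟨u, h1, h2, h3⟩ := hx
  exact ⟨x * u, h3, by simp [h, h2], by rwa [← mul_assoc, inv_mul_cancel₀ (v_ne h), one_mul]⟩

lemma Loc.of_int {B : Subalgebra ℂ K} {x : K} (hx : IsIntegral B x) : x ∈ Loc V B :=
  ⟨1, isIntegral_one, by simp, by simpa using hx⟩

lemma good_of_loc {B : Subalgebra ℂ K} (hB : ∀ b ∈ B, b ∈ V) {v₁ v₂ : Derivation ℂ K K}
    (h : ∀ a, IsIntegral B a → v₁ a ∈ V ∧ v₂ a ∈ V) {s t : K} (hs : s ∈ Loc V B)
    (ht : t ∈ Loc V B) (hst : V.valuation (br v₁ v₂ s t) = 1) :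
    Good v₁ v₂ (IsIntegral B) V := by
  refine ⟨h, ?_⟩
  by_contra hcon
  push Not at hcon
  have hI : ∀ a, IsIntegral B a → a ∈ V := fun a ha =>
    mem_val_of_isIntegral V (fun b : B => hB b b.2) ha
  have hlt : ∀ a b, IsIntegral B a → IsIntegral B b → V.valuation (br v₁ v₂ a b) < 1 :=
    fun a b ha hb => lt_of_le_of_ne (vle (sub_mem (mul_mem (h a ha).1 (h b hb).2)
      (mul_mem (h a ha).2 (h b hb).1))) (hcon a b ha hb)
  obtain ⟨u, h1, h2, h3⟩ := hs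
  obtain ⟨u', h1', h2', h3'⟩ := ht
  have hsV : s ∈ V := vmem (by simpa [h2] using vle (hI _ h3))
  have htV : t ∈ V := vmem (by simpa [h2'] using vle (hI _ h3'))
  have e : br v₁ v₂ s t * (u * u') = br v₁ v₂ (s * u) (t * u') - br v₁ v₂ (s * u) u' * t
      - br v₁ v₂ u (t * u') * s + br v₁ v₂ u u' * (s * t) := by
    simp only [br, Derivation.leibniz, smul_eq_mul]; ring
  have := congrArg V.valuation e
  rw [map_mul, map_mul, hst, h2, h2', one_mul, one_mul] at this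
  refine absurd this.symm (ne_of_lt ?_)
  exact V.valuation.map_add_lt (V.valuation.map_sub_lt (V.valuation.map_sub_lt (hlt _ _ h3 h3')
    (vlt_mul (hlt _ _ h3 h1') htV)) (vlt_mul (hlt _ _ h1 h3') hsV))
    (vlt_mul (hlt _ _ h1 h1') (mul_mem hsV htV))

end val

/-- All the data and hypotheses of the construction. -/
structure Setup (K : Type) [Field K] [Algebra ℂ K] where
  y : K
  σ : K
  yi : Fin 4 → ℂ
  g : Fin 4 → Fin 4 → ℂ[X]
  n : Fin 4 → ℕ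
  a : Fin 4 → ℕ
  o : Fin 2 → Fin 4 → Fin 4 → ℕ
  m : Fin 2 → Fin 4 → Fin 4 → ℕ
  N : Fin 2 → ℕ
  kk : Fin 2 → Fin 4 → ℕ
  δ : Fin 2 → ℕ
  D : Fin 2 → Derivation ℂ K K
  P : Fin 2 → K
  B : Fin 2 → K
  A : Fin 2 → Fin 4 → K
  γ : Fin 2 → K
  H : Fin 2 → K
  s : Fin 4 → K
  p : Fin 4 → ℕ
  q : Fin 4 → ℕ
  b : Fin 4 → ℕ
  cδ : ℂ
  Bn : ℕ
  KK : Fin 4 → ℕ
  kx : Fin 4 → Fin 4 → ℕ
  V₀ : ValuationSubring K
  hyi : Function.Injective yi
  hmon : ∀ i j, (g i j).Monic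
  hdeg : ∀ i j, (g i j).natDegree = n j
  hcop : ∀ i j j', j ≠ j' → IsCoprime (g i j) (g i j')
  ho : ∀ k i j, 1 ≤ o k i j
  hoa : ∀ i j, o 0 i j + o 1 i j + 1 ≤ a j
  hDy : ∀ k, D k y = (∏ i, ell y (yi i)) * B k
  hDσ : ∀ k, D k σ = -P k + σ * y ^ 3 * B k
  hP : ∀ k, P k ∈ Lp y σ 9
  hB : ∀ k, B k ∈ Lp y σ 6
  hA : ∀ k i, A k i ∈ R2 y σ
  hQ : ∀ k i, ∃ r ∈ R2 y σ, D k σ = mon σ (g i) (o k i) * A k i + ell y (yi i) * r
  hN : ∀ k i, ∃ z ∈ R2 y σ, ∃ r ∈ R2 y σ, (∏ j ∈ Finset.univ.erase i, ell y (yi j)) * B k =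
    mon σ (g i) (o k i) * z + A k i * ∑ j, (a j : K) * aeval σ (derivative (g i j)) *
      mon σ (g i) (o k i - Pi.single j 1) + ell y (yi i) * r
  hs : ∀ i, s i = 1 ∨ ∃ c : ℂ, g i 1 = X - C c ∧ s i = σ - algebraMap ℂ K c ∧ o 0 i 1 = 1 ∧
    ∃ z ∈ R2 y σ, A 1 i = s i * z
  hb : ∀ i, N 0 = b i * q i
  hp : ∀ i, N 0 = p i + q i
  hm0 : ∀ i, mon σ (g i) (m 0 i) * s i ^ p i = mon σ (g i) (o 0 i) ^ N 0 * mon σ (g i) a ^ kk 0 i
  hm1 : ∀ i, mon σ (g i) (m 1 i) = mon σ (g i) (o 1 i) ^ N 1 * mon σ (g i) a ^ kk 1 i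
  hmk : ∀ i j, kk 0 i * a j ≤ m 0 i j
  hγ : ∀ k, γ k - σ ^ (δ k + 1) ∈ Lz y σ (δ k)
  hγN : ∀ k i, γ k - mon σ (g i) (m k i) ∈ Nw y σ (yi i) (g i) a 1 (m k i)
  hH : ∀ k, H k ^ N k * ∏ i, ell y (yi i) ^ kk k i = γ k
  hN0 : ∀ k, N k ≠ 0
  hδ : ∀ k, δ k + 1 = 8 * N k + ∑ i, kk k i
  hkk : ∀ k, 1 ≤ ∑ i, kk k i
  hkN : ∀ i, kk 0 i < N 0
  hcδ : cδ ≠ 0
  hγt : B 1 * P 0 - B 0 * P 1 - algebraMap ℂ K cδ * σ ^ 15 ∈ Lz y σ 14
  hγt' : ∀ i, ∃ r ∈ R2 y σ, B 1 * P 0 - B 0 * P 1 =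
    algebraMap ℂ K cδ * mon σ (g i) (o 0 i + o 1 i) + ell y (yi i) * r
  hK : IntermediateField.adjoin ℂ {y, σ, H 0, H 1} = ⊤
  htr : Algebra.trdeg ℂ K = 2
  hV₀ : ∀ c : ℂ, algebraMap ℂ K c ∈ V₀
  hV₀y : y ∈ V₀
  hV₀σ : V₀.valuation σ⁻¹ < 1
  hσ : σ ≠ 0
  hell : ∀ i, ell y (yi i) ≠ 0
  hkx : ∀ i j, Bn * (m 0 i j + m 1 i j + (o 0 i j + o 1 i j)) = kx i j * a j
  hkx2 : ∀ i j, 2 ≤ kx i j
  hKK : ∀ i j, kx i j ≤ KK i
  hdeg1 : ∑ i, KK i + 1 ≤ Bn * (δ 0 + 1 + (δ 1 + 1) + 15)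
  hdeg2 : ∀ i j, ∑ j', n j' * (kx i j' * a j' - kx i j * a j') + ∑ j', n j' * a j' + 8 +
    ∑ i', Function.update KK i (kx i j) i' ≤ Bn * (δ 0 + 1 + (δ 1 + 1) + 15)

end Crest.Agent.R278
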